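import Vale.Agent.P171.Grid

/-!
# P171: bound for the grand sum in one block.
-/

open MeasureTheory Filter Topology Set
open scoped ENNReal BigOperators

namespace Vale.Agent.P171

/-- Summing the two regimes. -/
lemma tsum_two_regimes {f : ℕ → ℝ≥0∞} {E : ℝ} (hE : 0 ≤ E) {N₀ : ℕ}
    (h1 : ∀ N, f N ≤ ENNReal.ofReal (Real.exp E))
    (h2 : ∀ N, N₀ ≤ N → f N ≤ ENNReal.ofReal (Real.exp (-(N : ℝ)))) :
    ∑' N, f N ≤ ENNReal.ofReal (Real.exp (E + Real.log ((N₀ : ℝ) + 2))) := by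
  have hpos : (0 : ℝ) < (N₀ : ℝ) + 2 := by positivity
  have hexp1 : (1 : ℝ) ≤ Real.exp E := Real.one_le_exp hE
  have hhalf : Real.exp (-1) ≤ 1 / 2 := by
    rw [Real.exp_neg, one_div]
    have : (2 : ℝ) ≤ Real.exp 1 := by
      have := Real.add_one_le_exp (1 : ℝ)
      linarith
    exact inv_anti₀ (by norm_num) this
  have hpt : ∀ N : ℕ, f N ≤
      (if N ∈ Finset.range N₀ then ENNReal.ofReal (Real.exp E) else 0) +
        ENNReal.ofReal (Real.exp E) * ENNReal.ofReal ((1 / 2 : ℝ) ^ N) := by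
    intro N
    by_cases hN : N ∈ Finset.range N₀
    · rw [if_pos hN]
      exact (h1 N).trans le_self_add
    · rw [if_neg hN, zero_add, ← ENNReal.ofReal_mul (Real.exp_pos _).le]
      have hN' : N₀ ≤ N := by simpa using hN
      refine (h2 N hN').trans (ENNReal.ofReal_le_ofReal ?_)
      have e1 : Real.exp (-(N : ℝ)) = Real.exp (-1) ^ N := by
        rw [← Real.exp_nat_mul]; congr 1; ring
      rw [e1]
      have e2 : Real.exp (-1) ^ N ≤ (1 / 2 : ℝ) ^ N :=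
        pow_le_pow_left₀ (Real.exp_pos _).le hhalf N
      have e3 : (0 : ℝ) ≤ (1 / 2 : ℝ) ^ N := by positivity
      nlinarith
  refine (ENNReal.tsum_le_tsum hpt).trans ?_
  rw [ENNReal.tsum_add, ENNReal.tsum_mul_left]
  have hs1 : ∑' N : ℕ, (if N ∈ Finset.range N₀ then ENNReal.ofReal (Real.exp E) else 0) =
      N₀ * ENNReal.ofReal (Real.exp E) := by
    rw [tsum_eq_sum (s := Finset.range N₀) (fun N hN => if_neg hN)]
    rw [Finset.sum_congr rfl (fun N hN => if_pos hN)]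
    simp
  have hs2 : ∑' N : ℕ, ENNReal.ofReal ((1 / 2 : ℝ) ^ N) = ENNReal.ofReal 2 := by
    rw [← ENNReal.ofReal_tsum_of_nonneg (fun N => by positivity) summable_geometric_two,
      tsum_geometric_two]
  rw [hs1, hs2, Real.exp_add, Real.exp_log hpos, ← ENNReal.ofReal_mul (Real.exp_pos _).le]
  have e : (N₀ : ℝ≥0∞) = ENNReal.ofReal (N₀ : ℝ) := (ENNReal.ofReal_natCast N₀).symm
  rw [e, ← ENNReal.ofReal_mul (by positivity), ← ENNReal.ofReal_add (by positivity) (by positivity)]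
  refine ENNReal.ofReal_le_ofReal (le_of_eq ?_)
  ring

/-- The grand sum is a bound for the pressure-times-volume. -/
lemma XiL_le_press {g : ℝ → ℝ} {A R : ℝ} (hg : IsAttr g A) (hr : HasRange g R) (ν : ℝ) {L : ℝ}
    (hL : 1 ≤ L) : XiL g ν L ≤ ENNReal.ofReal (Real.exp ((L + R) ^ 3 * press g ν)) := by
  have hL0 : 0 < L := by linarith
  have hne := XiL_ne_top hg ν hL0
  have h1 : 1 ≤ XiL g ν L := one_le_XiL g ν L
  have h3 : 0 < (XiL g ν L).toReal := by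
    have : (1 : ℝ≥0∞).toReal ≤ (XiL g ν L).toReal := ENNReal.toReal_mono hne h1
    simp at this
    linarith
  have h4 := logXi_le_press hg hr ν hL
  unfold logXi at h4
  rw [← ENNReal.ofReal_toReal hne]
  refine ENNReal.ofReal_le_ofReal ?_
  exact (Real.log_le_iff_le_exp h3).mp h4

/-- Rewriting the block weight through a Legendre transform. -/
lemma Wblk_eq (g : ℝ → ℝ) (θ : ℝ) {c : ℝ} (hc : 0 < c) (μ : ℝ) (N : ℕ) (x : Fin N → X) :
    Wblk g θ c μ N x =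
      ENNReal.ofReal (Real.exp (-((2 * c * N) ^ 2 / (4 * c)))) *
        W (fun r => θ * g r) (μ + 2 * c * N) N x := by
  unfold Wblk W
  rw [← ENNReal.ofReal_mul (Real.exp_pos _).le, ← Real.exp_add]
  congr 2
  unfold logW
  rw [pairEnergy_const_mul]
  field_simp
  ring

/-- A single term of the block grand sum is bounded by the grand sum at the shifted chemical
potential. -/
lemma term_le_press {g : ℝ → ℝ} {A R θ c μ ℓ : ℝ} (hg : IsAttr (fun r => θ * g r) A)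
    (hr : HasRange (fun r => θ * g r) R) (hc : 0 < c) (hℓ : 1 ≤ ℓ) (N : ℕ) :
    (N.factorial : ℝ≥0∞)⁻¹ * ∫⁻ x in Set.pi Set.univ (fun _ : Fin N => cube ℓ), Wblk g θ c μ N x ≤
      ENNReal.ofReal (Real.exp ((ℓ + R) ^ 3 * press (fun r => θ * g r) (μ + 2 * c * N) -
        (2 * c * N) ^ 2 / (4 * c))) := by
  have hm : Measurable (W (fun r => θ * g r) (μ + 2 * c * N) N) := W_measurable hg.meas _ N
  simp_rw [Wblk_eq g θ hc μ N]
  rw [lintegral_const_mul _ hm]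
  have h1 : (N.factorial : ℝ≥0∞)⁻¹ * ∫⁻ x in Set.pi Set.univ (fun _ : Fin N => cube ℓ),
      W (fun r => θ * g r) (μ + 2 * c * N) N x ≤ XiL (fun r => θ * g r) (μ + 2 * c * N) ℓ :=
    ENNReal.le_tsum (f := fun n => (n.factorial : ℝ≥0∞)⁻¹ * ∫⁻ x in Set.pi Set.univ (fun _ : Fin n => cube ℓ),
      W (fun r => θ * g r) (μ + 2 * c * N) n x) N
  have h2 := XiL_le_press hg hr (μ + 2 * c * N) hℓ
  have h3 := h1.trans h2
  calc (N.factorial : ℝ≥0∞)⁻¹ * (ENNReal.ofReal (Real.exp (-((2 * c * N) ^ 2 / (4 * c)))) *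
        ∫⁻ x in Set.pi Set.univ (fun _ : Fin N => cube ℓ), W (fun r => θ * g r) (μ + 2 * c * N) N x)
      = ENNReal.ofReal (Real.exp (-((2 * c * N) ^ 2 / (4 * c)))) * ((N.factorial : ℝ≥0∞)⁻¹ *
        ∫⁻ x in Set.pi Set.univ (fun _ : Fin N => cube ℓ), W (fun r => θ * g r) (μ + 2 * c * N) N x) := by
        ring
    _ ≤ ENNReal.ofReal (Real.exp (-((2 * c * N) ^ 2 / (4 * c)))) *
        ENNReal.ofReal (Real.exp ((ℓ + R) ^ 3 * press (fun r => θ * g r) (μ + 2 * c * N))) :=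
        mul_le_mul_right h3 _
    _ = _ := by
        rw [← ENNReal.ofReal_mul (Real.exp_pos _).le, ← Real.exp_add]
        congr 2
        ring

/-- Tail bound: a term with many particles is exponentially small. -/
lemma term_tail {g : ℝ → ℝ} {A θ c μ ℓ ρ : ℝ} (hg : IsAttr (fun r => θ * g r) A) {k : ℕ}
    (hk : 4 ≤ k) (hkA : 1152 * A ≤ k) (hℓ : 1 ≤ ℓ) (hc : 0 ≤ c)
    (hb : 1 ≤ (k : ℝ) / 288 - c * ℓ ^ 3) (hρ : 1 ≤ ρ)
    (hρ2 : 2 + μ + (k : ℝ) ^ 4 / 18 ≤ ρ) {N : ℕ} (hN : ρ * ℓ ^ 3 ≤ N) :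
    (N.factorial : ℝ≥0∞)⁻¹ * ∫⁻ x in Set.pi Set.univ (fun _ : Fin N => cube ℓ), Wblk g θ c μ N x ≤
      ENNReal.ofReal (Real.exp (-(N : ℝ))) := by
  have hv : 0 < ℓ ^ 3 := by positivity
  set v : ℝ := ℓ ^ 3 with hvdef
  have hv1 : v ≤ N := by nlinarith
  have hN0 : (0 : ℝ) ≤ N := Nat.cast_nonneg N
  have hpt : ∀ᵐ x ∂(volume : Measure (Fin N → X)), x ∈ Set.pi Set.univ (fun _ : Fin N => cube ℓ) →
      Wblk g θ c μ N x ≤ ENNReal.ofReal (Real.exp (-(2 * (N : ℝ)))) := by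
    filter_upwards [ae_injective N] with x hx hxc
    have hcube : ∀ i, x i ∈ cube ℓ := fun i => hxc i (mem_univ i)
    have h1 := logW_le_quadratic hg hk hkA μ hℓ N x hx hcube
    unfold logW at h1
    rw [pairEnergy_const_mul] at h1
    unfold Wblk
    refine ENNReal.ofReal_le_ofReal (Real.exp_le_exp.mpr ?_)
    -- combine
    have h2 : μ * N - pairEnergy phi0 x + θ * pairEnergy g x + c * (N : ℝ) ^ 2 ≤
        (μ + (k : ℝ) ^ 4 / 18) * N - ((k : ℝ) / 288 - c * v) * ((N : ℝ) ^ 2 / v) := by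
      have e : ((k : ℝ) / 288 - c * v) * ((N : ℝ) ^ 2 / v) =
          (k : ℝ) / 288 * (N : ℝ) ^ 2 / v - c * (N : ℝ) ^ 2 := by
        field_simp
      rw [e]
      linarith
    refine h2.trans ?_
    have h3 : ρ * N ≤ (N : ℝ) ^ 2 / v := by
      rw [le_div_iff₀ hv]
      nlinarith
    have h4 : ρ * N ≤ ((k : ℝ) / 288 - c * v) * ((N : ℝ) ^ 2 / v) := by
      have : (0 : ℝ) ≤ (N : ℝ) ^ 2 / v := by positivity
      nlinarith
    nlinarith
  have h1 : ∫⁻ x in Set.pi Set.univ (fun _ : Fin N => cube ℓ), Wblk g θ c μ N x ≤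
      ENNReal.ofReal (Real.exp (-(2 * (N : ℝ)))) * ENNReal.ofReal (v ^ N) := by
    refine (setLIntegral_mono_ae' (measurableSet_cfg (measurableSet_cube ℓ) N) hpt).trans ?_
    rw [setLIntegral_const, volume_pi_pi]
    simp only [Finset.prod_const, Finset.card_univ, Fintype.card_fin]
    rw [volume_cube (by linarith), ENNReal.ofReal_pow hv.le]
  have hfact : (0 : ℝ) < N.factorial := by positivity
  have h2 : (N.factorial : ℝ≥0∞)⁻¹ = ENNReal.ofReal ((N.factorial : ℝ)⁻¹) := by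
    rw [ENNReal.ofReal_inv_of_pos hfact, ENNReal.ofReal_natCast]
  refine (mul_le_mul_right h1 _).trans ?_
  rw [h2, ← ENNReal.ofReal_mul (Real.exp_pos _).le, ← ENNReal.ofReal_mul (by positivity)]
  refine ENNReal.ofReal_le_ofReal ?_
  have h5 : (N : ℝ) ^ N / N.factorial ≤ Real.exp N := Real.pow_div_factorial_le_exp _ hN0 N
  have h6 : v ^ N ≤ (N : ℝ) ^ N := pow_le_pow_left₀ hv.le hv1 N
  have h7 : (N.factorial : ℝ)⁻¹ * v ^ N ≤ Real.exp N := by
    refine le_trans ?_ h5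
    rw [div_eq_inv_mul]
    exact mul_le_mul_of_nonneg_left h6 (by positivity)
  calc (N.factorial : ℝ)⁻¹ * (Real.exp (-(2 * (N : ℝ))) * v ^ N)
      = Real.exp (-(2 * (N : ℝ))) * ((N.factorial : ℝ)⁻¹ * v ^ N) := by ring
    _ ≤ Real.exp (-(2 * (N : ℝ))) * Real.exp N :=
        mul_le_mul_of_nonneg_left h7 (Real.exp_pos _).le
    _ = Real.exp (-(N : ℝ)) := by
        rw [← Real.exp_add]; congr 1; ring

/-- The block grand sum is bounded by the sup of the Legendre-type expression, plus a logarithmic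
entropy term. -/
theorem block_le {g : ℝ → ℝ} {A R θ c μ ℓ ρ E₁ : ℝ} (hg : IsAttr (fun r => θ * g r) A)
    (hr : HasRange (fun r => θ * g r) R) (hc : 0 < c) (hℓ : 1 ≤ ℓ) {k : ℕ}
    (hk : 4 ≤ k) (hkA : 1152 * A ≤ k) (hb : 1 ≤ (k : ℝ) / 288 - c * ℓ ^ 3) (hρ : 1 ≤ ρ)
    (hρ2 : 2 + μ + (k : ℝ) ^ 4 / 18 ≤ ρ) (hE₁ : 0 ≤ E₁)
    (hT : ∀ γ : ℝ, (ℓ + R) ^ 3 * press (fun r => θ * g r) (μ + γ) - γ ^ 2 / (4 * c) ≤ E₁) :
    Xi (cube ℓ) (Wblk g θ c μ) ≤ ENNReal.ofReal (Real.exp (E₁ + Real.log (ρ * ℓ ^ 3 + 3))) := by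
  have hv : 0 < ℓ ^ 3 := by positivity
  have hρ0 : 0 < ρ := by linarith
  have hN₀ : ρ * ℓ ^ 3 ≤ (⌈ρ * ℓ ^ 3⌉₊ : ℝ) := Nat.le_ceil _
  have hN₁ : (⌈ρ * ℓ ^ 3⌉₊ : ℝ) < ρ * ℓ ^ 3 + 1 := Nat.ceil_lt_add_one (by positivity)
  unfold Xi
  have h := tsum_two_regimes (f := fun N => (N.factorial : ℝ≥0∞)⁻¹ *
      ∫⁻ x in Set.pi Set.univ (fun _ : Fin N => cube ℓ), Wblk g θ c μ N x) hE₁ (N₀ := ⌈ρ * ℓ ^ 3⌉₊)
    (fun N => (term_le_press hg hr hc hℓ N).trans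
      (ENNReal.ofReal_le_ofReal (Real.exp_le_exp.mpr (hT _))))
    (fun N hN => term_tail hg hk hkA hℓ hc.le hb hρ hρ2 (hN₀.trans (by exact_mod_cast hN)))
  refine h.trans (ENNReal.ofReal_le_ofReal (Real.exp_le_exp.mpr ?_))
  have hpos : (0 : ℝ) < (⌈ρ * ℓ ^ 3⌉₊ : ℝ) + 2 := by positivity
  have := Real.log_le_log hpos (by linarith : (⌈ρ * ℓ ^ 3⌉₊ : ℝ) + 2 ≤ ρ * ℓ ^ 3 + 3)
  linarith

end Vale.Agent.P171
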