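import Vale.Agent.P171.Limit

/-!
# P171: block weights: the weight obtained after decoupling along a grid of blocks.
-/

open MeasureTheory Filter Topology Set
open scoped ENNReal BigOperators

namespace Vale.Agent.P171

lemma gridIdx_measurable (ℓ s : ℝ) : Measurable (gridIdx ℓ s) := by
  unfold gridIdx
  refine measurable_pi_iff.mpr fun c => ?_
  refine Int.measurable_floor.comp ?_
  have h : Measurable (fun x : X => x c) := (EuclideanSpace.proj c).continuous.measurable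
  exact (h.sub_const s).div_const ℓ

lemma measurableSet_sameBlock (ℓ s : ℝ) :
    MeasurableSet {p : X × X | gridIdx ℓ s p.1 = gridIdx ℓ s p.2} := by
  have h1 : Measurable (fun p : X × X => gridIdx ℓ s p.1) :=
    (gridIdx_measurable ℓ s).comp measurable_fst
  have h2 : Measurable (fun p : X × X => gridIdx ℓ s p.2) :=
    (gridIdx_measurable ℓ s).comp measurable_snd
  exact measurableSet_eq_fun h1 h2

lemma sameCount_eq (ℓ s : ℝ) {N : ℕ} (x : Fin N → X) :
    (sameCount ℓ s x : ℝ) =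
      ∑ i, ∑ j, if gridIdx ℓ s (x i) = gridIdx ℓ s (x j) then (1 : ℝ) else 0 := by
  classical
  unfold sameCount
  rw [Finset.card_filter]
  push_cast
  rw [← Finset.sum_product', Finset.univ_product_univ]

lemma sameCount_perm (ℓ s : ℝ) {N : ℕ} (σ : Equiv.Perm (Fin N)) (x : Fin N → X) :
    (sameCount ℓ s (x ∘ σ) : ℝ) = sameCount ℓ s x := by
  classical
  rw [sameCount_eq, sameCount_eq]
  simp only [Function.comp]
  rw [Equiv.sum_comp σ (fun i => ∑ j, if gridIdx ℓ s (x i) = gridIdx ℓ s (x (σ j)) then (1 : ℝ) else 0)]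
  refine Finset.sum_congr rfl fun i _ => ?_
  exact Equiv.sum_comp σ (fun j => if gridIdx ℓ s (x i) = gridIdx ℓ s (x j) then (1 : ℝ) else 0)

lemma sameCount_append (ℓ s : ℝ) {k l : ℕ} (y : Fin k → X) (z : Fin l → X)
    (hne : ∀ i j, gridIdx ℓ s (y i) ≠ gridIdx ℓ s (z j)) :
    (sameCount ℓ s (Fin.append y z) : ℝ) = sameCount ℓ s y + sameCount ℓ s z := by
  classical
  rw [sameCount_eq, sameCount_eq, sameCount_eq, Fin.sum_univ_add]
  simp only [Fin.sum_univ_add, Fin.append_left, Fin.append_right]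
  have e1 : ∀ i : Fin k, ∑ j : Fin l, (if gridIdx ℓ s (y i) = gridIdx ℓ s (z j) then (1 : ℝ) else 0)
      = 0 := by
    intro i
    exact Finset.sum_eq_zero fun j _ => if_neg (hne i j)
  have e2 : ∀ i : Fin l, ∑ j : Fin k, (if gridIdx ℓ s (z i) = gridIdx ℓ s (y j) then (1 : ℝ) else 0)
      = 0 := by
    intro i
    exact Finset.sum_eq_zero fun j _ => if_neg (Ne.symm (hne j i))
  simp [e1, e2]

lemma sameCount_measurable (ℓ s : ℝ) (N : ℕ) :
    Measurable (fun x : Fin N → X => (sameCount ℓ s x : ℝ)) := by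
  classical
  simp_rw [sameCount_eq]
  refine Finset.measurable_sum _ fun i _ => Finset.measurable_sum _ fun j _ => ?_
  refine Measurable.ite ?_ measurable_const measurable_const
  have h1 : Measurable (fun x : Fin N → X => gridIdx ℓ s (x i)) :=
    (gridIdx_measurable ℓ s).comp (measurable_pi_apply i)
  have h2 : Measurable (fun x : Fin N → X => gridIdx ℓ s (x j)) :=
    (gridIdx_measurable ℓ s).comp (measurable_pi_apply j)
  exact measurableSet_eq_fun h1 h2

/-- All points in one block: `sameCount = N²`. -/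
lemma sameCount_of_same (ℓ s : ℝ) {N : ℕ} (x : Fin N → X) {b : Fin 3 → ℤ}
    (hb : ∀ i, gridIdx ℓ s (x i) = b) : (sameCount ℓ s x : ℝ) = (N : ℝ) ^ 2 := by
  classical
  rw [sameCount_eq]
  simp [hb, sq]

/-- All points in one block: `pairSame = pairEnergy`. -/
lemma pairSame_of_same (f : ℝ → ℝ) (ℓ s : ℝ) {N : ℕ} (x : Fin N → X) {b : Fin 3 → ℤ}
    (hb : ∀ i, gridIdx ℓ s (x i) = b) : pairSame f ℓ s x = pairEnergy f x := by
  classical
  rw [pairSame_eq_pairK, pairEnergy_eq_pairK]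
  unfold pairK
  refine Finset.sum_congr rfl fun p _ => ?_
  beta_reduce
  rw [if_pos (by rw [hb, hb])]

lemma pairSame_perm (f : ℝ → ℝ) (ℓ s : ℝ) {N : ℕ} (σ : Equiv.Perm (Fin N)) (x : Fin N → X) :
    pairSame f ℓ s (x ∘ σ) = pairSame f ℓ s x := by
  classical
  simp only [pairSame_eq_pairK]
  refine pairK_perm _ (fun a b => ?_) σ x
  by_cases h : gridIdx ℓ s a = gridIdx ℓ s b
  · rw [if_pos h, if_pos h.symm, norm_sub_rev]
  · rw [if_neg h, if_neg (Ne.symm h)]

lemma pairSame_append (f : ℝ → ℝ) (ℓ s : ℝ) {k l : ℕ} (y : Fin k → X) (z : Fin l → X)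
    (hne : ∀ i j, gridIdx ℓ s (y i) ≠ gridIdx ℓ s (z j)) :
    pairSame f ℓ s (Fin.append y z) = pairSame f ℓ s y + pairSame f ℓ s z := by
  classical
  simp only [pairSame_eq_pairK]
  rw [pairK_append]
  · have : ∑ i, ∑ j, (fun a b => if gridIdx ℓ s a = gridIdx ℓ s b then f ‖a - b‖ else 0) (y i) (z j)
        = (0 : ℝ) := by
      refine Finset.sum_eq_zero fun i _ => Finset.sum_eq_zero fun j _ => ?_
      simp [hne i j]
    rw [this, add_zero]
  · intro a b
    by_cases h : gridIdx ℓ s a = gridIdx ℓ s b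
    · rw [if_pos h, if_pos h.symm, norm_sub_rev]
    · rw [if_neg h, if_neg (Ne.symm h)]

lemma pairSame_measurable {f : ℝ → ℝ} (hf : Measurable f) (ℓ s : ℝ) (N : ℕ) :
    Measurable (fun x : Fin N → X => pairSame f ℓ s x) := by
  classical
  simp only [pairSame_eq_pairK]
  refine pairK_measurable ?_ N
  have h0 : Measurable (fun p : X × X => f ‖p.1 - p.2‖) :=
    hf.comp ((measurable_fst.sub measurable_snd).norm)
  have : Measurable (fun p : X × X => if gridIdx ℓ s p.1 = gridIdx ℓ s p.2 then f ‖p.1 - p.2‖ else 0) :=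
    Measurable.ite (measurableSet_sameBlock ℓ s) h0 measurable_const
  exact this

lemma pairSame_le_pairEnergy {f : ℝ → ℝ} (hf : ∀ r, 0 ≤ f r) (ℓ s : ℝ) {N : ℕ} (x : Fin N → X) :
    pairSame f ℓ s x ≤ pairEnergy f x := by
  classical
  rw [pairSame_eq_pairK, pairEnergy_eq_pairK]
  unfold pairK
  refine Finset.sum_le_sum fun p _ => ?_
  beta_reduce
  split_ifs
  · exact le_rfl
  · exact hf _

lemma pairSame_nonneg {f : ℝ → ℝ} (hf : ∀ r, 0 ≤ f r) (ℓ s : ℝ) {N : ℕ} (x : Fin N → X) :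
    0 ≤ pairSame f ℓ s x :=
  Finset.sum_nonneg fun _ _ => hf _

/-- Log-weight after decoupling along the grid of side `ℓ` and shift `s`. -/
noncomputable def logB (g : ℝ → ℝ) (θ c μ ℓ s : ℝ) (N : ℕ) (x : Fin N → X) : ℝ :=
  μ * N - pairSame phi0 ℓ s x + θ * pairSame g ℓ s x + c * (sameCount ℓ s x : ℝ)

/-- Weight after decoupling along the grid of side `ℓ` and shift `s`. -/
noncomputable def WB (g : ℝ → ℝ) (θ c μ ℓ s : ℝ) : ∀ N : ℕ, (Fin N → X) → ℝ≥0∞ :=
  fun N x => ENNReal.ofReal (Real.exp (logB g θ c μ ℓ s N x))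

lemma WB_measurable {g : ℝ → ℝ} (hg : Measurable g) (θ c μ ℓ s : ℝ) (N : ℕ) :
    Measurable (WB g θ c μ ℓ s N) := by
  unfold WB logB
  refine ENNReal.measurable_ofReal.comp (Real.measurable_exp.comp ?_)
  exact ((measurable_const.sub (pairSame_measurable phi0_measurable ℓ s N)).add
    ((pairSame_measurable hg ℓ s N).const_mul θ)).add
      ((sameCount_measurable ℓ s N).const_mul c)

lemma WB_zero (g : ℝ → ℝ) (θ c μ ℓ s : ℝ) (x : Fin 0 → X) : WB g θ c μ ℓ s 0 x = 1 := by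
  have : logB g θ c μ ℓ s 0 x = 0 := by
    simp [logB, pairSame, sameCount]
  simp [WB, this]

lemma WB_perm (g : ℝ → ℝ) (θ c μ ℓ s : ℝ) (N : ℕ) (σ : Equiv.Perm (Fin N)) (x : Fin N → X) :
    WB g θ c μ ℓ s N (x ∘ σ) = WB g θ c μ ℓ s N x := by
  simp only [WB, logB, pairSame_perm, sameCount_perm]

lemma WB_append (g : ℝ → ℝ) (θ c μ ℓ s : ℝ) {k l : ℕ} (y : Fin k → X) (z : Fin l → X)
    (hne : ∀ i j, gridIdx ℓ s (y i) ≠ gridIdx ℓ s (z j)) :
    WB g θ c μ ℓ s (k + l) (Fin.append y z) = WB g θ c μ ℓ s k y * WB g θ c μ ℓ s l z := by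
  have h3 : logB g θ c μ ℓ s (k + l) (Fin.append y z) =
      logB g θ c μ ℓ s k y + logB g θ c μ ℓ s l z := by
    simp only [logB, pairSame_append _ _ _ y z hne, sameCount_append _ _ y z hne]
    push_cast
    ring
  simp only [WB, h3, Real.exp_add]
  rw [ENNReal.ofReal_mul (Real.exp_pos _).le]

/-- The weight used inside a single block. -/
noncomputable def Wblk (g : ℝ → ℝ) (θ c μ : ℝ) : ∀ N : ℕ, (Fin N → X) → ℝ≥0∞ :=
  fun N x => ENNReal.ofReal (Real.exp
    (μ * N - pairEnergy phi0 x + θ * pairEnergy g x + c * (N : ℝ) ^ 2))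

lemma Wblk_measurable {g : ℝ → ℝ} (hg : Measurable g) (θ c μ : ℝ) (N : ℕ) :
    Measurable (Wblk g θ c μ N) := by
  unfold Wblk
  refine ENNReal.measurable_ofReal.comp (Real.measurable_exp.comp ?_)
  exact ((measurable_const.sub (pairEnergy_measurable phi0_measurable N)).add
    ((pairEnergy_measurable hg N).const_mul θ)).add measurable_const

lemma Wblk_translate (g : ℝ → ℝ) (θ c μ : ℝ) (N : ℕ) (x : Fin N → X) (τ : X) :
    Wblk g θ c μ N (fun i => x i + τ) = Wblk g θ c μ N x := by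
  simp only [Wblk, pairEnergy_translate]

/-- A block. -/
def blk (ℓ s : ℝ) (i : Fin 3 → ℤ) : Set X := {x | gridIdx ℓ s x = i}

lemma measurableSet_blk (ℓ s : ℝ) (i : Fin 3 → ℤ) : MeasurableSet (blk ℓ s i) :=
  gridIdx_measurable ℓ s (measurableSet_singleton i)

/-- Corner of a block. -/
noncomputable def corner (ℓ s : ℝ) (i : Fin 3 → ℤ) : X :=
  (WithLp.toLp 2 (fun c => s + ℓ * (i c : ℝ)) : X)

lemma blk_sub_cube {ℓ : ℝ} (hℓ : 0 < ℓ) (s : ℝ) (i : Fin 3 → ℤ) {x : X} (hx : x ∈ blk ℓ s i) :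
    x + (-corner ℓ s i) ∈ cube ℓ := by
  intro c
  have h : gridIdx ℓ s x c = i c := congrFun hx c
  unfold gridIdx at h
  have h1 : (i c : ℝ) ≤ (x c - s) / ℓ := by rw [← h]; exact Int.floor_le _
  have h2 : (x c - s) / ℓ < (i c : ℝ) + 1 := by rw [← h]; exact Int.lt_floor_add_one _
  rw [le_div_iff₀ hℓ] at h1
  rw [div_lt_iff₀ hℓ] at h2
  have e : (x + (-corner ℓ s i)) c = x c - (s + ℓ * (i c : ℝ)) := by
    simp [corner, sub_eq_add_neg]
  rw [e]
  constructor <;> nlinarith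

/-- A block's grand sum is bounded by the grand sum on the reference cube. -/
lemma Xi_blk_le {g : ℝ → ℝ} (hg : Measurable g) {ℓ : ℝ} (hℓ : 0 < ℓ) (θ c μ s : ℝ)
    (i : Fin 3 → ℤ) (hcube : MeasurableSet (cube ℓ)) :
    Xi (blk ℓ s i) (WB g θ c μ ℓ s) ≤ Xi (cube ℓ) (Wblk g θ c μ) := by
  have h1 : Xi (blk ℓ s i) (WB g θ c μ ℓ s) ≤ Xi (blk ℓ s i) (Wblk g θ c μ) := by
    refine Xi_mono_weight (measurableSet_blk ℓ s i) fun N => ?_
    refine Filter.Eventually.of_forall fun x hx => ?_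
    have hb : ∀ j, gridIdx ℓ s (x j) = i := fun j => hx j (mem_univ j)
    simp only [WB, Wblk, logB]
    rw [pairSame_of_same _ _ _ x hb, pairSame_of_same _ _ _ x hb, sameCount_of_same _ _ x hb]
  refine h1.trans ?_
  have h2 : Xi (blk ℓ s i) (Wblk g θ c μ) ≤
      Xi ((fun x => x + (-corner ℓ s i)) ⁻¹' cube ℓ) (Wblk g θ c μ) :=
    Xi_mono_set (fun x hx => blk_sub_cube hℓ s i hx) _
  refine h2.trans (le_of_eq ?_)
  exact Xi_translate hcube _ (Wblk_measurable hg θ c μ) (fun N x => Wblk_translate g θ c μ N x _)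

/-- Factorization of the decoupled weight over a finite set of blocks. -/
lemma Xi_WB_biUnion {g : ℝ → ℝ} (hg : Measurable g) (θ c μ ℓ s : ℝ) (D : Finset (Fin 3 → ℤ)) :
    Xi (⋃ i ∈ D, blk ℓ s i) (WB g θ c μ ℓ s) = ∏ i ∈ D, Xi (blk ℓ s i) (WB g θ c μ ℓ s) := by
  refine Xi_biUnion D (blk ℓ s) (measurableSet_blk ℓ s) ?_ (WB_zero g θ c μ ℓ s)
    (WB_measurable hg θ c μ ℓ s) (WB_perm g θ c μ ℓ s) ?_
  · intro i j hij
    rw [Function.onFun, Set.disjoint_left]
    intro x hx hx2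
    exact hij (hx.symm.trans hx2)
  · intro D' j hj k l y z hy hz
    refine WB_append g θ c μ ℓ s y z fun i' j' h => ?_
    have hy' := hy i'
    simp only [mem_iUnion, exists_prop] at hy'
    obtain ⟨i'', hi'', hyi⟩ := hy'
    have h1 : gridIdx ℓ s (y i') = i'' := hyi
    have h2 : gridIdx ℓ s (z j') = j := hz j'
    apply hj
    have : i'' = j := by rw [← h1, ← h2, h]
    rwa [← this]

end Vale.Agent.P171
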