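import Vale.Agent.P171.Tower

/-!
# P171: from the tower to the potential of the statement.

The potential is `phi0 - gInf`, where `gInf` is the sum of the Kac kernels of the tower.
This file contains the bridge between the `ℝ≥0∞`-valued grand sum `Xi` and the real valued
partition functions of the statement, as well as the properties of the limit potential.
-/

open MeasureTheory Filter Topology Set
open scoped ENNReal BigOperators

namespace Vale.Agent.P171

section gInf

variable {a L : ℕ → ℝ}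

/-- The total attractive part of the tower. -/
noncomputable def gInf (a L : ℕ → ℝ) (r : ℝ) : ℝ := ∑' k, a k * kappa (L k) r

lemma ballVol_mono_one {ℓ : ℝ} (h : 1 ≤ ℓ) : ballVol 1 ≤ ballVol ℓ := by
  rw [ballVol_scale (by linarith : (0 : ℝ) ≤ ℓ)]
  have hv := ballVol_pos (L := 1) one_pos
  have h1 : (1 : ℝ) ≤ ℓ ^ 3 := one_le_pow₀ h
  nlinarith

lemma kappa_le_one_ball {ℓ : ℝ} (h : 1 ≤ ℓ) (r : ℝ) : kappa ℓ r ≤ (ballVol 1)⁻¹ := by
  have hv := ballVol_pos (L := 1) one_pos
  refine (kappa_le (by linarith) r).trans ?_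
  exact inv_anti₀ hv (ballVol_mono_one h)

lemma summable_tower (ha : ∀ k, 0 ≤ a k) (hL : ∀ k, 1 ≤ L k) (hs : Summable a) (r : ℝ) :
    Summable (fun k => a k * kappa (L k) r) := by
  refine Summable.of_nonneg_of_le (fun k => mul_nonneg (ha k) (kappa_nonneg _ _)) (fun k => ?_)
    (hs.mul_right (ballVol 1)⁻¹)
  exact mul_le_mul_of_nonneg_left (kappa_le_one_ball (hL k) r) (ha k)

lemma gInf_nonneg (ha : ∀ k, 0 ≤ a k) (r : ℝ) : 0 ≤ gInf a L r :=
  tsum_nonneg fun k => mul_nonneg (ha k) (kappa_nonneg _ _)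

lemma gInf_le (ha : ∀ k, 0 ≤ a k) (hL : ∀ k, 1 ≤ L k) (hs : Summable a) (r : ℝ) :
    gInf a L r ≤ (∑' k, a k) * (ballVol 1)⁻¹ := by
  unfold gInf
  rw [← tsum_mul_right]
  refine Summable.tsum_le_tsum (fun k => ?_) (summable_tower ha hL hs r) (hs.mul_right _)
  exact mul_le_mul_of_nonneg_left (kappa_le_one_ball (hL k) r) (ha k)

lemma gInf_measurable (ha : ∀ k, 0 ≤ a k) (hL : ∀ k, 1 ≤ L k) (hs : Summable a) :
    Measurable (gInf a L) := by
  refine measurable_of_tendsto_metrizable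
    (f := fun (n : ℕ) (r : ℝ) => ∑ k ∈ Finset.range n, a k * kappa (L k) r) ?_ ?_
  · intro n
    exact Finset.measurable_sum _ fun k _ => (kappa_measurable _).const_mul _
  · rw [tendsto_pi_nhds]
    intro r
    exact (summable_tower ha hL hs r).hasSum.tendsto_sum_nat

lemma pairEnergy_gInf (ha : ∀ k, 0 ≤ a k) (hL : ∀ k, 1 ≤ L k) (hs : Summable a) {N : ℕ}
    (x : Fin N → X) :
    HasSum (fun k => a k * pairEnergy (kappa (L k)) x) (pairEnergy (gInf a L) x) := by
  unfold pairEnergy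
  simp only [Finset.mul_sum]
  have h : ∀ p ∈ (Finset.univ : Finset (Fin N × Fin N)).filter (fun p => p.1 < p.2),
      HasSum (fun k => a k * kappa (L k) ‖x p.1 - x p.2‖) (gInf a L ‖x p.1 - x p.2‖) :=
    fun p _ => (summable_tower ha hL hs _).hasSum
  exact hasSum_sum h

lemma isAttr_gInf (ha : ∀ k, 0 ≤ a k) (hL : ∀ k, 1 ≤ L k) (hs : Summable a) :
    IsAttr (gInf a L) (∑' k, a k) := by
  refine ⟨gInf_nonneg ha, gInf_measurable ha hL hs, fun k hk N x => ?_⟩
  have h1 := pairEnergy_gInf (L := L) ha hL hs x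
  set S : ℝ := (sameCount (1 / (k : ℝ)) 0 x : ℝ) with hS
  have h2 : HasSum (fun j => a j * (32 * 1 * (k : ℝ) ^ 3 * S))
      ((∑' j, a j) * (32 * 1 * (k : ℝ) ^ 3 * S)) := hs.hasSum.mul_right _
  have h3 := hasSum_le (fun j => mul_le_mul_of_nonneg_left
    ((isAttr_kappa (hL j)).mass k hk N x) (ha j)) h1 h2
  calc _ ≤ _ := h3
    _ = _ := by ring

end gInf

section bridge

variable {g : ℝ → ℝ}

/-- The potential with core `phi0` and attractive part `g`. -/
noncomputable def phiOf (g : ℝ → ℝ) (r : ℝ) : ℝ := phi0 r - g r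

lemma pairEnergy_phiOf (g : ℝ → ℝ) {N : ℕ} (x : Fin N → X) :
    pairEnergy (phiOf g) x = pairEnergy phi0 x - pairEnergy g x := by
  unfold pairEnergy phiOf
  rw [Finset.sum_sub_distrib]

lemma logW_eq (g : ℝ → ℝ) (ν : ℝ) (N : ℕ) (x : Fin N → X) :
    logW g ν N x = ν * N + (-1 * pairEnergy (phiOf g) x) := by
  unfold logW
  rw [pairEnergy_phiOf]
  ring

lemma phiOf_measurable (hg : Measurable g) : Measurable (phiOf g) :=
  phi0_measurable.sub hg

lemma exp_pairEnergy_measurable (hg : Measurable g) (N : ℕ) :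
    Measurable (fun x : Fin N → X => Real.exp (-1 * pairEnergy (phiOf g) x)) :=
  Real.measurable_exp.comp ((pairEnergy_measurable (phiOf_measurable hg) N).const_mul _)

/-- The `N`-th term of the grand sum. -/
noncomputable def xiTerm (g : ℝ → ℝ) (ν L : ℝ) (N : ℕ) : ℝ≥0∞ :=
  (N.factorial : ℝ≥0∞)⁻¹ * ∫⁻ x in Set.pi Set.univ (fun _ : Fin N => cube L), W g ν N x

lemma XiL_eq_tsum (g : ℝ → ℝ) (ν L : ℝ) : XiL g ν L = ∑' N, xiTerm g ν L N := rfl

lemma xiTerm_ne_top {A : ℝ} (hg : IsAttr g A) (ν : ℝ) {L : ℝ} (hL : 0 < L) (N : ℕ) :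
    xiTerm g ν L N ≠ ∞ := by
  refine ne_top_of_le_ne_top (XiL_ne_top hg ν hL) ?_
  rw [XiL_eq_tsum]
  exact ENNReal.le_tsum N

lemma lintegral_W_ne_top {A : ℝ} (hg : IsAttr g A) (ν : ℝ) {L : ℝ} (hL : 0 < L) (N : ℕ) :
    ∫⁻ x in Set.pi Set.univ (fun _ : Fin N => cube L), W g ν N x ≠ ∞ := by
  intro h
  have h1 := xiTerm_ne_top hg ν hL N
  unfold xiTerm at h1
  rw [h, ENNReal.mul_top] at h1
  · exact h1 rfl
  · exact ENNReal.inv_ne_zero.2 (ENNReal.natCast_ne_top _)

lemma integrableOn_exp {A : ℝ} (hg : IsAttr g A) {L : ℝ} (hL : 0 < L) (N : ℕ) :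
    IntegrableOn (fun x : Fin N → X => Real.exp (-1 * pairEnergy (phiOf g) x))
      (Set.pi Set.univ (fun _ : Fin N => cube L)) := by
  refine ⟨(exp_pairEnergy_measurable hg.meas N).aestronglyMeasurable, ?_⟩
  rw [hasFiniteIntegral_iff_ofReal (Eventually.of_forall fun x => (Real.exp_pos _).le)]
  have h := lintegral_W_ne_top hg 0 hL N
  have e : ∀ x : Fin N → X, W g 0 N x = ENNReal.ofReal (Real.exp (-1 * pairEnergy (phiOf g) x)) := by
    intro x
    unfold W
    rw [logW_eq]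
    simp
  simp only [e] at h
  exact lt_top_iff_ne_top.2 h

lemma xiTerm_toReal {z : ℝ} (hz : 0 < z) (hg : Measurable g) (L : ℝ) (N : ℕ) :
    (xiTerm g (Real.log z) L N).toReal = z ^ N * canonicalZ (phiOf g) 1 L N := by
  unfold xiTerm canonicalZ
  rw [ENNReal.toReal_mul, ENNReal.toReal_inv, ENNReal.toReal_natCast]
  have hW : ∀ x : Fin N → X, W g (Real.log z) N x =
      ENNReal.ofReal (z ^ N * Real.exp (-1 * pairEnergy (phiOf g) x)) := by
    intro x
    unfold W
    rw [logW_eq, Real.exp_add]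
    congr 2
    rw [mul_comm, Real.exp_nat_mul, Real.exp_log hz]
  simp only [hW]
  have hint := integral_eq_lintegral_of_nonneg_ae
    (μ := (volume : Measure (Fin N → X)).restrict (Set.pi Set.univ (fun _ : Fin N => cube L)))
    (f := fun x : Fin N → X => z ^ N * Real.exp (-1 * pairEnergy (phiOf g) x))
    (Eventually.of_forall fun x => by positivity)
    (((exp_pairEnergy_measurable hg N).const_mul _).aestronglyMeasurable)
  rw [← hint, integral_const_mul]
  ring

lemma summable_grand {A : ℝ} (hg : IsAttr g A) {z : ℝ} (hz : 0 < z) {L : ℝ} (hL : 0 < L) :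
    Summable (fun N : ℕ => z ^ N * canonicalZ (phiOf g) 1 L N) := by
  have h := ENNReal.summable_toReal (f := fun N => xiTerm g (Real.log z) L N)
    (by rw [← XiL_eq_tsum]; exact XiL_ne_top hg _ hL)
  simpa only [xiTerm_toReal hz hg.meas] using h

lemma grandSum_eq {A : ℝ} (hg : IsAttr g A) {z : ℝ} (hz : 0 < z) {L : ℝ} (hL : 0 < L) :
    grandSum (phiOf g) 1 L z = (XiL g (Real.log z) L).toReal := by
  unfold grandSum
  rw [XiL_eq_tsum, ENNReal.tsum_toReal_eq (fun N => xiTerm_ne_top hg _ hL N)]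
  simp only [xiTerm_toReal hz hg.meas]

lemma log_grandSum_eq {A : ℝ} (hg : IsAttr g A) {z : ℝ} (hz : 0 < z) {L : ℝ} (hL : 0 < L) :
    Real.log (grandSum (phiOf g) 1 L z) = logXi g (Real.log z) L := by
  rw [grandSum_eq hg hz hL]
  rfl

/-- Stability of the potential. -/
lemma isStable_phiOf {A : ℝ} (hg : IsAttr g A) : IsStable (phiOf g) := by
  obtain ⟨k, hk, hkA⟩ := exists_k (1152 * A)
  refine ⟨(k : ℝ) ^ 4 / 18, fun N x hx => ?_⟩
  have h1 := logW_le_of_attr hg hk hkA 0 N x hx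
  rw [logW_eq] at h1
  have h2 : 0 ≤ ((k : ℝ) ^ 4 / 36) * (sameCount (1 / (k : ℝ)) 0 x : ℝ) := by positivity
  nlinarith

/-- Temperedness: the potential is nonpositive for `r ≥ 2`. -/
lemma isTempered_phiOf (hg : ∀ r, 0 ≤ g r) : IsTempered (phiOf g) := by
  refine ⟨1, 1, 2, one_pos, one_pos, two_pos, fun r hr => ?_⟩
  have h1 : phi0 r = 0 := phi0_eq_zero (by linarith)
  have h2 : (0 : ℝ) ≤ 1 * r ^ (-(3 + (1 : ℝ))) := by
    have : 0 ≤ r := by linarith
    positivity
  unfold phiOf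
  rw [h1]
  linarith [hg r]

/-- Local boundedness of the potential. -/
lemma isLocallyBounded_phiOf {M : ℝ} (hg : ∀ r, 0 ≤ g r) (hM : ∀ r, g r ≤ M) :
    IsLocallyBoundedOnPos (phiOf g) := by
  intro a b ha
  refine ⟨(a ^ 4)⁻¹ + M, fun r hr => ?_⟩
  have hr0 : 0 < r := lt_of_lt_of_le ha hr.1
  have hinv : 0 ≤ (a ^ 4)⁻¹ := by positivity
  have h1 : 0 ≤ phi0 r := phi0_nonneg r
  have h2 : phi0 r ≤ (a ^ 4)⁻¹ := by
    unfold phi0
    split_ifs with h
    · exact inv_anti₀ (by positivity) (pow_le_pow_left₀ ha.le hr.1 4)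
    · exact hinv
  have h3 := hg r
  have h4 := hM r
  unfold phiOf
  rw [abs_le]
  constructor <;> linarith

end bridge

/-- The answer: a stable, tempered, radial pair potential whose pressure is not differentiable. -/
theorem exists_potential_with_kink :
    ∃ φ : ℝ → ℝ, Measurable φ ∧ IsLocallyBoundedOnPos φ ∧ IsStable φ ∧ IsTempered φ ∧
      HasPressureKink φ := by
  obtain ⟨a, L, ha, hL, hs, p, hp, μ, hμ⟩ := exists_tower
  have hg : IsAttr (gInf a L) (∑' k, a k) := isAttr_gInf ha hL hs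
  refine ⟨phiOf (gInf a L), phiOf_measurable hg.meas,
    isLocallyBounded_phiOf hg.nonneg (gInf_le ha hL hs), isStable_phiOf hg,
    isTempered_phiOf hg.nonneg, 1, one_pos, fun z => p (Real.log z), ?_,
    Real.exp μ, Real.exp_pos μ, ?_⟩
  · intro z hz
    refine ⟨fun L' N hL' => integrableOn_exp hg hL' N, fun L' hL' => summable_grand hg hz hL', ?_⟩
    refine (hp (Real.log z)).congr' ?_
    filter_upwards [eventually_gt_atTop 0] with V hV
    rw [log_grandSum_eq hg hz hV]
    rfl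
  · intro hdiff
    apply hμ
    have h1 : DifferentiableAt ℝ ((fun z => p (Real.log z)) ∘ Real.exp) μ :=
      DifferentiableAt.comp (g := fun z => p (Real.log z)) (f := Real.exp) μ hdiff
        Real.differentiableAt_exp
    have e : ((fun z => p (Real.log z)) ∘ Real.exp) = p := by
      funext ν
      simp
    rwa [e] at h1

end Vale.Agent.P171
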