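import Vale.Agent.P171.Kernel

/-!
# P171: stability estimates from the core `phi0` and bounds on the grand sum.
-/

open MeasureTheory Filter Topology Set
open scoped ENNReal BigOperators

namespace Vale.Agent.P171

/-! ### Counting pairs in the same block -/

/-- `sameCount` as a double sum of indicators. -/
lemma sameCount_cast_eq (ℓ s : ℝ) {N : ℕ} (x : Fin N → X) :
    (sameCount ℓ s x : ℝ) =
      ∑ i, ∑ j, if gridIdx ℓ s (x i) = gridIdx ℓ s (x j) then (1 : ℝ) else 0 := by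
  classical
  unfold sameCount
  rw [Finset.card_filter]
  push_cast
  rw [← Finset.univ_product_univ, Finset.sum_product]

/-- `sameCount` as the sum of squares of the block occupation numbers. -/
lemma sameCount_eq_sum_sq (ℓ s : ℝ) {N : ℕ} (x : Fin N → X) :
    sameCount ℓ s x = ∑ β ∈ (Finset.univ : Finset (Fin N)).image (fun i => gridIdx ℓ s (x i)),
      ((Finset.univ : Finset (Fin N)).filter (fun i => gridIdx ℓ s (x i) = β)).card ^ 2 := by
  unfold sameCount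
  rw [Finset.card_eq_sum_card_fiberwise (f := fun p : Fin N × Fin N => gridIdx ℓ s (x p.1))
    (t := (Finset.univ : Finset (Fin N)).image (fun i => gridIdx ℓ s (x i)))
    (fun p _ => Finset.mem_coe.2 (Finset.mem_image_of_mem _ (Finset.mem_univ p.1)))]
  refine Finset.sum_congr rfl fun β _ => ?_
  have h8 : ((Finset.univ : Finset (Fin N × Fin N)).filter
      (fun p => gridIdx ℓ s (x p.1) = gridIdx ℓ s (x p.2))).filter
        (fun p => gridIdx ℓ s (x p.1) = β) =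
      (Finset.univ.filter (fun i => gridIdx ℓ s (x i) = β)) ×ˢ
        (Finset.univ.filter (fun i => gridIdx ℓ s (x i) = β)) := by
    ext p
    simp only [Finset.mem_filter, Finset.mem_univ, true_and, Finset.mem_product]
    constructor
    · rintro ⟨h1, h2⟩
      exact ⟨h2, h1 ▸ h2⟩
    · rintro ⟨h1, h2⟩
      exact ⟨h1.trans h2.symm, h1⟩
  rw [h8, Finset.card_product, sq]

/-- (S1) Two distinct points in the same cell of side `1/k` are at distance `≤ √3/k ≤ 1`, so their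
`phi0` energy is at least `k^4/9`. -/
lemma phi0_same_cell {k : ℕ} (hk : 2 ≤ k) {a b : X} (hab : a ≠ b)
    (hs : gridIdx (1 / (k : ℝ)) 0 a = gridIdx (1 / (k : ℝ)) 0 b) :
    (k : ℝ) ^ 4 / 9 ≤ phi0 ‖a - b‖ := by
  have hk0 : (0 : ℝ) < k := by
    have : 0 < k := by omega
    exact_mod_cast this
  have hk2 : (2 : ℝ) ≤ k := by exact_mod_cast hk
  have hℓ : 0 < 1 / (k : ℝ) := by positivity
  have hc : ∀ c, |(a - b) c| ≤ 1 / (k : ℝ) := by
    intro c
    have ha : a ∈ kBlk (1 / (k : ℝ)) 0 (gridIdx (1 / (k : ℝ)) 0 b) := hs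
    have hb : b ∈ kBlk (1 / (k : ℝ)) 0 (gridIdx (1 / (k : ℝ)) 0 b) := rfl
    rw [mem_kBlk_iff hℓ] at ha hb
    have h1 := ha c
    have h2 := hb c
    have e : (a - b) c = a c - b c := by simp
    rw [e, abs_le]
    constructor <;> linarith [h1.1, h1.2, h2.1, h2.2]
  have hsq : ‖a - b‖ ^ 2 ≤ 3 / (k : ℝ) ^ 2 := by
    rw [EuclideanSpace.norm_eq, Real.sq_sqrt (by positivity)]
    calc ∑ c, ‖(a - b) c‖ ^ 2 ≤ ∑ _c : Fin 3, (1 / (k : ℝ)) ^ 2 := by
          refine Finset.sum_le_sum fun c _ => ?_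
          rw [Real.norm_eq_abs, sq_abs]
          have := hc c
          exact sq_le_sq' (by linarith [(abs_le.1 this).1]) (abs_le.1 this).2
      _ = 3 / (k : ℝ) ^ 2 := by
          simp
          field_simp
  have hr : 0 < ‖a - b‖ := norm_pos_iff.2 (sub_ne_zero.2 hab)
  have hr1 : ‖a - b‖ ≤ 1 := by
    have h1 : ‖a - b‖ ^ 2 ≤ 1 := by
      refine hsq.trans ?_
      rw [div_le_one (by positivity)]
      nlinarith
    nlinarith
  unfold phi0
  rw [if_pos hr1]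
  have hr4 : ‖a - b‖ ^ 4 ≤ 9 / (k : ℝ) ^ 4 := by
    have : ‖a - b‖ ^ 4 = (‖a - b‖ ^ 2) ^ 2 := by ring
    rw [this]
    calc (‖a - b‖ ^ 2) ^ 2 ≤ (3 / (k : ℝ) ^ 2) ^ 2 := pow_le_pow_left₀ (by positivity) hsq 2
      _ = 9 / (k : ℝ) ^ 4 := by field_simp; norm_num
  have hr4pos : 0 < ‖a - b‖ ^ 4 := by positivity
  rw [div_le_iff₀ (by norm_num : (0 : ℝ) < 9), ← one_div, div_mul_eq_mul_div, one_mul,
    le_div_iff₀ hr4pos]
  have : (k : ℝ) ^ 4 * ‖a - b‖ ^ 4 ≤ (k : ℝ) ^ 4 * (9 / (k : ℝ) ^ 4) :=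
    mul_le_mul_of_nonneg_left hr4 (by positivity)
  have e : (k : ℝ) ^ 4 * (9 / (k : ℝ) ^ 4) = 9 := by field_simp
  linarith

lemma pairEnergy_phi0_ge {k : ℕ} (hk : 2 ≤ k) {N : ℕ} (x : Fin N → X)
    (hx : Function.Injective x) :
    ((k : ℝ) ^ 4 / 18) * ((sameCount (1 / (k : ℝ)) 0 x : ℝ) - N) ≤ pairEnergy phi0 x := by
  classical
  set K : X → X → ℝ := fun a b =>
    if gridIdx (1 / (k : ℝ)) 0 a = gridIdx (1 / (k : ℝ)) 0 b then 1 else 0 with hK
  have hKs : ∀ a b, K a b = K b a := by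
    intro a b
    simp only [hK, eq_comm]
  have h1 : pairK K x = ((sameCount (1 / (k : ℝ)) 0 x : ℝ) - N) / 2 := by
    rw [pairK_eq_half K hKs, sameCount_cast_eq]
    have h2 : ∑ i : Fin N, ∑ j : Fin N, (if i = j then 0 else K (x i) (x j)) =
        ∑ i : Fin N, (∑ j : Fin N, K (x i) (x j) - 1) := by
      refine Finset.sum_congr rfl fun i _ => ?_
      have h3 : ∑ j : Fin N, K (x i) (x j) =
          ∑ j : Fin N, (if i = j then 0 else K (x i) (x j)) +
          ∑ j : Fin N, (if i = j then K (x i) (x j) else 0) := by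
        rw [← Finset.sum_add_distrib]
        refine Finset.sum_congr rfl fun j _ => ?_
        split_ifs <;> simp
      have h4 : ∑ j : Fin N, (if i = j then K (x i) (x j) else 0) = 1 := by
        rw [Finset.sum_ite_eq]
        simp [hK]
      rw [h3, h4]
      ring
    rw [h2, Finset.sum_sub_distrib]
    simp only [Finset.sum_const, Finset.card_univ, Fintype.card_fin, nsmul_eq_mul, mul_one, hK]
    ring
  have h5 : ((k : ℝ) ^ 4 / 9) * pairK K x ≤ pairEnergy phi0 x := by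
    rw [pairEnergy_eq_pairK]
    unfold pairK
    rw [Finset.mul_sum]
    refine Finset.sum_le_sum fun p hp => ?_
    have hlt : p.1 < p.2 := (Finset.mem_filter.1 hp).2
    have hne : x p.1 ≠ x p.2 := fun h => hlt.ne (hx h)
    by_cases hs : gridIdx (1 / (k : ℝ)) 0 (x p.1) = gridIdx (1 / (k : ℝ)) 0 (x p.2)
    · have e : K (x p.1) (x p.2) = 1 := if_pos hs
      rw [e, mul_one]
      exact phi0_same_cell hk hne hs
    · have e : K (x p.1) (x p.2) = 0 := if_neg hs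
      rw [e, mul_zero]
      exact phi0_nonneg _
  rw [h1] at h5
  calc _ = (k : ℝ) ^ 4 / 9 * (((sameCount (1 / (k : ℝ)) 0 x : ℝ) - N) / 2) := by ring
    _ ≤ _ := h5

/-- Cauchy-Schwarz: `∑ n_c^2 ≥ N^2 / #cells`, at most `(kL+1)^3` cells meet the cube. -/
lemma sameCount_ge {k : ℕ} (hk : 1 ≤ k) {L : ℝ} (hL : 0 < L) {N : ℕ} (x : Fin N → X)
    (hx : ∀ i, x i ∈ cube L) :
    (N : ℝ) ^ 2 / ((k : ℝ) * L + 1) ^ 3 ≤ sameCount (1 / (k : ℝ)) 0 x := by
  classical
  have hk0 : (0 : ℝ) < k := by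
    have : 0 < k := by omega
    exact_mod_cast this
  set b : Fin N → (Fin 3 → ℤ) := fun i => gridIdx (1 / (k : ℝ)) 0 (x i) with hb
  set D : Finset (Fin 3 → ℤ) := Finset.univ.image b with hD
  set n : (Fin 3 → ℤ) → ℕ := fun β => (Finset.univ.filter (fun i => b i = β)).card with hn
  set M : ℕ := ⌊(k : ℝ) * L⌋₊ with hM
  have hsum : ∑ β ∈ D, (n β : ℝ) = N := by
    have h1 : ∑ β ∈ D, n β = N := by
      have := Finset.card_eq_sum_card_fiberwise (s := (Finset.univ : Finset (Fin N))) (f := b)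
        (t := D) (fun i _ => Finset.mem_coe.2 (Finset.mem_image_of_mem b (Finset.mem_univ i)))
      simp only [Finset.card_univ, Fintype.card_fin] at this
      exact this.symm
    exact_mod_cast h1
  have hsq : (sameCount (1 / (k : ℝ)) 0 x : ℝ) = ∑ β ∈ D, (n β : ℝ) ^ 2 := by
    rw [sameCount_eq_sum_sq]
    push_cast
    rfl
  have hcard : (D.card : ℝ) ≤ ((k : ℝ) * L + 1) ^ 3 := by
    have hsub : D ⊆ Fintype.piFinset (fun _ : Fin 3 => Finset.Icc (0 : ℤ) (M : ℤ)) := by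
      intro β hβ
      obtain ⟨i, -, rfl⟩ := Finset.mem_image.1 hβ
      rw [Fintype.mem_piFinset]
      intro c
      have h1 := hx i c
      have e : (x i c - 0) / (1 / (k : ℝ)) = (k : ℝ) * x i c := by
        field_simp
        ring
      have h2 : b i c = ⌊(k : ℝ) * x i c⌋ := by
        simp only [hb, gridIdx, e]
      rw [h2, Finset.mem_Icc]
      have h3 : 0 ≤ (k : ℝ) * x i c := mul_nonneg hk0.le h1.1
      have h4 : (k : ℝ) * x i c ≤ (k : ℝ) * L := mul_le_mul_of_nonneg_left h1.2 hk0.le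
      constructor
      · exact Int.floor_nonneg.2 h3
      · have h5 : ⌊(k : ℝ) * x i c⌋ ≤ ⌊(k : ℝ) * L⌋ := Int.floor_le_floor h4
        have h6 : (⌊(k : ℝ) * L⌋₊ : ℤ) = ⌊(k : ℝ) * L⌋ :=
          Int.natCast_floor_eq_floor (by positivity)
        rw [hM, h6]
        exact h5
    have h7 : D.card ≤ (M + 1) ^ 3 := by
      calc D.card ≤ (Fintype.piFinset (fun _ : Fin 3 => Finset.Icc (0 : ℤ) (M : ℤ))).card :=
            Finset.card_le_card hsub
        _ = (M + 1) ^ 3 := by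
            rw [Fintype.card_piFinset]
            simp
    have h8 : ((M : ℝ) + 1) ≤ (k : ℝ) * L + 1 := by
      have := Nat.floor_le (a := (k : ℝ) * L) (by positivity)
      linarith
    calc (D.card : ℝ) ≤ ((M + 1) ^ 3 : ℕ) := by exact_mod_cast h7
      _ = ((M : ℝ) + 1) ^ 3 := by push_cast; ring
      _ ≤ _ := pow_le_pow_left₀ (by positivity) h8 3
  have hcs : (N : ℝ) ^ 2 ≤ (D.card : ℝ) * (sameCount (1 / (k : ℝ)) 0 x : ℝ) := by
    rw [← hsum, hsq]
    exact sq_sum_le_card_mul_sum_sq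
  rw [div_le_iff₀ (by positivity)]
  have hS0 : (0 : ℝ) ≤ (sameCount (1 / (k : ℝ)) 0 x : ℝ) := Nat.cast_nonneg _
  calc (N : ℝ) ^ 2 ≤ (D.card : ℝ) * (sameCount (1 / (k : ℝ)) 0 x : ℝ) := hcs
    _ ≤ ((k : ℝ) * L + 1) ^ 3 * (sameCount (1 / (k : ℝ)) 0 x : ℝ) :=
        mul_le_mul_of_nonneg_right hcard hS0
    _ = _ := by ring

/-- Almost every tuple consists of distinct points. -/
lemma ae_injective (N : ℕ) :
    ∀ᵐ x ∂(volume : Measure (Fin N → X)), Function.Injective x := by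
  classical
  have h1 : ∀ i j : Fin N, i ≠ j → ∀ᵐ x ∂(volume : Measure (Fin N → X)), x i ≠ x j := by
    intro i j hij
    let T : (Fin N → X) →ₗ[ℝ] X :=
      (LinearMap.proj i : (Fin N → X) →ₗ[ℝ] X) - (LinearMap.proj j : (Fin N → X) →ₗ[ℝ] X)
    let S : Submodule ℝ (Fin N → X) := LinearMap.ker T
    have hS : S ≠ ⊤ := by
      intro h
      have hmem : (Pi.single i e0 : Fin N → X) ∈ S := by rw [h]; trivial
      have h2 : T (Pi.single i e0) = 0 := hmem
      have h3 : T (Pi.single i e0) = e0 := by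
        simp [T, Pi.single_eq_of_ne (Ne.symm hij)]
      rw [h3] at h2
      have h4 := norm_e0
      rw [h2] at h4
      simp at h4
    have h0 : volume (S : Set (Fin N → X)) = 0 := Measure.addHaar_submodule volume S hS
    rw [ae_iff]
    refine measure_mono_null ?_ h0
    intro x hx
    have hx' : x i = x j := by simpa using hx
    show T x = 0
    simp [T, hx']
  have h2 : ∀ᵐ x ∂(volume : Measure (Fin N → X)), ∀ i j : Fin N, i ≠ j → x i ≠ x j := by
    rw [ae_all_iff]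
    intro i
    rw [ae_all_iff]
    intro j
    by_cases hij : i = j
    · exact Eventually.of_forall fun x h => absurd hij h
    · filter_upwards [h1 i j hij] with x hx _ using hx
  filter_upwards [h2] with x hx i j hxy
  by_contra hne
  exact hx i j hne hxy

/-- Stability of `phi0 - g`. -/
lemma logW_le_of_attr {g : ℝ → ℝ} {A : ℝ} (hg : IsAttr g A) {k : ℕ} (hk : 4 ≤ k)
    (hkA : 1152 * A ≤ k) (ν : ℝ) (N : ℕ) (x : Fin N → X) (hx : Function.Injective x) :
    logW g ν N x ≤ (ν + (k : ℝ) ^ 4 / 18) * N -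
      ((k : ℝ) ^ 4 / 36) * (sameCount (1 / (k : ℝ)) 0 x : ℝ) := by
  have h1 := pairEnergy_phi0_ge (k := k) (by omega) x hx
  have h2 := hg.mass k hk N x
  unfold logW
  set S : ℝ := (sameCount (1 / (k : ℝ)) 0 x : ℝ) with hS
  have hS0 : 0 ≤ S := Nat.cast_nonneg _
  have hk3 : 0 ≤ (k : ℝ) ^ 3 := by positivity
  have h3 : 32 * A * (k : ℝ) ^ 3 * S ≤ ((k : ℝ) ^ 4 / 36) * S := by
    refine mul_le_mul_of_nonneg_right ?_ hS0
    have e : (k : ℝ) ^ 4 / 36 = ((k : ℝ) / 36) * (k : ℝ) ^ 3 := by ring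
    rw [e]
    refine mul_le_mul_of_nonneg_right ?_ hk3
    linarith
  nlinarith

/-- Volume of the cube. -/
lemma volume_cube {L : ℝ} (hL : 0 ≤ L) : volume (cube L) = ENNReal.ofReal (L ^ 3) := by
  have h1 : cube L = {y : X | ∀ c, (fun _ => (0 : ℝ)) c ≤ y c ∧ y c ≤ (fun _ : Fin 3 => L) c} := rfl
  rw [h1, volume_box]
  simp only [sub_zero, Fin.prod_univ_three]
  rw [← ENNReal.ofReal_mul hL, ← ENNReal.ofReal_mul (by positivity)]
  congr 1
  ring

lemma measurableSet_cube (L : ℝ) : MeasurableSet (cube L) := by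
  have : cube L = ⋂ c : Fin 3, ({y : X | 0 ≤ y c} ∩ {y : X | y c ≤ L}) := by
    ext y
    simp [cube, forall_and]
  rw [this]
  refine MeasurableSet.iInter fun c => ?_
  have hc : Continuous fun y : X => y c := by fun_prop
  exact (isClosed_le continuous_const hc).measurableSet.inter
    (isClosed_le hc continuous_const).measurableSet

/-- The basic bound on the grand sum: a pointwise bound on the log-weight, affine in `N`. -/
lemma XiL_le_of_logW_le {g : ℝ → ℝ} {ν L : ℝ} (hL : 0 < L) (a b : ℝ)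
    (h : ∀ (N : ℕ) (x : Fin N → X), Function.Injective x → (∀ i, x i ∈ cube L) →
      logW g ν N x ≤ a * N + b) :
    XiL g ν L ≤ ENNReal.ofReal (Real.exp (b + L ^ 3 * Real.exp a)) := by
  have hL3 : 0 ≤ L ^ 3 := by positivity
  set q : ℝ := L ^ 3 * Real.exp a with hq
  have hq0 : 0 ≤ q := by positivity
  have hterm : ∀ N : ℕ, (N.factorial : ℝ≥0∞)⁻¹ *
      ∫⁻ x in Set.pi Set.univ (fun _ : Fin N => cube L), W g ν N x ≤
      ENNReal.ofReal (Real.exp b * (q ^ N / (N.factorial : ℝ))) := by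
    intro N
    have hm : MeasurableSet (Set.pi Set.univ (fun _ : Fin N => cube L)) :=
      MeasurableSet.univ_pi fun _ => measurableSet_cube L
    have h1 : ∫⁻ x in Set.pi Set.univ (fun _ : Fin N => cube L), W g ν N x ≤
        ∫⁻ _x in Set.pi Set.univ (fun _ : Fin N => cube L),
          ENNReal.ofReal (Real.exp (a * N + b)) := by
      refine setLIntegral_mono_ae' hm ?_
      filter_upwards [ae_injective N] with x hx hmem
      unfold W
      refine ENNReal.ofReal_le_ofReal (Real.exp_le_exp.2 (h N x hx ?_))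
      intro i
      exact hmem i (mem_univ i)
    have h2 : ∫⁻ _x in Set.pi Set.univ (fun _ : Fin N => cube L),
          ENNReal.ofReal (Real.exp (a * N + b)) =
        ENNReal.ofReal (Real.exp (a * N + b)) * ENNReal.ofReal (L ^ 3) ^ N := by
      rw [setLIntegral_const, volume_pi, Measure.pi_pi]
      simp [volume_cube hL.le]
    rw [h2] at h1
    have hfac : (0 : ℝ) < (N.factorial : ℝ) := by exact_mod_cast Nat.factorial_pos N
    calc (N.factorial : ℝ≥0∞)⁻¹ * ∫⁻ x in Set.pi Set.univ (fun _ : Fin N => cube L), W g ν N x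
        ≤ (N.factorial : ℝ≥0∞)⁻¹ * (ENNReal.ofReal (Real.exp (a * N + b)) *
            ENNReal.ofReal (L ^ 3) ^ N) := by gcongr
      _ = ENNReal.ofReal ((N.factorial : ℝ)⁻¹ * (Real.exp (a * N + b) * (L ^ 3) ^ N)) := by
          rw [ENNReal.ofReal_mul (by positivity), ENNReal.ofReal_mul (by positivity),
            ENNReal.ofReal_pow hL3, ENNReal.ofReal_inv_of_pos hfac, ENNReal.ofReal_natCast]
      _ = _ := by
          congr 1
          have e : Real.exp (a * N + b) = Real.exp b * Real.exp a ^ N := by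
            rw [add_comm, Real.exp_add, mul_comm a, Real.exp_nat_mul]
          rw [e, hq, mul_pow]
          field_simp
  have hsummable : Summable (fun N : ℕ => q ^ N / (N.factorial : ℝ)) :=
    Real.summable_pow_div_factorial q
  have hsum : ∑' N : ℕ, q ^ N / (N.factorial : ℝ) = Real.exp q := by
    rw [Real.exp_eq_exp_ℝ, NormedSpace.exp_eq_tsum_div]
  unfold XiL Xi
  calc ∑' N : ℕ, (N.factorial : ℝ≥0∞)⁻¹ *
        ∫⁻ x in Set.pi Set.univ (fun _ : Fin N => cube L), W g ν N x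
      ≤ ∑' N : ℕ, ENNReal.ofReal (Real.exp b * (q ^ N / (N.factorial : ℝ))) :=
        ENNReal.tsum_le_tsum hterm
    _ = ENNReal.ofReal (∑' N : ℕ, Real.exp b * (q ^ N / (N.factorial : ℝ))) :=
        (ENNReal.ofReal_tsum_of_nonneg (fun N => by positivity)
          (hsummable.mul_left _)).symm
    _ = ENNReal.ofReal (Real.exp (b + q)) := by
        rw [tsum_mul_left, hsum, Real.exp_add]

/-- A natural number dominating `4` and a given real number. -/
lemma exists_k (A : ℝ) : ∃ k : ℕ, 4 ≤ k ∧ A ≤ k := by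
  refine ⟨max 4 ⌈A⌉₊, le_max_left _ _, ?_⟩
  calc A ≤ ⌈A⌉₊ := Nat.le_ceil A
    _ ≤ _ := by exact_mod_cast le_max_right _ _

/-- Low-activity bound, uniform in the class. -/
theorem Xi_le_exp (A : ℝ) : ∃ C : ℝ, ∀ g : ℝ → ℝ, IsAttr g A → ∀ ν L : ℝ, 0 < L →
    XiL g ν L ≤ ENNReal.ofReal (Real.exp (L ^ 3 * Real.exp (ν + C))) := by
  obtain ⟨k, hk, hkA⟩ := exists_k (1152 * A)
  refine ⟨(k : ℝ) ^ 4 / 18, fun g hg ν L hL => ?_⟩
  have h := XiL_le_of_logW_le (g := g) (ν := ν) hL (ν + (k : ℝ) ^ 4 / 18) 0 ?_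
  · simpa using h
  · intro N x hx _
    have h1 := logW_le_of_attr hg hk hkA ν N x hx
    have h2 : 0 ≤ ((k : ℝ) ^ 4 / 36) * (sameCount (1 / (k : ℝ)) 0 x : ℝ) := by positivity
    linarith

/-- Tail bound for canonical terms, needed in the Kac upper bound: for points in a cube of side
`ℓ ≥ 1`, with `k` as in the stability estimate. -/
lemma logW_le_quadratic {g : ℝ → ℝ} {A : ℝ} (hg : IsAttr g A) {k : ℕ} (hk : 4 ≤ k)
    (hkA : 1152 * A ≤ k) (ν : ℝ) {ℓ : ℝ} (hℓ : 1 ≤ ℓ) (N : ℕ) (x : Fin N → X)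
    (hx : Function.Injective x) (hcube : ∀ i, x i ∈ cube ℓ) :
    logW g ν N x ≤ (ν + (k : ℝ) ^ 4 / 18) * N - ((k : ℝ) / 288) * (N : ℝ) ^ 2 / ℓ ^ 3 := by
  have h1 := logW_le_of_attr hg hk hkA ν N x hx
  have hℓ0 : 0 < ℓ := by linarith
  have h2 := sameCount_ge (k := k) (by omega) hℓ0 x hcube
  have hk0 : (0 : ℝ) < k := by
    have : 0 < k := by omega
    exact_mod_cast this
  have hk1 : (1 : ℝ) ≤ k := by
    have : 1 ≤ k := by omega
    exact_mod_cast this
  -- `(kℓ+1)^3 ≤ 8 k^3 ℓ^3`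
  have h3 : ((k : ℝ) * ℓ + 1) ^ 3 ≤ 8 * (k : ℝ) ^ 3 * ℓ ^ 3 := by
    have h4 : (k : ℝ) * ℓ + 1 ≤ 2 * ((k : ℝ) * ℓ) := by nlinarith
    calc ((k : ℝ) * ℓ + 1) ^ 3 ≤ (2 * ((k : ℝ) * ℓ)) ^ 3 := pow_le_pow_left₀ (by positivity) h4 3
      _ = _ := by ring
  have h5 : (N : ℝ) ^ 2 / (8 * (k : ℝ) ^ 3 * ℓ ^ 3) ≤ (sameCount (1 / (k : ℝ)) 0 x : ℝ) :=
    le_trans (div_le_div_of_nonneg_left (by positivity) (by positivity) h3) h2
  have h6 : ((k : ℝ) ^ 4 / 36) * ((N : ℝ) ^ 2 / (8 * (k : ℝ) ^ 3 * ℓ ^ 3)) ≤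
      ((k : ℝ) ^ 4 / 36) * (sameCount (1 / (k : ℝ)) 0 x : ℝ) :=
    mul_le_mul_of_nonneg_left h5 (by positivity)
  have e : ((k : ℝ) ^ 4 / 36) * ((N : ℝ) ^ 2 / (8 * (k : ℝ) ^ 3 * ℓ ^ 3)) =
      ((k : ℝ) / 288) * (N : ℝ) ^ 2 / ℓ ^ 3 := by
    field_simp
    ring
  rw [e] at h6
  linarith

/-- Subquadratic growth, uniform in the class. -/
theorem Xi_le_growth (A ε : ℝ) (hε : 0 < ε) :
    ∃ C : ℝ, ∀ g : ℝ → ℝ, IsAttr g A → ∀ ν L : ℝ, 1 ≤ L →
      XiL g ν L ≤ ENNReal.ofReal (Real.exp (L ^ 3 * (C + ε * ν ^ 2))) := by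
  obtain ⟨k, hk, hkA⟩ := exists_k (max (1152 * A) (144 / ε))
  have hkA1 : 1152 * A ≤ k := (le_max_left _ _).trans hkA
  have hkε : 144 / ε ≤ k := (le_max_right _ _).trans hkA
  have hk0 : (0 : ℝ) < k := by
    have : 0 < k := by omega
    exact_mod_cast this
  set C₀ : ℝ := (k : ℝ) ^ 4 / 18 with hC₀
  refine ⟨1 + 144 * C₀ ^ 2 / k, fun g hg ν L hL => ?_⟩
  have hL0 : 0 < L := by linarith
  have hL3 : 0 < L ^ 3 := by positivity
  set Q : ℝ := L ^ 3 * (72 * (ν + C₀) ^ 2 / k) with hQ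
  have h := XiL_le_of_logW_le (g := g) (ν := ν) hL0 0 Q ?_
  · refine h.trans (ENNReal.ofReal_le_ofReal (Real.exp_le_exp.2 ?_))
    simp only [Real.exp_zero, mul_one]
    have h1 : (ν + C₀) ^ 2 ≤ 2 * ν ^ 2 + 2 * C₀ ^ 2 := by nlinarith [sq_nonneg (ν - C₀)]
    have h2 : 144 / (k : ℝ) ≤ ε := by
      rw [div_le_iff₀ hk0]
      rw [div_le_iff₀ hε] at hkε
      linarith
    have h3 : 72 * (ν + C₀) ^ 2 / k ≤ 144 * C₀ ^ 2 / k + ε * ν ^ 2 := by
      calc 72 * (ν + C₀) ^ 2 / k ≤ 72 * (2 * ν ^ 2 + 2 * C₀ ^ 2) / k := by gcongr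
        _ = 144 * C₀ ^ 2 / k + (144 / k) * ν ^ 2 := by ring
        _ ≤ _ := by gcongr
    have h4 := mul_le_mul_of_nonneg_left h3 hL3.le
    rw [hQ]
    nlinarith
  · intro N x hx hcube
    have h1 := logW_le_quadratic hg hk hkA1 ν hL N x hx hcube
    rw [← hC₀] at h1
    -- `a N - b N^2 ≤ a^2/(4b)`
    have h2 : (ν + C₀) * N - ((k : ℝ) / 288) * (N : ℝ) ^ 2 / L ^ 3 ≤ Q := by
      have e : Q - ((ν + C₀) * N - ((k : ℝ) / 288) * (N : ℝ) ^ 2 / L ^ 3) =
          (288 / ((k : ℝ) * L ^ 3)) *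
            (((k : ℝ) / 288) * (N : ℝ) - (1 / 2) * L ^ 3 * (ν + C₀)) ^ 2 := by
        rw [hQ]
        field_simp
        ring
      have h3 : 0 ≤ (288 / ((k : ℝ) * L ^ 3)) *
          (((k : ℝ) / 288) * (N : ℝ) - (1 / 2) * L ^ 3 * (ν + C₀)) ^ 2 := by positivity
      linarith
    have e0 : (0 : ℝ) * N = 0 := zero_mul _
    rw [e0, zero_add]
    linarith

lemma XiL_ne_top {g : ℝ → ℝ} {A : ℝ} (hg : IsAttr g A) (ν : ℝ) {L : ℝ} (hL : 0 < L) :
    XiL g ν L ≠ ∞ := by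
  obtain ⟨C, hC⟩ := Xi_le_exp A
  exact ne_top_of_le_ne_top ENNReal.ofReal_ne_top (hC g hg ν L hL)

lemma one_le_XiL (g : ℝ → ℝ) (ν L : ℝ) : 1 ≤ XiL g ν L := one_le_Xi _ g ν

lemma logXi_nonneg {g : ℝ → ℝ} {A : ℝ} (hg : IsAttr g A) (ν : ℝ) {L : ℝ} (hL : 0 < L) :
    0 ≤ logXi g ν L := by
  unfold logXi
  refine Real.log_nonneg ?_
  have h := ENNReal.toReal_mono (XiL_ne_top hg ν hL) (one_le_XiL g ν L)
  simpa using h

lemma logXi_le_growth {C ε : ℝ} {g : ℝ → ℝ} {ν L : ℝ} (hL : 0 < L)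
    (h : XiL g ν L ≤ ENNReal.ofReal (Real.exp (L ^ 3 * (C + ε * ν ^ 2)))) :
    logXi g ν L ≤ L ^ 3 * (C + ε * ν ^ 2) := by
  unfold logXi
  have hfin : XiL g ν L ≠ ∞ := ne_top_of_le_ne_top ENNReal.ofReal_ne_top h
  have h1 : 1 ≤ (XiL g ν L).toReal := by
    have := ENNReal.toReal_mono hfin (one_le_XiL g ν L)
    simpa using this
  have h2 : (XiL g ν L).toReal ≤ Real.exp (L ^ 3 * (C + ε * ν ^ 2)) :=
    ENNReal.toReal_le_of_le_ofReal (Real.exp_pos _).le h
  rw [Real.log_le_iff_le_exp (by linarith)]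
  exact h2

end Vale.Agent.P171
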