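import Vale.Agent.P171.Defs

/-!
# P171: internal definitions

Internal objects of the proof: the ENNReal-valued grand sum `Xi`, the repulsive core `phi0`,
the Kac window kernel `kappa`, block indices, and the class of attractive parts.
-/

open MeasureTheory Filter Topology Set
open scoped ENNReal

namespace Vale.Agent.P171

/-- Weighted grand sum over configurations in `Λ`, with values in `ℝ≥0∞`. -/
noncomputable def Xi (Λ : Set X) (W : ∀ N : ℕ, (Fin N → X) → ℝ≥0∞) : ℝ≥0∞ :=
  ∑' N : ℕ, (N.factorial : ℝ≥0∞)⁻¹ *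
    ∫⁻ x in Set.pi Set.univ (fun _ : Fin N => Λ), W N x

/-- The repulsive core: `r^{-4}` for `r ≤ 1`, and `0` for `r > 1`. -/
noncomputable def phi0 (r : ℝ) : ℝ := if r ≤ 1 then (r ^ 4)⁻¹ else 0

/-- Log-weight of the potential `phi0 - g` at chemical potential `ν` (inverse temperature `1`). -/
noncomputable def logW (g : ℝ → ℝ) (ν : ℝ) (N : ℕ) (x : Fin N → X) : ℝ :=
  ν * N - pairEnergy phi0 x + pairEnergy g x

/-- Weight of the potential `phi0 - g` at chemical potential `ν`. -/
noncomputable def W (g : ℝ → ℝ) (ν : ℝ) : ∀ N : ℕ, (Fin N → X) → ℝ≥0∞ :=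
  fun N x => ENNReal.ofReal (Real.exp (logW g ν N x))

/-- The grand sum of `phi0 - g` on the cube `Λ_L`. -/
noncomputable def XiL (g : ℝ → ℝ) (ν L : ℝ) : ℝ≥0∞ := Xi (cube L) (W g ν)

/-- `log` of the grand sum, as a real number. -/
noncomputable def logXi (g : ℝ → ℝ) (ν L : ℝ) : ℝ := Real.log (XiL g ν L).toReal

/-- Index of the block of side `ℓ` and shift `s` containing a point. -/
noncomputable def gridIdx (ℓ s : ℝ) (x : X) : Fin 3 → ℤ := fun c => ⌊(x c - s) / ℓ⌋

/-- Number of ordered pairs `(i,j)` (including `i = j`) whose points lie in the same block. This is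
`∑_b n_b^2`. -/
noncomputable def sameCount (ℓ s : ℝ) {N : ℕ} (x : Fin N → X) : ℕ :=
  ((Finset.univ : Finset (Fin N × Fin N)).filter
    (fun p => gridIdx ℓ s (x p.1) = gridIdx ℓ s (x p.2))).card

/-- Pair sum restricted to pairs in the same block. -/
noncomputable def pairSame (f : ℝ → ℝ) (ℓ s : ℝ) {N : ℕ} (x : Fin N → X) : ℝ :=
  ∑ p ∈ (Finset.univ : Finset (Fin N × Fin N)).filter
      (fun p => p.1 < p.2 ∧ gridIdx ℓ s (x p.1) = gridIdx ℓ s (x p.2)),
    f ‖x p.1 - x p.2‖

/-- `g` is an attractive part of total mass at most `A`: nonnegative, measurable, and its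
pair energy is controlled by the number of pairs in cells of side `1/k`. -/
structure IsAttr (g : ℝ → ℝ) (A : ℝ) : Prop where
  nonneg : ∀ r, 0 ≤ g r
  meas : Measurable g
  mass : ∀ k : ℕ, 4 ≤ k → ∀ (N : ℕ) (x : Fin N → X),
    pairEnergy g x ≤ 32 * A * (k : ℝ) ^ 3 * (sameCount (1 / (k : ℝ)) 0 x : ℝ)

/-- `g` vanishes at distances at least `R`, and `R ≥ 2`, so that `phi0 - g` has range `R`. -/
structure HasRange (g : ℝ → ℝ) (R : ℝ) : Prop where
  two_le : 2 ≤ R
  zero : ∀ r, R ≤ r → g r = 0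

/-- Unit vector along the first coordinate. -/
noncomputable def e0 : X := EuclideanSpace.single 0 1

/-- Kac window kernel: `κ_L(r) = |B_L|^{-2} |B(0,L) ∩ B(r e, L)|`. Its integral over `ℝ^3` is `1`,
and it is positive definite. -/
noncomputable def kappa (L r : ℝ) : ℝ :=
  (volume (Metric.ball (0 : X) L ∩ Metric.ball (r • e0) L)).toReal /
    (volume (Metric.ball (0 : X) L)).toReal ^ 2

/-- Second difference quotient, the near-kink functional. -/
noncomputable def S2 (p : ℝ → ℝ) (m η : ℝ) : ℝ := (p (m + η) + p (m - η) - 2 * p m) / η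

/-- Hopf-Lax (Lebowitz-Penrose) transform: `T_a p (μ) = sup_g [p(μ+g) - g²/(2a)]`. -/
noncomputable def hopfLax (a : ℝ) (p : ℝ → ℝ) (μ : ℝ) : ℝ :=
  ⨆ g : ℝ, (p (μ + g) - g ^ 2 / (2 * a))

end Vale.Agent.P171
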