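import Mathlib

/-!
# P171: definitions used by the statement

Classical particles in three-dimensional Euclidean space interacting through a radial pair
potential, with the finite-volume partition functions and the grand-canonical pressure of the
problem file.  Everything here is plain Mathlib.
-/

open MeasureTheory Filter Topology

namespace Vale.Agent.P171

/-- Three-dimensional Euclidean space. -/
abbrev X := EuclideanSpace ℝ (Fin 3)

/-- The pair energy `U_N(x) = ∑_{i<j} φ(|x_i - x_j|)` of a tuple of `N` points. -/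
noncomputable def pairEnergy (φ : ℝ → ℝ) {N : ℕ} (x : Fin N → X) : ℝ :=
  ∑ p ∈ (Finset.univ : Finset (Fin N × Fin N)).filter (fun p => p.1 < p.2), φ ‖x p.1 - x p.2‖

/-- The cube `Λ_L = [0,L]^3`. -/
def cube (L : ℝ) : Set X := {x | ∀ i, 0 ≤ x i ∧ x i ≤ L}

/-- The canonical partition function
`Z_{L,N}(β) = (1/N!) ∫_{Λ_L^N} exp(-β U_N(x)) dx` (with `Z_{L,0} = 1`). -/
noncomputable def canonicalZ (φ : ℝ → ℝ) (β L : ℝ) (N : ℕ) : ℝ :=
  ((N.factorial : ℝ))⁻¹ *
    ∫ x in Set.pi Set.univ (fun _ : Fin N => cube L), Real.exp (-β * pairEnergy φ x)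

/-- The grand-canonical sum `∑_{N ≥ 0} z^N Z_{L,N}(β)`. -/
noncomputable def grandSum (φ : ℝ → ℝ) (β L z : ℝ) : ℝ :=
  ∑' N : ℕ, z ^ N * canonicalZ φ β L N

/-- Stability: there is `B < ∞` with `U_N ≥ -B N` for all `N` and all tuples of distinct points. -/
def IsStable (φ : ℝ → ℝ) : Prop :=
  ∃ B : ℝ, ∀ (N : ℕ) (x : Fin N → X), Function.Injective x → -(B * N) ≤ pairEnergy φ x

/-- Temperedness: `φ(r) ≤ C r^{-3-ε}` for all `r ≥ R₀`, for some `C, ε, R₀ > 0`. -/
def IsTempered (φ : ℝ → ℝ) : Prop :=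
  ∃ C ε R₀ : ℝ, 0 < C ∧ 0 < ε ∧ 0 < R₀ ∧ ∀ r, R₀ ≤ r → φ r ≤ C * r ^ (-(3 + ε))

/-- Local boundedness on `(0,∞)`: `φ` is bounded on every compact interval `[a,b]` with `a > 0`. -/
def IsLocallyBoundedOnPos (φ : ℝ → ℝ) : Prop :=
  ∀ a b : ℝ, 0 < a → ∃ M : ℝ, ∀ r ∈ Set.Icc a b, |φ r| ≤ M

/-- `Press` is the pressure function `z ↦ Π(β,z)` on `z > 0`: for every `z > 0`,
all the integrals and the grand-canonical series of finite volume converge, and
`L^{-3} log ∑_N z^N Z_{L,N}(β) → Press z` as `L → ∞`. -/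
def IsPressure (φ : ℝ → ℝ) (β : ℝ) (Press : ℝ → ℝ) : Prop :=
  ∀ z : ℝ, 0 < z →
    (∀ (L : ℝ) (N : ℕ), 0 < L →
      IntegrableOn (fun x : Fin N → X => Real.exp (-β * pairEnergy φ x))
        (Set.pi Set.univ (fun _ : Fin N => cube L))) ∧
    (∀ L : ℝ, 0 < L → Summable (fun N : ℕ => z ^ N * canonicalZ φ β L N)) ∧
    Tendsto (fun L : ℝ => (L ^ 3)⁻¹ * Real.log (grandSum φ β L z)) atTop (𝓝 (Press z))

/-- Phase transition in the sense (a) of the problem: for some `β > 0` the pressure exists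
and is not differentiable in `z` at some `z₀ > 0`. -/
def HasPressureKink (φ : ℝ → ℝ) : Prop :=
  ∃ β : ℝ, 0 < β ∧ ∃ Press : ℝ → ℝ, IsPressure φ β Press ∧
    ∃ z₀ : ℝ, 0 < z₀ ∧ ¬ DifferentiableAt ℝ Press z₀

end Vale.Agent.P171
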