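import Vale.Agent.P171.GrandSum

/-!
# P171: elementary algebra of pair energies.
-/

open MeasureTheory Filter Topology Set
open scoped ENNReal BigOperators

namespace Vale.Agent.P171

/-- Sum over pairs `i<j` of a two-point function. -/
noncomputable def pairK (K : X → X → ℝ) {N : ℕ} (x : Fin N → X) : ℝ :=
  ∑ p ∈ (Finset.univ : Finset (Fin N × Fin N)).filter (fun p => p.1 < p.2), K (x p.1) (x p.2)

lemma pairEnergy_eq_pairK (f : ℝ → ℝ) {N : ℕ} (x : Fin N → X) :
    pairEnergy f x = pairK (fun a b => f ‖a - b‖) x := rfl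

lemma pairSame_eq_pairK (f : ℝ → ℝ) (ℓ s : ℝ) {N : ℕ} (x : Fin N → X) :
    pairSame f ℓ s x =
      pairK (fun a b => if gridIdx ℓ s a = gridIdx ℓ s b then f ‖a - b‖ else 0) x := by
  classical
  unfold pairSame pairK
  rw [← Finset.filter_filter, Finset.sum_filter]

/-- The symmetric double-sum form. -/
lemma pairK_eq_half (K : X → X → ℝ) (hK : ∀ a b, K a b = K b a) {N : ℕ} (x : Fin N → X) :
    pairK K x = (1 / 2) * ∑ i, ∑ j, if i = j then 0 else K (x i) (x j) := by
  classical
  have hlt : ∑ p ∈ (Finset.univ : Finset (Fin N × Fin N)).filter (fun p => p.1 < p.2),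
      K (x p.1) (x p.2) = ∑ p ∈ (Finset.univ : Finset (Fin N × Fin N)).filter (fun p => p.2 < p.1),
      K (x p.1) (x p.2) := by
    refine Finset.sum_nbij' (fun p => (p.2, p.1)) (fun p => (p.2, p.1)) ?_ ?_ ?_ ?_ ?_
    · intro p hp; simpa using hp
    · intro p hp; simpa using hp
    · intro p _; rfl
    · intro p _; rfl
    · intro p _; exact hK _ _
  have hsplit : ∑ i, ∑ j, (if i = j then 0 else K (x i) (x j)) =
      ∑ p ∈ (Finset.univ : Finset (Fin N × Fin N)).filter (fun p => p.1 < p.2), K (x p.1) (x p.2) +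
      ∑ p ∈ (Finset.univ : Finset (Fin N × Fin N)).filter (fun p => p.2 < p.1), K (x p.1) (x p.2) := by
    rw [← Finset.sum_product', Finset.univ_product_univ]
    have hpart : ∀ p : Fin N × Fin N, (if p.1 = p.2 then (0 : ℝ) else K (x p.1) (x p.2)) =
        (if p.1 < p.2 then K (x p.1) (x p.2) else 0) + (if p.2 < p.1 then K (x p.1) (x p.2) else 0) := by
      intro p
      rcases lt_trichotomy p.1 p.2 with h | h | h
      · simp [h, h.ne, h.not_gt]
      · simp [h]
      · simp [h, h.ne', h.not_gt]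
    rw [Finset.sum_congr rfl (fun p _ => hpart p), Finset.sum_add_distrib, Finset.sum_filter,
      Finset.sum_filter]
  unfold pairK
  rw [hsplit, ← hlt]
  ring

lemma pairK_perm (K : X → X → ℝ) (hK : ∀ a b, K a b = K b a) {N : ℕ} (σ : Equiv.Perm (Fin N))
    (x : Fin N → X) : pairK K (x ∘ σ) = pairK K x := by
  classical
  rw [pairK_eq_half K hK, pairK_eq_half K hK]
  congr 1
  rw [← Equiv.sum_comp σ (fun i => ∑ j, if i = j then 0 else K (x i) (x j))]
  refine Finset.sum_congr rfl fun i _ => ?_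
  rw [← Equiv.sum_comp σ (fun j => if σ i = j then 0 else K (x (σ i)) (x j))]
  refine Finset.sum_congr rfl fun j _ => ?_
  simp [σ.injective.eq_iff]

lemma pairK_append (K : X → X → ℝ) (hK : ∀ a b, K a b = K b a) {k l : ℕ} (y : Fin k → X)
    (z : Fin l → X) :
    pairK K (Fin.append y z) = pairK K y + pairK K z + ∑ i, ∑ j, K (y i) (z j) := by
  classical
  rw [pairK_eq_half K hK, pairK_eq_half K hK, pairK_eq_half K hK, Fin.sum_univ_add]
  simp only [Fin.sum_univ_add, Fin.append_left, Fin.append_right]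
  have h1 : ∀ (i : Fin k) (j : Fin l), Fin.castAdd l i ≠ Fin.natAdd k j := by
    intro i j h
    have := congrArg Fin.val h
    simp at this
    omega
  have h2 : ∀ (i : Fin k) (j : Fin k), (Fin.castAdd l i = Fin.castAdd l j) ↔ i = j := by
    intro i j; simp
  have h3 : ∀ (i : Fin l) (j : Fin l), (Fin.natAdd k i = Fin.natAdd k j) ↔ i = j := by
    intro i j; simp
  have e1 : ∑ i : Fin k, (∑ j : Fin k, (if Fin.castAdd l i = Fin.castAdd l j then 0 else K (y i) (y j)) +
        ∑ j : Fin l, (if Fin.castAdd l i = Fin.natAdd k j then 0 else K (y i) (z j))) =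
      ∑ i : Fin k, ∑ j : Fin k, (if i = j then 0 else K (y i) (y j)) +
        ∑ i : Fin k, ∑ j : Fin l, K (y i) (z j) := by
    rw [← Finset.sum_add_distrib]
    refine Finset.sum_congr rfl fun i _ => ?_
    congr 1
    · refine Finset.sum_congr rfl fun j _ => ?_
      simp only [h2]
    · refine Finset.sum_congr rfl fun j _ => ?_
      rw [if_neg (h1 i j)]
  have e2 : ∑ i : Fin l, (∑ j : Fin k, (if Fin.natAdd k i = Fin.castAdd l j then 0 else K (z i) (y j)) +
        ∑ j : Fin l, (if Fin.natAdd k i = Fin.natAdd k j then 0 else K (z i) (z j))) =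
      ∑ i : Fin k, ∑ j : Fin l, K (y i) (z j) +
        ∑ i : Fin l, ∑ j : Fin l, (if i = j then 0 else K (z i) (z j)) := by
    rw [Finset.sum_comm (s := (Finset.univ : Finset (Fin k))) (t := (Finset.univ : Finset (Fin l))),
      ← Finset.sum_add_distrib]
    refine Finset.sum_congr rfl fun i _ => ?_
    congr 1
    · refine Finset.sum_congr rfl fun j _ => ?_
      rw [if_neg (Ne.symm (h1 j i)), hK]
    · refine Finset.sum_congr rfl fun j _ => ?_
      simp only [h3]
  rw [e1, e2]
  ring

lemma pairK_measurable {K : X → X → ℝ} (hK : Measurable (Function.uncurry K)) (N : ℕ) :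
    Measurable (fun x : Fin N → X => pairK K x) := by
  unfold pairK
  refine Finset.measurable_sum _ fun p _ => ?_
  have h : Measurable (fun x : Fin N → X => (x p.1, x p.2)) :=
    (measurable_pi_apply p.1).prodMk (measurable_pi_apply p.2)
  exact hK.comp h

lemma pairEnergy_append (f : ℝ → ℝ) {k l : ℕ} (y : Fin k → X) (z : Fin l → X) :
    pairEnergy f (Fin.append y z) = pairEnergy f y + pairEnergy f z + ∑ i, ∑ j, f ‖y i - z j‖ := by
  simp only [pairEnergy_eq_pairK]
  exact pairK_append (fun a b => f ‖a - b‖) (fun a b => by simp only [norm_sub_rev]) y z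

lemma pairEnergy_perm (f : ℝ → ℝ) {N : ℕ} (σ : Equiv.Perm (Fin N)) (x : Fin N → X) :
    pairEnergy f (x ∘ σ) = pairEnergy f x := by
  simp only [pairEnergy_eq_pairK]
  exact pairK_perm (fun a b => f ‖a - b‖) (fun a b => by simp only [norm_sub_rev]) σ x

lemma pairEnergy_measurable {f : ℝ → ℝ} (hf : Measurable f) (N : ℕ) :
    Measurable (fun x : Fin N → X => pairEnergy f x) := by
  simp only [pairEnergy_eq_pairK]
  refine pairK_measurable ?_ N
  have : Measurable (fun p : X × X => f ‖p.1 - p.2‖) :=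
    hf.comp ((measurable_fst.sub measurable_snd).norm)
  exact this

lemma pairEnergy_translate (f : ℝ → ℝ) {N : ℕ} (x : Fin N → X) (τ : X) :
    pairEnergy f (fun i => x i + τ) = pairEnergy f x := by
  unfold pairEnergy
  refine Finset.sum_congr rfl fun p _ => ?_
  simp only [add_sub_add_right_eq_sub]

lemma pairEnergy_add (f h : ℝ → ℝ) {N : ℕ} (x : Fin N → X) :
    pairEnergy (fun r => f r + h r) x = pairEnergy f x + pairEnergy h x := by
  unfold pairEnergy
  rw [← Finset.sum_add_distrib]

lemma pairEnergy_const_mul (c : ℝ) (f : ℝ → ℝ) {N : ℕ} (x : Fin N → X) :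
    pairEnergy (fun r => c * f r) x = c * pairEnergy f x := by
  unfold pairEnergy
  rw [Finset.mul_sum]

lemma pairEnergy_nonneg {f : ℝ → ℝ} (hf : ∀ r, 0 ≤ f r) {N : ℕ} (x : Fin N → X) :
    0 ≤ pairEnergy f x := Finset.sum_nonneg fun _ _ => hf _

lemma pairEnergy_mono {f h : ℝ → ℝ} (hfh : ∀ r, f r ≤ h r) {N : ℕ} (x : Fin N → X) :
    pairEnergy f x ≤ pairEnergy h x := Finset.sum_le_sum fun _ _ => hfh _

/-! Properties of the phi0-weights -/

lemma phi0_nonneg (r : ℝ) : 0 ≤ phi0 r := by
  unfold phi0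
  split_ifs
  · have : 0 ≤ r ^ 4 := by positivity
    positivity
  · exact le_rfl

lemma phi0_measurable : Measurable phi0 := by
  unfold phi0
  exact Measurable.ite measurableSet_Iic (by fun_prop) measurable_const

lemma phi0_eq_zero {r : ℝ} (h : 1 < r) : phi0 r = 0 := by
  unfold phi0; rw [if_neg (not_le.mpr h)]

lemma logW_measurable {g : ℝ → ℝ} (hg : Measurable g) (ν : ℝ) (N : ℕ) :
    Measurable (fun x : Fin N → X => logW g ν N x) := by
  unfold logW
  exact (measurable_const.sub (pairEnergy_measurable phi0_measurable N)).add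
    (pairEnergy_measurable hg N)

lemma W_measurable {g : ℝ → ℝ} (hg : Measurable g) (ν : ℝ) (N : ℕ) : Measurable (W g ν N) := by
  unfold W
  exact ENNReal.measurable_ofReal.comp (Real.measurable_exp.comp (logW_measurable hg ν N))

lemma W_zero (g : ℝ → ℝ) (ν : ℝ) (x : Fin 0 → X) : W g ν 0 x = 1 := by
  have : logW g ν 0 x = 0 := by
    simp [logW, pairEnergy]
  simp [W, this]

lemma W_perm (g : ℝ → ℝ) (ν : ℝ) (N : ℕ) (σ : Equiv.Perm (Fin N)) (x : Fin N → X) :
    W g ν N (x ∘ σ) = W g ν N x := by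
  simp only [W, logW, pairEnergy_perm]

lemma W_translate (g : ℝ → ℝ) (ν : ℝ) (N : ℕ) (x : Fin N → X) (τ : X) :
    W g ν N (fun i => x i + τ) = W g ν N x := by
  simp only [W, logW, pairEnergy_translate]

/-- Decoupling of `W` when the two groups of points are far apart. -/
lemma W_append_far (g : ℝ → ℝ) (ν : ℝ) {R : ℝ} (hg : HasRange g R) {k l : ℕ} (y : Fin k → X)
    (z : Fin l → X) (hfar : ∀ i j, R ≤ ‖y i - z j‖) :
    W g ν (k + l) (Fin.append y z) = W g ν k y * W g ν l z := by
  have h1 : ∑ i, ∑ j, phi0 ‖y i - z j‖ = 0 := by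
    refine Finset.sum_eq_zero fun i _ => Finset.sum_eq_zero fun j _ => ?_
    exact phi0_eq_zero (by linarith [hfar i j, hg.two_le])
  have h2 : ∑ i, ∑ j, g ‖y i - z j‖ = 0 := by
    refine Finset.sum_eq_zero fun i _ => Finset.sum_eq_zero fun j _ => ?_
    exact hg.zero _ (hfar i j)
  have h3 : logW g ν (k + l) (Fin.append y z) = logW g ν k y + logW g ν l z := by
    simp only [logW, pairEnergy_append, h1, h2]
    push_cast
    ring
  simp only [W, h3, Real.exp_add]
  rw [ENNReal.ofReal_mul (Real.exp_pos _).le]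

/-- `XiL ≥ 1`: the empty configuration. -/
lemma one_le_Xi (Λ : Set X) (g : ℝ → ℝ) (ν : ℝ) : 1 ≤ Xi Λ (W g ν) := by
  unfold Xi
  refine le_trans ?_ (ENNReal.le_tsum 0)
  have h0 : Set.pi Set.univ (fun _ : Fin 0 => Λ) = univ := by
    ext x; simp
  rw [h0]
  have h2 : (volume : Measure (Fin 0 → X)) univ = 1 := by
    rw [volume_pi, Measure.pi_empty_univ]
  simp [W_zero, h2]

end Vale.Agent.P171
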