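import Vale.Agent.P171.Core

/-!
# P171: the grand sum `Xi`: factorization over disjoint regions, monotonicity, translations,
log-convexity.
-/

open MeasureTheory Filter Topology Set
open scoped ENNReal BigOperators

namespace Vale.Agent.P171

/-- Configurations of `N` points in `Λ`. -/
abbrev cfg (Λ : Set X) (N : ℕ) : Set (Fin N → X) := Set.pi Set.univ (fun _ : Fin N => Λ)

lemma measurableSet_cfg {Λ : Set X} (hΛ : MeasurableSet Λ) (N : ℕ) : MeasurableSet (cfg Λ N) :=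
  MeasurableSet.univ_pi fun _ => hΛ

lemma appendMP (k l : ℕ) :
    MeasurePreserving (fun p : (Fin k → X) × (Fin l → X) => (Fin.append p.1 p.2 : Fin (k + l) → X))
      ((volume : Measure (Fin k → X)).prod (volume : Measure (Fin l → X)))
      (volume : Measure (Fin (k + l) → X)) := by
  have h1 := (measurePreserving_sumPiEquivProdPi (X := fun _ : Fin k ⊕ Fin l => X)
    (fun _ => (volume : Measure X))).symm
  have h2 := volume_measurePreserving_piCongrLeft (fun _ : Fin (k + l) => X)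
    (finSumFinEquiv : Fin k ⊕ Fin l ≃ Fin (k + l))
  have h3 := h2.comp h1
  convert h3 using 1
  · ext1 p
    funext i
    induction i using Fin.addCases with
    | left i =>
      simp [MeasurableEquiv.piCongrLeft, Equiv.piCongrLeft, MeasurableEquiv.sumPiEquivProdPi]
    | right i =>
      simp [MeasurableEquiv.piCongrLeft, Equiv.piCongrLeft, MeasurableEquiv.sumPiEquivProdPi]
  · rfl

lemma compMP {N : ℕ} (σ : Equiv.Perm (Fin N)) :
    MeasurePreserving (fun x : Fin N → X => x ∘ σ) volume volume := by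
  have h2 := volume_measurePreserving_piCongrLeft (fun _ : Fin N => X) σ.symm
  convert h2 using 1
  ext1 x
  funext i
  simp [MeasurableEquiv.piCongrLeft, Equiv.piCongrLeft, Equiv.piCongrLeft']

section factor

variable {Λ₁ Λ₂ : Set X} {V : ∀ N : ℕ, (Fin N → X) → ℝ≥0∞}

/-- The integral over the piece where coordinates in `S` lie in `Λ₁` and the others in `Λ₂`. -/
lemma piece_eq (hm₁ : MeasurableSet Λ₁) (hm₂ : MeasurableSet Λ₂)
    (hVm : ∀ N, Measurable (V N))
    (hVs : ∀ (N : ℕ) (σ : Equiv.Perm (Fin N)) (x : Fin N → X), V N (x ∘ σ) = V N x)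
    (hVd : ∀ (k l : ℕ) (y : Fin k → X) (z : Fin l → X), (∀ i, y i ∈ Λ₁) → (∀ j, z j ∈ Λ₂) →
      V (k + l) (Fin.append y z) = V k y * V l z)
    (k l : ℕ) (S : Finset (Fin (k + l))) (hS : S.card = k) :
    ∫⁻ x in Set.pi Set.univ (fun i : Fin (k + l) => if i ∈ S then Λ₁ else Λ₂), V (k + l) x =
      (∫⁻ y in cfg Λ₁ k, V k y) * (∫⁻ z in cfg Λ₂ l, V l z) := by
  classical
  -- the permutation
  have hcard2 : Fintype.card {x // ¬ x ∈ S} = l := by
    have h := Fintype.card_subtype_compl (fun x : Fin (k + l) => x ∈ S)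
    have h2 : Fintype.card {x // x ∈ S} = k := by simpa using hS
    rw [h, h2]; simp
  let e₁ : Fin k ≃ {x // x ∈ S} := (S.equivFinOfCardEq hS).symm
  let e₂ : Fin l ≃ {x // ¬ x ∈ S} := (Fintype.equivFinOfCardEq hcard2).symm
  let σ : Equiv.Perm (Fin (k + l)) :=
    (finSumFinEquiv.symm).trans ((Equiv.sumCongr e₁ e₂).trans (Equiv.sumCompl _))
  have σ1 : ∀ i : Fin k, σ (Fin.castAdd l i) ∈ S := by
    intro i
    have : σ (Fin.castAdd l i) = (e₁ i : Fin (k + l)) := by
      simp [σ]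
    rw [this]; exact (e₁ i).2
  have σ2 : ∀ j : Fin l, ¬ σ (Fin.natAdd k j) ∈ S := by
    intro j
    have : σ (Fin.natAdd k j) = (e₂ j : Fin (k + l)) := by
      simp [σ]
    rw [this]; exact (e₂ j).2
  -- canonical set
  set C₀ : Set (Fin (k + l) → X) :=
    {x | (∀ i : Fin k, x (Fin.castAdd l i) ∈ Λ₁) ∧ (∀ j : Fin l, x (Fin.natAdd k j) ∈ Λ₂)} with hC₀
  have hC₀m : MeasurableSet C₀ := by
    have h1 : MeasurableSet {x : Fin (k + l) → X | ∀ i : Fin k, x (Fin.castAdd l i) ∈ Λ₁} := by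
      simp only [setOf_forall]
      exact MeasurableSet.iInter fun i => (measurable_pi_apply _) hm₁
    have h2 : MeasurableSet {x : Fin (k + l) → X | ∀ j : Fin l, x (Fin.natAdd k j) ∈ Λ₂} := by
      simp only [setOf_forall]
      exact MeasurableSet.iInter fun j => (measurable_pi_apply _) hm₂
    exact h1.inter h2
  have hpre : Set.pi Set.univ (fun i : Fin (k + l) => if i ∈ S then Λ₁ else Λ₂) =
      (fun x : Fin (k + l) → X => x ∘ σ) ⁻¹' C₀ := by
    ext x
    simp only [Set.mem_pi, mem_univ, forall_true_left, mem_preimage, hC₀, mem_setOf_eq,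
      Function.comp]
    constructor
    · intro h
      refine ⟨fun i => ?_, fun j => ?_⟩
      · have := h (σ (Fin.castAdd l i))
        rwa [if_pos (σ1 i)] at this
      · have := h (σ (Fin.natAdd k j))
        rwa [if_neg (σ2 j)] at this
    · rintro ⟨h1, h2⟩ a
      obtain ⟨b, rfl⟩ := σ.surjective a
      induction b using Fin.addCases with
      | left i => rw [if_pos (σ1 i)]; exact h1 i
      | right j => rw [if_neg (σ2 j)]; exact h2 j
  rw [hpre]
  have step1 : ∫⁻ x in (fun x : Fin (k + l) → X => x ∘ σ) ⁻¹' C₀, V (k + l) x =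
      ∫⁻ x in C₀, V (k + l) x := by
    have := (compMP σ).setLIntegral_comp_preimage hC₀m (hVm (k + l))
    rw [← this]
    refine lintegral_congr fun x => ?_
    exact (hVs (k + l) σ x).symm
  rw [step1]
  have hpre2 : (fun p : (Fin k → X) × (Fin l → X) => (Fin.append p.1 p.2 : Fin (k + l) → X)) ⁻¹' C₀
      = cfg Λ₁ k ×ˢ cfg Λ₂ l := by
    ext p
    simp [hC₀, cfg, Set.mem_pi, Fin.append_left, Fin.append_right]
  have step2 := (appendMP k l).setLIntegral_comp_preimage hC₀m (hVm (k + l))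
  rw [← step2, hpre2]
  have hs₁ : MeasurableSet (cfg Λ₁ k) := measurableSet_cfg hm₁ k
  have hs₂ : MeasurableSet (cfg Λ₂ l) := measurableSet_cfg hm₂ l
  have step3 : ∫⁻ p in cfg Λ₁ k ×ˢ cfg Λ₂ l, V (k + l) (Fin.append p.1 p.2)
        ∂((volume : Measure (Fin k → X)).prod (volume : Measure (Fin l → X))) =
      ∫⁻ p in cfg Λ₁ k ×ˢ cfg Λ₂ l, V k p.1 * V l p.2
        ∂((volume : Measure (Fin k → X)).prod (volume : Measure (Fin l → X))) := by
    refine setLIntegral_congr_fun (hs₁.prod hs₂) ?_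
    rintro ⟨y, z⟩ ⟨hy, hz⟩
    have hy' : ∀ i, y i ∈ Λ₁ := fun i => hy i (mem_univ i)
    have hz' : ∀ j, z j ∈ Λ₂ := fun j => hz j (mem_univ j)
    exact hVd k l y z hy' hz'
  rw [step3, ← Measure.prod_restrict]
  exact lintegral_prod_mul (hVm k).aemeasurable (hVm l).aemeasurable

end factor

/-- Factorization of the grand sum over two disjoint regions. -/
theorem Xi_union {Λ₁ Λ₂ : Set X} {V : ∀ N : ℕ, (Fin N → X) → ℝ≥0∞}
    (hm₁ : MeasurableSet Λ₁) (hm₂ : MeasurableSet Λ₂) (hd : Disjoint Λ₁ Λ₂)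
    (hVm : ∀ N, Measurable (V N))
    (hVs : ∀ (N : ℕ) (σ : Equiv.Perm (Fin N)) (x : Fin N → X), V N (x ∘ σ) = V N x)
    (hVd : ∀ (k l : ℕ) (y : Fin k → X) (z : Fin l → X), (∀ i, y i ∈ Λ₁) → (∀ j, z j ∈ Λ₂) →
      V (k + l) (Fin.append y z) = V k y * V l z) :
    Xi (Λ₁ ∪ Λ₂) V = Xi Λ₁ V * Xi Λ₂ V := by
  classical
  set I₁ : ℕ → ℝ≥0∞ := fun k => ∫⁻ y in cfg Λ₁ k, V k y with hI₁
  set I₂ : ℕ → ℝ≥0∞ := fun l => ∫⁻ z in cfg Λ₂ l, V l z with hI₂
  -- the pieces
  let P : ∀ N : ℕ, Finset (Fin N) → Set (Fin N → X) :=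
    fun N S => Set.pi Set.univ (fun i : Fin N => if i ∈ S then Λ₁ else Λ₂)
  have hPm : ∀ N S, MeasurableSet (P N S) := by
    intro N S
    refine MeasurableSet.univ_pi fun i => ?_
    split_ifs
    · exact hm₁
    · exact hm₂
  have hcover : ∀ N, cfg (Λ₁ ∪ Λ₂) N = ⋃ S ∈ (Finset.univ : Finset (Finset (Fin N))), P N S := by
    intro N
    ext x
    simp only [cfg, Set.mem_pi, mem_univ, forall_true_left, mem_iUnion, Finset.mem_univ,
      exists_prop, true_and, P]
    constructor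
    · intro h
      refine ⟨Finset.univ.filter (fun i => x i ∈ Λ₁), fun i => ?_⟩
      by_cases hi : x i ∈ Λ₁
      · simp [hi]
      · simp only [Finset.mem_filter, Finset.mem_univ, true_and, hi, if_false]
        exact (h i).resolve_left hi
    · rintro ⟨S, hS⟩ i
      have := hS i
      split_ifs at this
      · exact Or.inl this
      · exact Or.inr this
  have hdisj : ∀ N, Set.PairwiseDisjoint (↑(Finset.univ : Finset (Finset (Fin N)))) (P N) := by
    intro N S _ T _ hST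
    rw [Function.onFun, Set.disjoint_left]
    intro x hxS hxT
    apply hST
    ext i
    have h1 := hxS i (mem_univ i)
    have h2 := hxT i (mem_univ i)
    by_cases hiS : i ∈ S <;> by_cases hiT : i ∈ T <;> simp only [hiS, hiT, if_true, if_false] at h1 h2
    · simp [hiS, hiT]
    · exact absurd h2 (Set.disjoint_left.mp hd h1)
    · exact absurd h1 (Set.disjoint_left.mp hd h2)
    · simp [hiS, hiT]
  -- value of one piece, by cardinality
  have aux : ∀ (N k l : ℕ) (_ : N = k + l) (S : Finset (Fin N)), S.card = k →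
      ∫⁻ x in P N S, V N x = I₁ k * I₂ l := by
    intro N k l h
    subst h
    intro S hS
    exact piece_eq hm₁ hm₂ hVm hVs hVd k l S hS
  have hpiece : ∀ (N : ℕ) (S : Finset (Fin N)),
      ∫⁻ x in P N S, V N x = I₁ S.card * I₂ (N - S.card) := by
    intro N S
    have hle : S.card ≤ N := by simpa using S.card_le_univ
    exact aux N S.card (N - S.card) (by omega) S rfl
  have hterm : ∀ N, ∫⁻ x in cfg (Λ₁ ∪ Λ₂) N, V N x =
      ∑ m ∈ Finset.range (N + 1), (N.choose m : ℝ≥0∞) * (I₁ m * I₂ (N - m)) := by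
    intro N
    rw [hcover N, lintegral_biUnion_finset (hdisj N) (fun S _ => hPm N S)]
    simp_rw [hpiece]
    have h := Finset.sum_powerset_apply_card (fun m => I₁ m * I₂ (N - m)) (x := (Finset.univ : Finset (Fin N)))
    rw [Finset.powerset_univ] at h
    simp only [Finset.card_univ, Fintype.card_fin] at h
    rw [h]
    refine Finset.sum_congr rfl fun m _ => ?_
    rw [nsmul_eq_mul]
  set a : ℕ → ℝ≥0∞ := fun k => (k.factorial : ℝ≥0∞)⁻¹ * I₁ k with ha
  set b : ℕ → ℝ≥0∞ := fun l => (l.factorial : ℝ≥0∞)⁻¹ * I₂ l with hb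
  have hXi1 : Xi Λ₁ V = ∑' k, a k := rfl
  have hXi2 : Xi Λ₂ V = ∑' l, b l := rfl
  have hcomb : ∀ N m : ℕ, m ≤ N →
      (N.factorial : ℝ≥0∞)⁻¹ * ((N.choose m : ℝ≥0∞) * (I₁ m * I₂ (N - m))) = a m * b (N - m) := by
    intro N m hm
    have hfac : (N.factorial : ℝ≥0∞) =
        (N.choose m : ℝ≥0∞) * (m.factorial : ℝ≥0∞) * ((N - m).factorial : ℝ≥0∞) := by
      have := Nat.choose_mul_factorial_mul_factorial hm
      exact_mod_cast this.symm
    have hc0 : (N.choose m : ℝ≥0∞) ≠ 0 := by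
      exact_mod_cast (Nat.choose_pos hm).ne'
    have hf1 : (m.factorial : ℝ≥0∞) ≠ 0 := by exact_mod_cast (Nat.factorial_pos m).ne'
    have hf2 : ((N - m).factorial : ℝ≥0∞) ≠ 0 := by exact_mod_cast (Nat.factorial_pos _).ne'
    have hct : (N.choose m : ℝ≥0∞) ≠ ∞ := ENNReal.natCast_ne_top _
    have hinv : (N.factorial : ℝ≥0∞)⁻¹ * (N.choose m : ℝ≥0∞) =
        (m.factorial : ℝ≥0∞)⁻¹ * ((N - m).factorial : ℝ≥0∞)⁻¹ := by
      rw [hfac, ENNReal.mul_inv (Or.inl (by simp [hc0, hf1])) (Or.inl (by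
        exact ENNReal.mul_ne_top hct (ENNReal.natCast_ne_top _))),
        ENNReal.mul_inv (Or.inl hc0) (Or.inl hct)]
      calc (N.choose m : ℝ≥0∞)⁻¹ * (m.factorial : ℝ≥0∞)⁻¹ * ((N - m).factorial : ℝ≥0∞)⁻¹ *
            (N.choose m : ℝ≥0∞)
          = ((N.choose m : ℝ≥0∞)⁻¹ * (N.choose m : ℝ≥0∞)) *
            ((m.factorial : ℝ≥0∞)⁻¹ * ((N - m).factorial : ℝ≥0∞)⁻¹) := by ring
        _ = _ := by rw [ENNReal.inv_mul_cancel hc0 hct, one_mul]
    calc (N.factorial : ℝ≥0∞)⁻¹ * ((N.choose m : ℝ≥0∞) * (I₁ m * I₂ (N - m)))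
        = ((N.factorial : ℝ≥0∞)⁻¹ * (N.choose m : ℝ≥0∞)) * (I₁ m * I₂ (N - m)) := by ring
      _ = _ := by rw [hinv]; simp only [ha, hb]; ring
  have hLHS : Xi (Λ₁ ∪ Λ₂) V =
      ∑' N, ∑ p ∈ Finset.HasAntidiagonal.antidiagonal N, a p.1 * b p.2 := by
    unfold Xi
    refine tsum_congr fun N => ?_
    rw [hterm N, Finset.mul_sum, Finset.Nat.sum_antidiagonal_eq_sum_range_succ_mk]
    refine Finset.sum_congr rfl fun m hm => ?_
    exact hcomb N m (by simpa [Nat.lt_succ_iff] using hm)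
  rw [hLHS, hXi1, hXi2]
  have h1 : ∑' N, ∑ p ∈ Finset.HasAntidiagonal.antidiagonal N, a p.1 * b p.2 =
      ∑' p : ℕ × ℕ, a p.1 * b p.2 := by
    rw [← (Finset.HasAntidiagonal.sigmaAntidiagonalEquivProd (A := ℕ)).tsum_eq (fun p : ℕ × ℕ => a p.1 * b p.2),
      ENNReal.tsum_sigma']
    refine tsum_congr fun N => ?_
    simp only [Finset.HasAntidiagonal.sigmaAntidiagonalEquivProd_apply]
    exact (Finset.tsum_subtype (Finset.HasAntidiagonal.antidiagonal N) (fun p : ℕ × ℕ => a p.1 * b p.2)).symm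
  rw [h1, ENNReal.tsum_prod' (f := fun p : ℕ × ℕ => a p.1 * b p.2)]
  simp_rw [ENNReal.tsum_mul_left]
  rw [ENNReal.tsum_mul_right]

/-- The empty region. -/
lemma Xi_empty {V : ∀ N : ℕ, (Fin N → X) → ℝ≥0∞} (hV0 : ∀ x, V 0 x = 1) : Xi ∅ V = 1 := by
  unfold Xi
  rw [tsum_eq_single 0]
  · have h0 : cfg (∅ : Set X) 0 = univ := by
      ext x; simp [cfg]
    have h1 : (Set.pi Set.univ (fun _ : Fin 0 => (∅ : Set X))) = univ := h0
    rw [h1]
    have h2 : (volume : Measure (Fin 0 → X)) univ = 1 := by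
      rw [volume_pi, Measure.pi_empty_univ]
    simp [hV0, h2]
  · intro N hN
    obtain ⟨M, rfl⟩ := Nat.exists_eq_succ_of_ne_zero hN
    have h0 : Set.pi Set.univ (fun _ : Fin (M + 1) => (∅ : Set X)) = ∅ := by
      ext x
      simp only [Set.mem_pi, mem_univ, forall_true_left, mem_empty_iff_false, iff_false, not_forall]
      exact ⟨0, by simp⟩
    have h1 : (Nat.succ M) = M + 1 := rfl
    simp [h0]

/-- Factorization over a finite family of pairwise disjoint regions. -/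
theorem Xi_biUnion {I : Type*} (D : Finset I) (Λ : I → Set X) (hm : ∀ i, MeasurableSet (Λ i))
    (hd : Pairwise (Function.onFun Disjoint Λ)) {V : ∀ N : ℕ, (Fin N → X) → ℝ≥0∞}
    (hV0 : ∀ x, V 0 x = 1) (hVm : ∀ N, Measurable (V N))
    (hVs : ∀ (N : ℕ) (σ : Equiv.Perm (Fin N)) (x : Fin N → X), V N (x ∘ σ) = V N x)
    (hVd : ∀ (D' : Finset I) (j : I), j ∉ D' → ∀ (k l : ℕ) (y : Fin k → X) (z : Fin l → X),
      (∀ i, y i ∈ ⋃ i' ∈ D', Λ i') → (∀ j', z j' ∈ Λ j) →
      V (k + l) (Fin.append y z) = V k y * V l z) :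
    Xi (⋃ i ∈ D, Λ i) V = ∏ i ∈ D, Xi (Λ i) V := by
  classical
  induction D using Finset.induction_on with
  | empty => simpa using Xi_empty hV0
  | insert j D' hj ih =>
    rw [Finset.prod_insert hj, ← ih]
    have hU : (⋃ i ∈ insert j D', Λ i) = (⋃ i ∈ D', Λ i) ∪ Λ j := by
      ext x; simp only [Finset.mem_insert, iUnion_iUnion_eq_or_left, mem_iUnion, mem_union]
      exact or_comm
    rw [hU, Xi_union (Finset.measurableSet_biUnion _ fun i _ => hm i) (hm j) ?_ hVm hVs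
      (fun k l y z hy hz => hVd D' j hj k l y z hy hz)]
    · exact mul_comm _ _
    · rw [Set.disjoint_left]
      intro x hx hx2
      simp only [mem_iUnion, exists_prop] at hx
      obtain ⟨i, hi, hxi⟩ := hx
      have hij : i ≠ j := fun h => hj (h ▸ hi)
      exact Set.disjoint_left.mp (hd hij) hxi hx2

/-- Monotonicity in the region. -/
lemma Xi_mono_set {Λ₁ Λ₂ : Set X} (h : Λ₁ ⊆ Λ₂) (V : ∀ N : ℕ, (Fin N → X) → ℝ≥0∞) :
    Xi Λ₁ V ≤ Xi Λ₂ V := by
  refine ENNReal.tsum_le_tsum fun N => ?_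
  gcongr

/-- Monotonicity in the weight, almost everywhere on configurations. -/
lemma Xi_mono_weight {Λ : Set X} (hΛ : MeasurableSet Λ) {V V' : ∀ N : ℕ, (Fin N → X) → ℝ≥0∞}
    (h : ∀ N, ∀ᵐ x ∂(volume : Measure (Fin N → X)), x ∈ cfg Λ N → V N x ≤ V' N x) :
    Xi Λ V ≤ Xi Λ V' := by
  refine ENNReal.tsum_le_tsum fun N => ?_
  gcongr ?_ * ?_
  · rfl
  · refine lintegral_mono_ae ?_
    have h1 : ∀ᵐ x ∂((volume : Measure (Fin N → X)).restrict (cfg Λ N)), V N x ≤ V' N x := by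
      rw [ae_restrict_iff' (measurableSet_cfg hΛ N)]
      exact h N
    exact h1

/-- Translation invariance of `Xi`. -/
lemma Xi_translate {Λ : Set X} (hΛ : MeasurableSet Λ) (τ : X) {V : ∀ N : ℕ, (Fin N → X) → ℝ≥0∞}
    (hVm : ∀ N, Measurable (V N))
    (hV : ∀ (N : ℕ) (x : Fin N → X), V N (fun i => x i + τ) = V N x) :
    Xi ((fun x => x + τ) ⁻¹' Λ) V = Xi Λ V := by
  refine tsum_congr fun N => ?_
  congr 1
  have hg : MeasurePreserving (fun x : Fin N → X => x + (fun _ => τ)) volume volume :=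
    measurePreserving_add_right volume (fun _ : Fin N => τ)
  have hs := measurableSet_cfg hΛ N
  have := hg.setLIntegral_comp_preimage hs (hVm N)
  rw [← this]
  have hpre : (fun x : Fin N → X => x + (fun _ => τ)) ⁻¹' cfg Λ N =
      Set.pi Set.univ (fun _ : Fin N => (fun x => x + τ) ⁻¹' Λ) := by
    ext x; simp [cfg, Set.mem_pi]
  rw [hpre]
  refine lintegral_congr fun x => ?_
  exact (hV N x).symm

/-- Linearity of `Xi` in the weight: sums. -/
lemma Xi_add {Λ : Set X} {V₁ V₂ : ∀ N : ℕ, (Fin N → X) → ℝ≥0∞} (hV₁ : ∀ N, Measurable (V₁ N)) :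
    Xi Λ (fun N x => V₁ N x + V₂ N x) = Xi Λ V₁ + Xi Λ V₂ := by
  unfold Xi
  rw [← ENNReal.tsum_add]
  refine tsum_congr fun N => ?_
  rw [lintegral_add_left (hV₁ N), mul_add]

/-- Linearity of `Xi` in the weight: constants. -/
lemma Xi_const_mul {Λ : Set X} {V : ∀ N : ℕ, (Fin N → X) → ℝ≥0∞} (hV : ∀ N, Measurable (V N))
    (c : ℝ≥0∞) : Xi Λ (fun N x => c * V N x) = c * Xi Λ V := by
  unfold Xi
  rw [← ENNReal.tsum_mul_left]
  refine tsum_congr fun N => ?_
  rw [lintegral_const_mul _ (hV N)]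
  ring

/-- Linearity of `Xi` in the weight: finite sums. -/
lemma Xi_finset_sum {Λ : Set X} {ι : Type*} (s : Finset ι) {V : ι → ∀ N : ℕ, (Fin N → X) → ℝ≥0∞}
    (hV : ∀ t N, Measurable (V t N)) :
    Xi Λ (fun N x => ∑ t ∈ s, V t N x) = ∑ t ∈ s, Xi Λ (V t) := by
  classical
  induction s using Finset.induction_on with
  | empty =>
    simp [Xi]
  | insert a s ha ih =>
    simp_rw [Finset.sum_insert ha]
    rw [Xi_add (fun N => hV a N), ih]

end Vale.Agent.P171
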