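import Vale.Agent.P171.Blocks

/-!
# P171: averaging over shifted grids.

For a kernel of range `R`, a pair of points at distance `< R` is separated by at most three of the
`K` shifted grids of side `K * R`.
-/

open MeasureTheory Filter Topology Set
open scoped ENNReal BigOperators

namespace Vale.Agent.P171

lemma exists_multiple {R : ℝ} (hR : 0 < R) {K : ℕ} (hK : 0 < K) {u v : ℝ} (huv : u ≤ v) {t : ℕ}
    (h : ⌊(u - t * R) / (K * R)⌋ ≠ ⌊(v - t * R) / (K * R)⌋) :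
    ∃ n : ℤ, u < ((n : ℝ) * K + t) * R ∧ ((n : ℝ) * K + t) * R ≤ v := by
  have hK' : (0 : ℝ) < K := by exact_mod_cast hK
  have hKR : 0 < (K : ℝ) * R := by positivity
  have hmono : ⌊(u - t * R) / (K * R)⌋ ≤ ⌊(v - t * R) / (K * R)⌋ :=
    Int.floor_le_floor (by gcongr)
  have hlt := lt_of_le_of_ne hmono h
  refine ⟨⌊(v - t * R) / (K * R)⌋, ?_, ?_⟩
  · have h1 : (u - t * R) / (K * R) < (⌊(v - t * R) / (K * R)⌋ : ℝ) := Int.floor_lt.mp hlt
    rw [div_lt_iff₀ hKR] at h1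
    nlinarith
  · have h1 := Int.floor_le ((v - t * R) / (K * R))
    rw [le_div_iff₀ hKR] at h1
    nlinarith

lemma shift_unique_aux {R : ℝ} (hR : 0 < R) {K : ℕ} (hK : 0 < K) {u v : ℝ} (huv : u ≤ v)
    (huvR : v - u < R) {t t' : ℕ} (ht : t < K) (ht' : t' < K)
    (h : ⌊(u - t * R) / (K * R)⌋ ≠ ⌊(v - t * R) / (K * R)⌋)
    (h' : ⌊(u - t' * R) / (K * R)⌋ ≠ ⌊(v - t' * R) / (K * R)⌋) : t = t' := by
  obtain ⟨n, h1, h2⟩ := exists_multiple hR hK huv h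
  obtain ⟨n', h1', h2'⟩ := exists_multiple hR hK huv h'
  -- the two multiples of `R` coincide
  have h3 : (((n : ℝ) * K + t) - ((n' : ℝ) * K + t')) * R < R := by nlinarith
  have h4 : -R < (((n : ℝ) * K + t) - ((n' : ℝ) * K + t')) * R := by nlinarith
  have h5 : ((n : ℝ) * K + t) - ((n' : ℝ) * K + t') < 1 := by
    by_contra hc
    push Not at hc
    nlinarith
  have h6 : -1 < ((n : ℝ) * K + t) - ((n' : ℝ) * K + t') := by
    by_contra hc
    push Not at hc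
    nlinarith
  have h7 : (n * K + t : ℤ) - (n' * K + t') < 1 := by exact_mod_cast h5
  have h8 : -1 < (n * K + t : ℤ) - (n' * K + t') := by exact_mod_cast h6
  have h9 : (n - n') * (K : ℤ) = (t' : ℤ) - t := by
    have : (n * K + t : ℤ) - (n' * K + t') = 0 := by omega
    linarith
  have h10 : ((K : ℤ)) ∣ (t' : ℤ) - t := ⟨n - n', by rw [← h9]; ring⟩
  have hK'' : (0 : ℤ) < K := by exact_mod_cast hK
  have h11 : |(t' : ℤ) - t| < K := by
    rw [abs_lt]; constructor <;> omega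
  have h12 : (t' : ℤ) - t = 0 := Int.eq_zero_of_abs_lt_dvd h10 h11
  omega

lemma shift_unique {R : ℝ} (hR : 0 < R) {K : ℕ} (hK : 0 < K) {u v : ℝ} (huvR : |u - v| < R)
    {t t' : ℕ} (ht : t < K) (ht' : t' < K)
    (h : ⌊(u - t * R) / (K * R)⌋ ≠ ⌊(v - t * R) / (K * R)⌋)
    (h' : ⌊(u - t' * R) / (K * R)⌋ ≠ ⌊(v - t' * R) / (K * R)⌋) : t = t' := by
  rcases le_total u v with huv | huv
  · exact shift_unique_aux hR hK huv (by rw [abs_sub_comm] at huvR; exact (le_abs_self _).trans_lt huvR)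
      ht ht' h h'
  · exact shift_unique_aux hR hK huv ((le_abs_self _).trans_lt huvR) ht ht' (Ne.symm h) (Ne.symm h')

lemma abs_coord_le (x y : X) (c : Fin 3) : |x c - y c| ≤ ‖x - y‖ := by
  have h := PiLp.norm_apply_le (x - y) c
  simpa [Real.norm_eq_abs] using h

/-- At most three of the `K` grids separate a pair at distance `< R`. -/
lemma card_bad_le {R : ℝ} (hR : 0 < R) {K : ℕ} (hK : 0 < K) {x y : X} (hxy : ‖x - y‖ < R) :
    ((Finset.range K).filter (fun t : ℕ =>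
      gridIdx ((K : ℝ) * R) ((t : ℝ) * R) x ≠ gridIdx ((K : ℝ) * R) ((t : ℝ) * R) y)).card ≤ 3 := by
  classical
  have hcoord : ∀ t : ℕ, gridIdx ((K : ℝ) * R) ((t : ℝ) * R) x ≠ gridIdx ((K : ℝ) * R) ((t : ℝ) * R) y →
      ∃ c : Fin 3, ⌊(x c - t * R) / (K * R)⌋ ≠ ⌊(y c - t * R) / (K * R)⌋ := by
    intro t ht
    obtain ⟨c, hc⟩ := Function.ne_iff.mp ht
    exact ⟨c, hc⟩
  let f : ℕ → Fin 3 := fun t =>
    if h : gridIdx ((K : ℝ) * R) ((t : ℝ) * R) x ≠ gridIdx ((K : ℝ) * R) ((t : ℝ) * R) y then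
      (hcoord t h).choose else 0
  have hf : ∀ t : ℕ, (h : gridIdx ((K : ℝ) * R) ((t : ℝ) * R) x ≠ gridIdx ((K : ℝ) * R) ((t : ℝ) * R) y) →
      ⌊(x (f t) - t * R) / (K * R)⌋ ≠ ⌊(y (f t) - t * R) / (K * R)⌋ := by
    intro t h
    have : f t = (hcoord t h).choose := by
      simp only [f]
      rw [dif_pos h]
    rw [this]
    exact (hcoord t h).choose_spec
  have hinj : Set.InjOn f ((Finset.range K).filter (fun t : ℕ =>
      gridIdx ((K : ℝ) * R) ((t : ℝ) * R) x ≠ gridIdx ((K : ℝ) * R) ((t : ℝ) * R) y) : Finset ℕ) := by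
    intro t ht t' ht' hft
    simp only [Finset.coe_filter, Finset.mem_range, mem_ofPred_eq] at ht ht'
    have h1 := hf t ht.2
    have h2 := hf t' ht'.2
    rw [← hft] at h2
    exact shift_unique hR hK ((abs_coord_le x y (f t)).trans_lt hxy) ht.1 ht'.1 h1 h2
  have := Finset.card_le_card_of_injOn f (t := (Finset.univ : Finset (Fin 3)))
    (fun _ _ => by simp) hinj
  simpa using this

/-- The averaged pair sums over the `K` grids bound the full pair sum of a kernel of range `R`. -/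
lemma pairEnergy_le_avg {f : ℝ → ℝ} {R : ℝ} (hR : 0 < R) (hf : ∀ r, 0 ≤ f r)
    (hf0 : ∀ r, R ≤ r → f r = 0) {K : ℕ} (hK : 3 ≤ K) {N : ℕ} (x : Fin N → X) :
    ((K : ℝ) - 3) * pairEnergy f x ≤
      ∑ t ∈ Finset.range K, pairSame f ((K : ℝ) * R) ((t : ℝ) * R) x := by
  classical
  have hK0 : 0 < K := by omega
  simp only [pairSame_eq_pairK, pairEnergy_eq_pairK]
  unfold pairK
  rw [Finset.sum_comm, Finset.mul_sum]
  refine Finset.sum_le_sum fun p _ => ?_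
  beta_reduce
  by_cases hp : ‖x p.1 - x p.2‖ < R
  · -- count good grids
    have hbad := card_bad_le hR hK0 hp
    simp only [ne_eq] at hbad
    have hsplit := Finset.card_filter_add_card_filter_not (s := Finset.range K) (fun t : ℕ =>
      gridIdx ((K : ℝ) * R) ((t : ℝ) * R) (x p.1) = gridIdx ((K : ℝ) * R) ((t : ℝ) * R) (x p.2))
    rw [Finset.card_range] at hsplit
    have hgood : (K : ℝ) - 3 ≤ ((Finset.range K).filter (fun t : ℕ =>
      gridIdx ((K : ℝ) * R) ((t : ℝ) * R) (x p.1) = gridIdx ((K : ℝ) * R) ((t : ℝ) * R) (x p.2))).card := by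
      have h1 : K ≤ ((Finset.range K).filter (fun t : ℕ =>
        gridIdx ((K : ℝ) * R) ((t : ℝ) * R) (x p.1) = gridIdx ((K : ℝ) * R) ((t : ℝ) * R) (x p.2))).card + 3 := by
        have := hbad
        omega
      have h2 : (K : ℝ) ≤ ((Finset.range K).filter (fun t : ℕ =>
        gridIdx ((K : ℝ) * R) ((t : ℝ) * R) (x p.1) = gridIdx ((K : ℝ) * R) ((t : ℝ) * R) (x p.2))).card + 3 := by
        exact_mod_cast h1
      linarith
    rw [← Finset.sum_filter]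
    rw [Finset.sum_const, nsmul_eq_mul]
    exact mul_le_mul_of_nonneg_right hgood (hf _)
  · push Not at hp
    rw [hf0 _ hp, mul_zero]
    refine Finset.sum_nonneg fun t _ => ?_
    split_ifs
    · exact le_of_eq rfl
    · exact le_rfl

/-- Pointwise bound: the log-weight of `g + a κ_L` is at most the average of the block log-weights. -/
lemma logW_le_avg {g : ℝ → ℝ} {R a L : ℝ} (hgn : ∀ r, 0 ≤ g r) (hR : 0 < R)
    (hg0 : ∀ r, R ≤ r → g r = 0) (ha : 0 ≤ a) (hL : 0 < L) {K : ℕ} (hK : 4 ≤ K) (μ : ℝ) (N : ℕ)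
    (x : Fin N → X) :
    logW (fun r => g r + a * kappa L r) μ N x ≤
      (K : ℝ)⁻¹ * ∑ t ∈ Finset.range K, logB g ((K : ℝ) / ((K : ℝ) - 3))
        (a * ((L + 4 * ((K : ℝ) * R)) / L) ^ 6 / (2 * ((K : ℝ) * R) ^ 3)) μ ((K : ℝ) * R)
        ((t : ℝ) * R) N x := by
  have hK4 : (4 : ℝ) ≤ K := by exact_mod_cast hK
  have hK0 : (0 : ℝ) < K := by linarith
  have hK3 : (0 : ℝ) < (K : ℝ) - 3 := by linarith
  set ℓ : ℝ := (K : ℝ) * R with hℓ
  have hℓ0 : 0 < ℓ := by positivity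
  set θ : ℝ := (K : ℝ) / ((K : ℝ) - 3) with hθ
  have hθ0 : 0 ≤ θ := by positivity
  set c : ℝ := a * ((L + 4 * ℓ) / L) ^ 6 / (2 * ℓ ^ 3) with hc
  -- the three sums
  have h0 : ∑ t ∈ Finset.range K, pairSame phi0 ℓ ((t : ℝ) * R) x ≤ K * pairEnergy phi0 x := by
    have : ∑ t ∈ Finset.range K, pairSame phi0 ℓ ((t : ℝ) * R) x ≤
        ∑ _t ∈ Finset.range K, pairEnergy phi0 x :=
      Finset.sum_le_sum fun t _ => pairSame_le_pairEnergy phi0_nonneg _ _ x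
    simpa using this
  have h1 : (K : ℝ) * pairEnergy g x ≤
      θ * ∑ t ∈ Finset.range K, pairSame g ℓ ((t : ℝ) * R) x := by
    have h := pairEnergy_le_avg hR hgn hg0 (K := K) (by omega) x
    have h' := mul_le_mul_of_nonneg_left h hθ0
    have e : θ * (((K : ℝ) - 3) * pairEnergy g x) = (K : ℝ) * pairEnergy g x := by
      rw [hθ]; field_simp
    rwa [e] at h'
  have h2 : (K : ℝ) * (a * pairEnergy (kappa L) x) ≤
      c * ∑ t ∈ Finset.range K, (sameCount ℓ ((t : ℝ) * R) x : ℝ) := by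
    have : ∑ _t ∈ Finset.range K, (a * pairEnergy (kappa L) x) ≤
        ∑ t ∈ Finset.range K, c * (sameCount ℓ ((t : ℝ) * R) x : ℝ) := by
      refine Finset.sum_le_sum fun t _ => ?_
      have h := pairEnergy_kappa_le hL hℓ0 ((t : ℝ) * R) x
      have h' := mul_le_mul_of_nonneg_left h ha
      refine h'.trans (le_of_eq ?_)
      rw [hc]; ring
    simpa [Finset.mul_sum] using this
  have hsum : ∑ t ∈ Finset.range K, logB g θ c μ ℓ ((t : ℝ) * R) N x =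
      (K : ℝ) * (μ * N) - ∑ t ∈ Finset.range K, pairSame phi0 ℓ ((t : ℝ) * R) x +
      θ * ∑ t ∈ Finset.range K, pairSame g ℓ ((t : ℝ) * R) x +
      c * ∑ t ∈ Finset.range K, (sameCount ℓ ((t : ℝ) * R) x : ℝ) := by
    unfold logB
    simp only [Finset.sum_add_distrib, Finset.sum_sub_distrib, ← Finset.mul_sum, Finset.sum_const,
      Finset.card_range, nsmul_eq_mul]
    ring
  rw [hsum, le_inv_mul_iff₀ hK0]
  unfold logW
  rw [pairEnergy_add, pairEnergy_const_mul]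
  linarith

/-- Jensen: the weight of `g + a κ_L` is at most the average of the block weights. -/
lemma W_le_avg {g : ℝ → ℝ} {R a L : ℝ} (hgn : ∀ r, 0 ≤ g r) (hR : 0 < R)
    (hg0 : ∀ r, R ≤ r → g r = 0) (ha : 0 ≤ a) (hL : 0 < L) {K : ℕ} (hK : 4 ≤ K) (μ : ℝ) (N : ℕ)
    (x : Fin N → X) :
    W (fun r => g r + a * kappa L r) μ N x ≤
      (K : ℝ≥0∞)⁻¹ * ∑ t ∈ Finset.range K, WB g ((K : ℝ) / ((K : ℝ) - 3))
        (a * ((L + 4 * ((K : ℝ) * R)) / L) ^ 6 / (2 * ((K : ℝ) * R) ^ 3)) μ ((K : ℝ) * R)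
        ((t : ℝ) * R) N x := by
  have hK4 : (4 : ℝ) ≤ K := by exact_mod_cast hK
  have hK0 : (0 : ℝ) < K := by linarith
  set θ : ℝ := (K : ℝ) / ((K : ℝ) - 3) with hθ
  set c : ℝ := a * ((L + 4 * ((K : ℝ) * R)) / L) ^ 6 / (2 * ((K : ℝ) * R) ^ 3) with hc
  have h1 := logW_le_avg (g := g) hgn hR hg0 ha hL hK μ N x
  have h2 : Real.exp (logW (fun r => g r + a * kappa L r) μ N x) ≤
      (K : ℝ)⁻¹ * ∑ t ∈ Finset.range K, Real.exp (logB g θ c μ ((K : ℝ) * R) ((t : ℝ) * R) N x) := by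
    refine (Real.exp_le_exp.mpr h1).trans ?_
    have hj := convexOn_exp.map_sum_le (t := Finset.range K)
      (w := fun _ : ℕ => (K : ℝ)⁻¹)
      (p := fun t : ℕ => logB g θ c μ ((K : ℝ) * R) ((t : ℝ) * R) N x)
      (fun _ _ => by positivity)
      (by simp [hK0.ne']) (fun _ _ => mem_univ _)
    simp only [smul_eq_mul, ← Finset.mul_sum] at hj
    exact hj
  unfold W WB
  refine (ENNReal.ofReal_le_ofReal h2).trans (le_of_eq ?_)
  rw [ENNReal.ofReal_mul (by positivity), ENNReal.ofReal_inv_of_pos hK0, ENNReal.ofReal_natCast,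
    ENNReal.ofReal_sum_of_nonneg (fun _ _ => (Real.exp_pos _).le)]

/-- The finite set of block indices meeting the cube. -/
noncomputable def blockSet (ℓ s V : ℝ) : Finset (Fin 3 → ℤ) :=
  Fintype.piFinset (fun _ : Fin 3 => Finset.Icc ⌊(0 - s) / ℓ⌋ ⌊(V - s) / ℓ⌋)

lemma cube_sub_blocks {ℓ : ℝ} (hℓ : 0 < ℓ) (s V : ℝ) :
    cube V ⊆ ⋃ i ∈ blockSet ℓ s V, blk ℓ s i := by
  intro x hx
  simp only [mem_iUnion, exists_prop]
  refine ⟨gridIdx ℓ s x, ?_, rfl⟩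
  unfold blockSet
  rw [Fintype.mem_piFinset]
  intro c
  rw [Finset.mem_Icc]
  have h := hx c
  constructor
  · exact Int.floor_le_floor (by gcongr; exact h.1)
  · exact Int.floor_le_floor (by gcongr; exact h.2)

lemma card_blockSet_le {ℓ : ℝ} (hℓ : 0 < ℓ) (s : ℝ) {V : ℝ} (hV : 0 ≤ V) :
    ((blockSet ℓ s V).card : ℝ) ≤ (V / ℓ + 2) ^ 3 := by
  unfold blockSet
  rw [Fintype.card_piFinset]
  simp only [Finset.prod_const, Finset.card_univ, Fintype.card_fin, Nat.cast_pow]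
  refine pow_le_pow_left₀ (by positivity) ?_ 3
  rw [Int.card_Icc]
  have h1 : ((⌊(V - s) / ℓ⌋ : ℤ) : ℝ) ≤ (V - s) / ℓ := Int.floor_le _
  have h2 : (0 - s) / ℓ < (⌊(0 - s) / ℓ⌋ : ℝ) + 1 := Int.lt_floor_add_one _
  have h3 : (V - s) / ℓ - (0 - s) / ℓ = V / ℓ := by ring
  have hpos : 0 ≤ V / ℓ := by positivity
  have hmono : ⌊(0 - s) / ℓ⌋ ≤ ⌊(V - s) / ℓ⌋ + 1 := by
    have : ⌊(0 - s) / ℓ⌋ ≤ ⌊(V - s) / ℓ⌋ := Int.floor_le_floor (by gcongr)
    omega
  have h4 : (((⌊(V - s) / ℓ⌋ + 1 - ⌊(0 - s) / ℓ⌋).toNat : ℤ) : ℝ) =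
      ((⌊(V - s) / ℓ⌋ + 1 - ⌊(0 - s) / ℓ⌋ : ℤ) : ℝ) := by
    rw [Int.toNat_of_nonneg (by omega)]
  have h5 : (((⌊(V - s) / ℓ⌋ + 1 - ⌊(0 - s) / ℓ⌋).toNat : ℕ) : ℝ) =
      (⌊(V - s) / ℓ⌋ : ℝ) + 1 - (⌊(0 - s) / ℓ⌋ : ℝ) := by
    have := h4
    push_cast at this
    exact_mod_cast this
  rw [h5]
  linarith

/-- Bound of the decoupled grand sum on a big cube by the block grand sum. -/
lemma Xi_cube_WB_le {g : ℝ → ℝ} (hg : Measurable g) {ℓ : ℝ} (hℓ : 0 < ℓ) (θ c μ s : ℝ) {E : ℝ}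
    (hE : 0 ≤ E) (hB : Xi (cube ℓ) (Wblk g θ c μ) ≤ ENNReal.ofReal (Real.exp E)) {V : ℝ} (hV : 0 ≤ V) :
    Xi (cube V) (WB g θ c μ ℓ s) ≤ ENNReal.ofReal (Real.exp ((V / ℓ + 2) ^ 3 * E)) := by
  have h1 : Xi (cube V) (WB g θ c μ ℓ s) ≤ Xi (⋃ i ∈ blockSet ℓ s V, blk ℓ s i) (WB g θ c μ ℓ s) :=
    Xi_mono_set (cube_sub_blocks hℓ s V) _
  rw [Xi_WB_biUnion hg] at h1
  refine h1.trans ?_
  have h2 : ∏ i ∈ blockSet ℓ s V, Xi (blk ℓ s i) (WB g θ c μ ℓ s) ≤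
      ∏ _i ∈ blockSet ℓ s V, ENNReal.ofReal (Real.exp E) :=
    Finset.prod_le_prod' fun i _ => (Xi_blk_le hg hℓ θ c μ s i (measurableSet_cube ℓ)).trans hB
  refine h2.trans ?_
  rw [Finset.prod_const, ← ENNReal.ofReal_pow (Real.exp_pos _).le, ← Real.exp_nat_mul]
  refine ENNReal.ofReal_le_ofReal (Real.exp_le_exp.mpr ?_)
  exact mul_le_mul_of_nonneg_right (card_blockSet_le hℓ s hV) hE

/-- The grand sum of `g + a κ_L` on a big cube, bounded via the block grand sum. -/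
lemma XiL_kac_le {g : ℝ → ℝ} {R a L : ℝ} (hgn : ∀ r, 0 ≤ g r) (hgm : Measurable g) (hR : 0 < R)
    (hg0 : ∀ r, R ≤ r → g r = 0) (ha : 0 ≤ a) (hL : 0 < L) {K : ℕ} (hK : 4 ≤ K) (μ : ℝ) {E : ℝ}
    (hE : 0 ≤ E)
    (hB : Xi (cube ((K : ℝ) * R)) (Wblk g ((K : ℝ) / ((K : ℝ) - 3))
        (a * ((L + 4 * ((K : ℝ) * R)) / L) ^ 6 / (2 * ((K : ℝ) * R) ^ 3)) μ) ≤
      ENNReal.ofReal (Real.exp E)) {V : ℝ} (hV : 0 ≤ V) :
    XiL (fun r => g r + a * kappa L r) μ V ≤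
      ENNReal.ofReal (Real.exp ((V / ((K : ℝ) * R) + 2) ^ 3 * E)) := by
  have hK4 : (4 : ℝ) ≤ K := by exact_mod_cast hK
  have hK0 : (0 : ℝ) < K := by linarith
  have hℓ : 0 < (K : ℝ) * R := by positivity
  set θ : ℝ := (K : ℝ) / ((K : ℝ) - 3) with hθ
  set c : ℝ := a * ((L + 4 * ((K : ℝ) * R)) / L) ^ 6 / (2 * ((K : ℝ) * R) ^ 3) with hc
  have h1 : XiL (fun r => g r + a * kappa L r) μ V ≤
      Xi (cube V) (fun N x => (K : ℝ≥0∞)⁻¹ * ∑ t ∈ Finset.range K,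
        WB g θ c μ ((K : ℝ) * R) ((t : ℝ) * R) N x) := by
    unfold XiL
    refine Xi_mono_weight (measurableSet_cube V) fun N => ?_
    exact Filter.Eventually.of_forall fun x _ => W_le_avg hgn hR hg0 ha hL hK μ N x
  refine h1.trans ?_
  rw [Xi_const_mul (fun N => Finset.measurable_sum _ fun t _ => WB_measurable hgm _ _ _ _ _ N),
    Xi_finset_sum _ (fun t N => WB_measurable hgm _ _ _ _ _ N)]
  have h2 : ∑ t ∈ Finset.range K, Xi (cube V) (WB g θ c μ ((K : ℝ) * R) ((t : ℝ) * R)) ≤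
      ∑ _t ∈ Finset.range K, ENNReal.ofReal (Real.exp ((V / ((K : ℝ) * R) + 2) ^ 3 * E)) :=
    Finset.sum_le_sum fun t _ => Xi_cube_WB_le hgm hℓ θ c μ _ hE hB hV
  refine (mul_le_mul_right h2 _).trans ?_
  rw [Finset.sum_const, Finset.card_range, nsmul_eq_mul, ← mul_assoc,
    ENNReal.inv_mul_cancel (by exact_mod_cast (by omega : K ≠ 0)) (ENNReal.natCast_ne_top K), one_mul]

lemma logXi_le_of_le {g : ℝ → ℝ} {ν L F : ℝ} (h : XiL g ν L ≤ ENNReal.ofReal (Real.exp F)) :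
    logXi g ν L ≤ F := by
  unfold logXi
  have h1 : 1 ≤ XiL g ν L := one_le_XiL g ν L
  have hne : XiL g ν L ≠ ∞ := ne_top_of_le_ne_top ENNReal.ofReal_ne_top h
  have h2 : (XiL g ν L).toReal ≤ Real.exp F := ENNReal.toReal_le_of_le_ofReal (Real.exp_pos _).le h
  have h3 : 0 < (XiL g ν L).toReal := by
    have : (1 : ℝ≥0∞).toReal ≤ (XiL g ν L).toReal := ENNReal.toReal_mono hne h1
    simp at this
    linarith
  exact (Real.log_le_iff_le_exp h3).mpr h2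

/-- Passing to the pressure from block bounds. -/
lemma press_le_of_block {g : ℝ → ℝ} {A R a L : ℝ} (hg : IsAttr g A) (hr : HasRange g R)
    (ha : 0 < a) (hL : 1 ≤ L) {K : ℕ} (hK : 4 ≤ K) (μ : ℝ) {E : ℝ} (hE : 0 ≤ E)
    (hB : Xi (cube ((K : ℝ) * R)) (Wblk g ((K : ℝ) / ((K : ℝ) - 3))
        (a * ((L + 4 * ((K : ℝ) * R)) / L) ^ 6 / (2 * ((K : ℝ) * R) ^ 3)) μ) ≤
      ENNReal.ofReal (Real.exp E)) :
    press (fun r => g r + a * kappa L r) μ ≤ E / ((K : ℝ) * R) ^ 3 := by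
  have hL0 : 0 < L := by linarith
  have hR0 : 0 < R := by linarith [hr.two_le]
  have hK4 : (4 : ℝ) ≤ K := by exact_mod_cast hK
  have hK0 : (0 : ℝ) < K := by linarith
  have hℓ : 0 < (K : ℝ) * R := by positivity
  set ℓ : ℝ := (K : ℝ) * R with hℓdef
  have hattr : IsAttr (fun r => g r + a * kappa L r) (A + a * 1) :=
    hg.add ((isAttr_kappa hL).const_mul ha.le)
  have hrange : HasRange (fun r => g r + a * kappa L r) (max R (2 * L)) :=
    hr.add ((hasRange_kappa hL).const_mul a)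
  have ht := tendsto_press hattr hrange μ
  have hup : Tendsto (fun V : ℝ => (1 / ℓ + 2 / V) ^ 3 * E) atTop (𝓝 ((1 / ℓ + 0) ^ 3 * E)) := by
    refine Tendsto.mul_const _ (Tendsto.pow (Tendsto.add tendsto_const_nhds ?_) 3)
    exact tendsto_const_nhds.div_atTop tendsto_id
  have hle : ∀ᶠ V : ℝ in atTop, (V ^ 3)⁻¹ * logXi (fun r => g r + a * kappa L r) μ V ≤
      (1 / ℓ + 2 / V) ^ 3 * E := by
    filter_upwards [eventually_gt_atTop (0 : ℝ)] with V hV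
    have h1 := logXi_le_of_le (XiL_kac_le hg.nonneg hg.meas hR0 hr.zero ha.le hL0 hK μ hE hB hV.le)
    have h2 : (V ^ 3)⁻¹ * logXi (fun r => g r + a * kappa L r) μ V ≤
        (V ^ 3)⁻¹ * ((V / ℓ + 2) ^ 3 * E) := mul_le_mul_of_nonneg_left h1 (by positivity)
    refine h2.trans (le_of_eq ?_)
    field_simp
  have h := le_of_tendsto_of_tendsto ht hup hle
  refine h.trans (le_of_eq ?_)
  field_simp
  ring

end Vale.Agent.P171
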