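import Vale.Agent.P171.BlockBound

/-!
# P171: the upper bound in the Lebowitz-Penrose limit.
-/

open MeasureTheory Filter Topology Set
open scoped ENNReal BigOperators

namespace Vale.Agent.P171

variable {g : ℝ → ℝ} {A R : ℝ}

/-- Perturbation of the Hopf-Lax value. -/
lemma hopf_perturb {p q : ℝ → ℝ} (hp0 : ∀ ν, 0 ≤ p ν) (hq0 : ∀ ν, 0 ≤ q ν) (hp : SubQuad p)
    (hq : SubQuad q) {a : ℝ} (ha : 0 < a) (μ ε : ℝ) (hε : 0 < ε) :
    ∃ τ₀ δ₀ : ℝ, 0 < τ₀ ∧ 0 < δ₀ ∧ ∀ α ζ a' : ℝ, 1 ≤ α → α ≤ 8 → 0 ≤ ζ → ζ ≤ 1 → α - 1 ≤ τ₀ →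
      α * ζ ≤ τ₀ → a ≤ a' → a' ≤ 2 * a → 1 / (2 * a) - 1 / (2 * a') ≤ δ₀ → ∀ γ : ℝ,
        α * (p (μ + γ) + ζ * q (μ + γ)) - γ ^ 2 / (2 * a') ≤ hopfLax a p μ + ε := by
  set e : ℝ := 1 / (128 * a) with he
  have he0 : 0 < e := by positivity
  obtain ⟨C₁, hC₁⟩ := hp (e / 2) (by positivity)
  obtain ⟨C₂, hC₂⟩ := hq (e / 2) (by positivity)
  set C : ℝ := C₁ + C₂ with hC
  have hH : ∀ ν, p ν + q ν ≤ C + e * ν ^ 2 := by
    intro ν
    have h1 := hC₁ ν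
    have h2 := hC₂ ν
    rw [hC]
    linarith
  have hC0 : 0 ≤ C := by
    have := hH 0
    have h1 := hp0 0
    have h2 := hq0 0
    simp only [ne_eq, OfNat.ofNat_ne_zero, not_false_eq_true, zero_pow, mul_zero, add_zero] at this
    linarith
  set Y : ℝ := 8 * C + 16 * e * μ ^ 2 with hY
  have hY0 : 0 ≤ Y := by positivity
  set Γ : ℝ := 8 * a * Y with hΓ
  have hΓ0 : 0 ≤ Γ := by positivity
  set Hmax : ℝ := C + e * (2 * μ ^ 2 + 2 * Γ) with hHmax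
  have hHmax0 : 0 ≤ Hmax := by positivity
  refine ⟨ε / (2 * (Hmax + 1)), ε / (2 * (Γ + 1)), by positivity, by positivity, ?_⟩
  intro α ζ a' hα1 hα8 hζ0 hζ1 hατ hαζ haa' ha'2 hδ γ
  have ha'0 : 0 < a' := by linarith
  have hTp := le_hopf hp ha μ γ
  have hT0 : 0 ≤ hopfLax a p μ := by
    have := le_hopf hp ha μ 0
    simp only [add_zero, ne_eq, OfNat.ofNat_ne_zero, not_false_eq_true, zero_pow, zero_div,
      sub_zero] at this
    linarith [hp0 μ]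
  set P := p (μ + γ) with hP
  set Q := q (μ + γ) with hQ
  have hP0 : 0 ≤ P := hp0 _
  have hQ0 : 0 ≤ Q := hq0 _
  have hHγ : P + Q ≤ C + e * (2 * μ ^ 2 + 2 * γ ^ 2) := by
    refine (hH _).trans ?_
    have : (μ + γ) ^ 2 ≤ 2 * μ ^ 2 + 2 * γ ^ 2 := by nlinarith [sq_nonneg (μ - γ)]
    have h2 := mul_le_mul_of_nonneg_left this he0.le
    linarith
  by_cases hγ : Γ ≤ γ ^ 2
  · -- far regime
    have h1 : α * (P + ζ * Q) ≤ 8 * (P + Q) := by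
      have : ζ * Q ≤ Q := by nlinarith
      have h2 : P + ζ * Q ≤ P + Q := by linarith
      have h3 : 0 ≤ P + ζ * Q := by positivity
      nlinarith
    have h2 : γ ^ 2 / (4 * a) ≤ γ ^ 2 / (2 * a') := by
      apply div_le_div_of_nonneg_left (by positivity) (by positivity) (by linarith)
    have h3 : 16 * e * γ ^ 2 = γ ^ 2 / (8 * a) := by
      rw [he]; field_simp; ring
    have h4 : γ ^ 2 / (4 * a) = 2 * (γ ^ 2 / (8 * a)) := by
      field_simp; ring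
    have h5 : Y ≤ γ ^ 2 / (8 * a) := by
      rw [le_div_iff₀ (by positivity)]
      rw [hΓ] at hγ
      linarith
    have h6 : α * (P + ζ * Q) - γ ^ 2 / (2 * a') ≤ 0 := by
      have h7 : 8 * (P + Q) ≤ Y + 16 * e * γ ^ 2 := by
        rw [hY]
        nlinarith
      linarith
    linarith
  · push Not at hγ
    have hτ : (ε / (2 * (Hmax + 1))) * (P + Q) ≤ ε / 2 := by
      have h1 : P + Q ≤ Hmax + 1 := by
        have : e * (2 * μ ^ 2 + 2 * γ ^ 2) ≤ e * (2 * μ ^ 2 + 2 * Γ) :=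
          mul_le_mul_of_nonneg_left (by linarith) he0.le
        rw [hHmax]
        linarith
      have h2 : (ε / (2 * (Hmax + 1))) * (P + Q) ≤ (ε / (2 * (Hmax + 1))) * (Hmax + 1) :=
        mul_le_mul_of_nonneg_left h1 (by positivity)
      refine h2.trans (le_of_eq ?_)
      field_simp
    have hδ' : γ ^ 2 * (1 / (2 * a) - 1 / (2 * a')) ≤ ε / 2 := by
      have h1 : γ ^ 2 * (1 / (2 * a) - 1 / (2 * a')) ≤ (Γ + 1) * (ε / (2 * (Γ + 1))) := by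
        have h3 : 0 ≤ ε / (2 * (Γ + 1)) := by positivity
        have h4 : 1 / (2 * a') ≤ 1 / (2 * a) := by
          apply div_le_div_of_nonneg_left (by norm_num) (by positivity) (by linarith)
        have h5 : 0 ≤ 1 / (2 * a) - 1 / (2 * a') := by linarith
        calc γ ^ 2 * (1 / (2 * a) - 1 / (2 * a')) ≤ (Γ + 1) * (1 / (2 * a) - 1 / (2 * a')) :=
              mul_le_mul_of_nonneg_right (by linarith) h5
          _ ≤ _ := mul_le_mul_of_nonneg_left hδ (by positivity)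
      refine h1.trans (le_of_eq ?_)
      field_simp
    have hsplit : α * (P + ζ * Q) - γ ^ 2 / (2 * a') =
        (P - γ ^ 2 / (2 * a)) + ((α - 1) * P + (α * ζ) * Q) +
          γ ^ 2 * (1 / (2 * a) - 1 / (2 * a')) := by
      field_simp
      ring
    have h7 : (α - 1) * P + (α * ζ) * Q ≤ (ε / (2 * (Hmax + 1))) * (P + Q) := by
      have h8 := mul_le_mul_of_nonneg_right hατ hP0
      have h9 := mul_le_mul_of_nonneg_right hαζ hQ0
      linarith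
    rw [hsplit]
    linarith

/-- Assembly for fixed `K` and `L`. -/
lemma press_kac_core (hg : IsAttr g A) (hA : 0 ≤ A) (hr : HasRange g R) {a L : ℝ} (ha : 0 < a)
    (hL : 1 ≤ L) {K : ℕ} (hK : 6 ≤ K) (μ : ℝ) {k : ℕ} (hk : 4 ≤ k) (hkA : 1152 * (4 * A) ≤ k)
    (hka : 288 * (a + 1) ≤ k) {ρ : ℝ} (hρ : 1 ≤ ρ) (hρ2 : 2 + μ + (k : ℝ) ^ 4 / 18 ≤ ρ)
    (hr2 : ((L + 4 * ((K : ℝ) * R)) / L) ^ 6 ≤ 2) {T₁ : ℝ} (hT₁ : 0 ≤ T₁)
    (hT : ∀ γ : ℝ, (((K : ℝ) * R + R) ^ 3 / ((K : ℝ) * R) ^ 3) *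
        press (fun r => ((K : ℝ) / ((K : ℝ) - 3)) * g r) (μ + γ) -
          γ ^ 2 / (2 * (a * ((L + 4 * ((K : ℝ) * R)) / L) ^ 6)) ≤ T₁) :
    press (fun r => g r + a * kappa L r) μ ≤
      T₁ + Real.log (ρ * ((K : ℝ) * R) ^ 3 + 3) / ((K : ℝ) * R) ^ 3 := by
  have hL0 : 0 < L := by linarith
  have hR2 : 2 ≤ R := hr.two_le
  have hR0 : 0 < R := by linarith
  have hK6 : (6 : ℝ) ≤ K := by exact_mod_cast hK
  have hK0 : (0 : ℝ) < K := by linarith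
  have hK3 : (0 : ℝ) < (K : ℝ) - 3 := by linarith
  set ℓ : ℝ := (K : ℝ) * R with hℓ
  have hℓ0 : 0 < ℓ := by positivity
  have hℓ1 : 1 ≤ ℓ := by rw [hℓ]; nlinarith
  have hv : 0 < ℓ ^ 3 := by positivity
  set r : ℝ := ((L + 4 * ℓ) / L) ^ 6 with hrdef
  have hr0 : 0 < r := by positivity
  set c : ℝ := a * r / (2 * ℓ ^ 3) with hc
  have hc0 : 0 < c := by positivity
  set θ : ℝ := (K : ℝ) / ((K : ℝ) - 3) with hθ
  have hθ0 : 0 ≤ θ := by positivity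
  have hθ4 : θ ≤ 4 := by
    rw [hθ, div_le_iff₀ hK3]
    linarith
  have hattr : IsAttr (fun r => θ * g r) (4 * A) :=
    (hg.const_mul hθ0).mono (mul_le_mul_of_nonneg_right hθ4 hA)
  have hrange : HasRange (fun r => θ * g r) R := hr.const_mul θ
  have hcv : c * ℓ ^ 3 = a * r / 2 := by
    rw [hc]; field_simp
  have hb : 1 ≤ (k : ℝ) / 288 - c * ℓ ^ 3 := by
    rw [hcv]
    have h1 : a + 1 ≤ (k : ℝ) / 288 := by
      rw [le_div_iff₀ (by norm_num)]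
      linarith
    have h2 : a * r / 2 ≤ a := by nlinarith
    linarith
  have hE₁ : 0 ≤ ℓ ^ 3 * T₁ := by positivity
  have hT' : ∀ γ : ℝ, (ℓ + R) ^ 3 * press (fun r => θ * g r) (μ + γ) - γ ^ 2 / (4 * c) ≤
      ℓ ^ 3 * T₁ := by
    intro γ
    have h := mul_le_mul_of_nonneg_left (hT γ) hv.le
    refine le_trans (le_of_eq ?_) h
    rw [hc]
    field_simp
    ring
  have hblock := block_le hattr hrange hc0 hℓ1 hk hkA hb hρ hρ2 hE₁ hT'
  have hlog : 0 ≤ Real.log (ρ * ℓ ^ 3 + 3) := by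
    apply Real.log_nonneg
    have : 0 ≤ ρ * ℓ ^ 3 := by positivity
    linarith
  have h : press (fun r => g r + a * kappa L r) μ ≤ (ℓ ^ 3 * T₁ + Real.log (ρ * ℓ ^ 3 + 3)) / ℓ ^ 3 :=
    press_le_of_block hg hr ha hL (K := K) (by omega) μ (E := ℓ ^ 3 * T₁ + Real.log (ρ * ℓ ^ 3 + 3))
      (by positivity) hblock
  refine h.trans (le_of_eq ?_)
  field_simp

lemma log_le_of_large {ρ δ v : ℝ} (hρ : 0 ≤ ρ) (hδ : 0 < δ) (hv1 : 1 ≤ v)
    (hv2 : 2 * (ρ + 3) / δ ^ 2 ≤ v) : Real.log (ρ * v + 3) ≤ δ * v := by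
  have hpos : 0 < ρ * v + 3 := by positivity
  rw [Real.log_le_iff_le_exp hpos]
  have h1 := Real.quadratic_le_exp_of_nonneg (x := δ * v) (by positivity)
  have h2 : 2 * (ρ + 3) ≤ v * δ ^ 2 := by
    rwa [div_le_iff₀ (by positivity)] at hv2
  have h3 : ρ * v + 3 ≤ (ρ + 3) * v := by nlinarith
  have h4 : (ρ + 3) * v ≤ (δ * v) ^ 2 / 2 := by nlinarith
  have h5 : 0 ≤ δ * v := by positivity
  linarith

/-- The coefficients attached to the grid parameter `K`. -/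
lemma grid_coeffs {R τ₀ : ℝ} (hR : 0 < R) (hτ₀ : 0 < τ₀) {K : ℕ} (hK6 : (6 : ℝ) ≤ K)
    (hKτ : 48 / τ₀ ≤ K) :
    1 ≤ ((K : ℝ) * R + R) ^ 3 / ((K : ℝ) * R) ^ 3 ∧ ((K : ℝ) * R + R) ^ 3 / ((K : ℝ) * R) ^ 3 ≤ 8 ∧
      0 ≤ 3 / ((K : ℝ) - 3) ∧ 3 / ((K : ℝ) - 3) ≤ 1 ∧
      ((K : ℝ) * R + R) ^ 3 / ((K : ℝ) * R) ^ 3 - 1 ≤ τ₀ ∧
      ((K : ℝ) * R + R) ^ 3 / ((K : ℝ) * R) ^ 3 * (3 / ((K : ℝ) - 3)) ≤ τ₀ ∧
      (K : ℝ) / ((K : ℝ) - 3) = 1 + 3 / ((K : ℝ) - 3) := by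
  have hK0 : (0 : ℝ) < K := by linarith
  have hK3 : (0 : ℝ) < (K : ℝ) - 3 := by linarith
  set x : ℝ := 1 / (K : ℝ) with hx
  have hx0 : 0 < x := by positivity
  have hx1 : x ≤ 1 := by
    rw [hx, div_le_one hK0]; linarith
  have hxτ : 48 * x ≤ τ₀ := by
    rw [div_le_iff₀ hτ₀] at hKτ
    rw [hx]
    have : 48 * (1 / (K : ℝ)) = 48 / K := by ring
    rw [this, div_le_iff₀ hK0]
    linarith
  set α : ℝ := ((K : ℝ) * R + R) ^ 3 / ((K : ℝ) * R) ^ 3 with hα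
  have hαx : α = (1 + x) ^ 3 := by
    rw [hα, hx]; field_simp
  have hα1 : 1 ≤ α := by
    rw [hαx]; exact one_le_pow₀ (by linarith)
  have hα8 : α ≤ 8 := by
    rw [hαx]
    have : (1 + x) ^ 3 ≤ 2 ^ 3 := pow_le_pow_left₀ (by linarith) (by linarith) 3
    linarith
  have hα7 : α - 1 ≤ 7 * x := by
    rw [hαx]
    have h1 : x ^ 2 ≤ x := by nlinarith
    have h2 : x ^ 3 ≤ x := by nlinarith
    nlinarith
  set ζ : ℝ := 3 / ((K : ℝ) - 3) with hζ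
  have hζ0 : 0 ≤ ζ := by positivity
  have hζ1 : ζ ≤ 1 := by
    rw [hζ, div_le_one hK3]; linarith
  have hζx : ζ ≤ 6 * x := by
    rw [hζ, hx, div_le_iff₀ hK3]
    field_simp
    linarith
  have hαζ : α * ζ ≤ τ₀ := by
    have h1 : α * ζ ≤ 8 * (6 * x) := mul_le_mul hα8 hζx hζ0 (by norm_num)
    linarith
  have hατ : α - 1 ≤ τ₀ := by linarith
  refine ⟨hα1, hα8, hζ0, hζ1, hατ, hαζ, ?_⟩
  rw [hζ]; field_simp; ring

lemma exists_L_large {ℓ a δ₀ : ℝ} (ha : 0 < a) (hδ₀ : 0 < δ₀) :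
    ∃ L₁ : ℝ, ∀ L, L₁ ≤ L → ((L + 4 * ℓ) / L) ^ 6 < 2 ∧
      1 / (2 * a) - 1 / (2 * (a * ((L + 4 * ℓ) / L) ^ 6)) < δ₀ := by
  have hlim : Tendsto (fun L : ℝ => ((L + 4 * ℓ) / L) ^ 6) atTop (𝓝 1) := by
    have h1 : Tendsto (fun L : ℝ => 1 + 4 * ℓ / L) atTop (𝓝 (1 + 0)) :=
      tendsto_const_nhds.add (tendsto_const_nhds.div_atTop tendsto_id)
    have h2 : Tendsto (fun L : ℝ => (1 + 4 * ℓ / L) ^ 6) atTop (𝓝 ((1 + 0) ^ 6)) := h1.pow 6
    have h3 : (1 + 0 : ℝ) ^ 6 = 1 := by norm_num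
    rw [h3] at h2
    refine h2.congr' ?_
    filter_upwards [eventually_gt_atTop (0 : ℝ)] with L hL
    congr 1
    field_simp
  have hev1 : ∀ᶠ L : ℝ in atTop, ((L + 4 * ℓ) / L) ^ 6 < 2 :=
    hlim.eventually (gt_mem_nhds (by norm_num))
  have hlim2 : Tendsto (fun L : ℝ => 1 / (2 * a) - 1 / (2 * (a * ((L + 4 * ℓ) / L) ^ 6))) atTop
      (𝓝 (1 / (2 * a) - 1 / (2 * (a * 1)))) := by
    refine tendsto_const_nhds.sub (Tendsto.div tendsto_const_nhds ?_ (by positivity))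
    exact tendsto_const_nhds.mul (tendsto_const_nhds.mul hlim)
  have hev2 : ∀ᶠ L : ℝ in atTop, 1 / (2 * a) - 1 / (2 * (a * ((L + 4 * ℓ) / L) ^ 6)) < δ₀ := by
    refine hlim2.eventually (gt_mem_nhds ?_)
    simpa using hδ₀
  exact eventually_atTop.mp (hev1.and hev2)

lemma hopf_nonneg {p : ℝ → ℝ} (hp0 : ∀ ν, 0 ≤ p ν) (hp : SubQuad p) {a : ℝ} (ha : 0 < a) (μ : ℝ) :
    0 ≤ hopfLax a p μ := by
  have := le_hopf hp ha μ 0
  simp only [add_zero, ne_eq, OfNat.ofNat_ne_zero, not_false_eq_true, zero_pow, zero_div,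
    sub_zero] at this
  linarith [hp0 μ]

theorem press_kac_le (hg : IsAttr g A) (hA : 0 ≤ A) (hr : HasRange g R) {a : ℝ} (ha : 0 < a)
    (μ ε : ℝ) (hε : 0 < ε) :
    ∃ L₀ : ℝ, 1 ≤ L₀ ∧ ∀ L, L₀ ≤ L →
      press (fun r => g r + a * kappa L r) μ ≤ hopfLax a (press g) μ + ε := by
  have hR2 : 2 ≤ R := hr.two_le
  have hR0 : 0 < R := by linarith
  have hattr2 : IsAttr (fun r => 2 * g r) (2 * A) := hg.const_mul (by norm_num)
  have hrange2 : HasRange (fun r => 2 * g r) R := hr.const_mul 2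
  obtain ⟨τ₀, δ₀, hτ₀, hδ₀, hpert⟩ := hopf_perturb (press_nonneg hg hr) (press_nonneg hattr2 hrange2)
    (press_subquad hg hr) (press_subquad hattr2 hrange2) ha μ (ε / 2) (by positivity)
  -- the stability parameter
  obtain ⟨k, hk⟩ := exists_nat_ge (max (max 4 (1152 * (4 * A))) (288 * (a + 1)))
  have hk4 : 4 ≤ k := by
    have : (4 : ℝ) ≤ k := ((le_max_left _ _).trans (le_max_left _ _)).trans hk
    exact_mod_cast this
  have hkA : 1152 * (4 * A) ≤ k := ((le_max_right _ _).trans (le_max_left _ _)).trans hk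
  have hka : 288 * (a + 1) ≤ k := (le_max_right _ _).trans hk
  set ρ : ℝ := max 1 (2 + μ + (k : ℝ) ^ 4 / 18) with hρ
  have hρ1 : 1 ≤ ρ := le_max_left _ _
  have hρ2 : 2 + μ + (k : ℝ) ^ 4 / 18 ≤ ρ := le_max_right _ _
  -- the grid parameter
  have hδ : 0 < ε / 2 := by positivity
  obtain ⟨K, hK⟩ := exists_nat_ge (max (max 6 (48 / τ₀)) (2 * (ρ + 3) / (ε / 2) ^ 2))
  have hK6 : (6 : ℝ) ≤ K := ((le_max_left _ _).trans (le_max_left _ _)).trans hK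
  have hKτ : 48 / τ₀ ≤ K := ((le_max_right _ _).trans (le_max_left _ _)).trans hK
  have hKρ : 2 * (ρ + 3) / (ε / 2) ^ 2 ≤ K := (le_max_right _ _).trans hK
  have hK6' : 6 ≤ K := by exact_mod_cast hK6
  have hK0 : (0 : ℝ) < K := by linarith
  set ℓ : ℝ := (K : ℝ) * R with hℓ
  have hℓ0 : 0 < ℓ := by positivity
  have hvK : (K : ℝ) ≤ ℓ ^ 3 := by
    rw [hℓ]
    have h1 : (K : ℝ) ≤ K * R := by nlinarith
    have h2 : (1 : ℝ) ≤ K * R := by nlinarith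
    calc (K : ℝ) ≤ K * R := h1
      _ = (K * R) ^ 1 := by ring
      _ ≤ (K * R) ^ 3 := pow_le_pow_right₀ h2 (by norm_num)
  have hv1 : 1 ≤ ℓ ^ 3 := by linarith
  have hlog : Real.log (ρ * ℓ ^ 3 + 3) ≤ (ε / 2) * ℓ ^ 3 :=
    log_le_of_large (by linarith) hδ hv1 (hKρ.trans hvK)
  -- the coefficients
  obtain ⟨hα1, hα8, hζ0, hζ1, hατ, hαζ, hθ⟩ := grid_coeffs hR0 hτ₀ hK6 hKτ
  rw [← hℓ] at hα1 hα8 hατ hαζ
  set α : ℝ := (ℓ + R) ^ 3 / ℓ ^ 3 with hα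
  set ζ : ℝ := 3 / ((K : ℝ) - 3) with hζ
  -- the range of the Kac kernel
  obtain ⟨L₁, hL₁⟩ := exists_L_large (ℓ := ℓ) ha hδ₀
  refine ⟨max L₁ 1, le_max_right _ _, fun L hL => ?_⟩
  have hL1 : 1 ≤ L := (le_max_right _ _).trans hL
  have hL0 : 0 < L := by linarith
  obtain ⟨h1, h2⟩ := hL₁ L ((le_max_left _ _).trans hL)
  set r : ℝ := ((L + 4 * ℓ) / L) ^ 6 with hrdef
  have hr1 : 1 ≤ r := by
    rw [hrdef]
    apply one_le_pow₀
    rw [one_le_div hL0]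
    linarith
  have ha'1 : a ≤ a * r := le_mul_of_one_le_right ha.le hr1
  have ha'2 : a * r ≤ 2 * a := by
    rw [mul_comm 2 a]
    exact mul_le_mul_of_nonneg_left h1.le ha.le
  set T := hopfLax a (press g) μ with hT
  have hT0 : 0 ≤ T := hopf_nonneg (press_nonneg hg hr) (press_subquad hg hr) ha μ
  have hpert' := hpert α ζ (a * r) hα1 hα8 hζ0 hζ1 hατ hαζ ha'1 ha'2 h2.le
  have hmain := press_kac_core hg hA hr ha hL1 hK6' μ hk4 hkA hka hρ1 hρ2 (T₁ := T + ε / 2) h1.le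
    (by positivity) (by
      intro γ
      have h3 := hpert' γ
      refine le_trans ?_ h3
      have hc := press_coupling hg hA hr hζ0 hζ1 (μ + γ)
      have e : (fun r => ((K : ℝ) / ((K : ℝ) - 3)) * g r) = (fun r => (1 + ζ) * g r) := by
        rw [hθ]
      rw [e]
      have hα0 : 0 ≤ α := by linarith
      have := mul_le_mul_of_nonneg_left hc hα0
      linarith)
  refine hmain.trans ?_
  have h4 : Real.log (ρ * ℓ ^ 3 + 3) / ℓ ^ 3 ≤ ε / 2 := by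
    rw [div_le_iff₀ (by linarith)]
    exact hlog
  linarith

end Vale.Agent.P171
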