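import Vale.Agent.P171.KacLower
import Vale.Agent.P171.KacUpper

/-!
# P171: the Lebowitz-Penrose limit.
-/

open MeasureTheory Filter Topology Set
open scoped ENNReal BigOperators

namespace Vale.Agent.P171

variable {g : ℝ → ℝ} {A R : ℝ}

lemma tendsto_shift {a : ℝ} :
    Tendsto (fun L : ℝ => a / (2 * ballVol L)) atTop (𝓝 0) := by
  have hB : 0 < ballVol 1 := ballVol_pos one_pos
  have h1 : Tendsto (fun L : ℝ => 2 * (L ^ 3 * ballVol 1)) atTop atTop := by
    refine Tendsto.const_mul_atTop (by norm_num) ?_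
    exact Tendsto.atTop_mul_const hB (tendsto_pow_atTop (by norm_num))
  have h2 : Tendsto (fun L : ℝ => a / (2 * (L ^ 3 * ballVol 1))) atTop (𝓝 0) :=
    tendsto_const_nhds.div_atTop h1
  refine h2.congr' ?_
  filter_upwards [eventually_ge_atTop (0 : ℝ)] with L hL
  rw [ballVol_scale hL]

theorem tendsto_press_kac (hg : IsAttr g A) (hA : 0 ≤ A) (hr : HasRange g R) {a : ℝ} (ha : 0 < a)
    (μ : ℝ) :
    Tendsto (fun L : ℝ => press (fun r => g r + a * kappa L r) μ) atTop
      (𝓝 (hopfLax a (press g) μ)) := by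
  have hcont := hopf_continuous (press_convex hg hr) (press_subquad hg hr) ha
  have hlow : Tendsto (fun L : ℝ => hopfLax a (press g) (μ - a / (2 * ballVol L))) atTop
      (𝓝 (hopfLax a (press g) μ)) := by
    have h1 : Tendsto (fun L : ℝ => μ - a / (2 * ballVol L)) atTop (𝓝 (μ - 0)) :=
      tendsto_const_nhds.sub tendsto_shift
    rw [sub_zero] at h1
    exact (hcont.tendsto μ).comp h1
  refine tendsto_order.2 ⟨fun b hb => ?_, fun b hb => ?_⟩
  · filter_upwards [hlow.eventually (lt_mem_nhds hb), eventually_ge_atTop (1 : ℝ)] with L h1 hL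
    refine lt_of_lt_of_le h1 ?_
    refine hopf_le fun γ => ?_
    have h2 := press_kac_ge hg hr ha hL μ γ
    have e : μ + γ - a / (2 * ballVol L) = μ - a / (2 * ballVol L) + γ := by ring
    rwa [e] at h2
  · obtain ⟨L₀, _, hL₀⟩ := press_kac_le hg hA hr ha μ ((b - hopfLax a (press g) μ) / 2)
      (by linarith)
    filter_upwards [eventually_ge_atTop L₀] with L hL
    have := hL₀ L hL
    linarith

end Vale.Agent.P171
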