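import Vale.Agent.P171.Limit

/-!
# P171: the lower bound in the Lebowitz-Penrose limit.
-/

open MeasureTheory Filter Topology Set
open scoped ENNReal BigOperators

namespace Vale.Agent.P171

variable {g : ℝ → ℝ} {A R : ℝ}

/-- Comparison of the logarithms from a comparison of the grand sums with an explicit factor. -/
lemma logXi_sub_le {g₁ g₂ : ℝ → ℝ} {ν₁ ν₂ V D : ℝ}
    (hne₂ : XiL g₂ ν₂ V ≠ ∞)
    (h : ENNReal.ofReal (Real.exp (-D)) * XiL g₁ ν₁ V ≤ XiL g₂ ν₂ V) :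
    logXi g₁ ν₁ V - D ≤ logXi g₂ ν₂ V := by
  have hne₁ : XiL g₁ ν₁ V ≠ ∞ := by
    intro htop
    rw [htop, ENNReal.mul_top (by simpa using Real.exp_pos (-D))] at h
    exact hne₂ (top_le_iff.mp h)
  have h11 : 1 ≤ XiL g₁ ν₁ V := one_le_XiL g₁ ν₁ V
  have h21 : 1 ≤ XiL g₂ ν₂ V := one_le_XiL g₂ ν₂ V
  have hp1 : 0 < (XiL g₁ ν₁ V).toReal := by
    have : (1 : ℝ≥0∞).toReal ≤ (XiL g₁ ν₁ V).toReal := ENNReal.toReal_mono hne₁ h11
    simp at this
    linarith
  have hp2 : 0 < (XiL g₂ ν₂ V).toReal := by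
    have : (1 : ℝ≥0∞).toReal ≤ (XiL g₂ ν₂ V).toReal := ENNReal.toReal_mono hne₂ h21
    simp at this
    linarith
  have h3 : Real.exp (-D) * (XiL g₁ ν₁ V).toReal ≤ (XiL g₂ ν₂ V).toReal := by
    have := ENNReal.toReal_mono hne₂ h
    rwa [ENNReal.toReal_mul, ENNReal.toReal_ofReal (Real.exp_pos _).le] at this
  unfold logXi
  have h4 := Real.log_le_log (by positivity) h3
  rw [Real.log_mul (Real.exp_pos _).ne' hp1.ne', Real.log_exp] at h4
  linarith

/-- From `(P1)` and AM-GM: pointwise comparison on a cube. -/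
lemma logW_kac_ge {a L : ℝ} (ha : 0 < a) (hL : 0 < L) (μ γ : ℝ) {V : ℝ} (hV : 0 < V) (N : ℕ)
    (x : Fin N → X) (hx : ∀ i, x i ∈ cube V) :
    logW g (μ + γ - a / (2 * ballVol L)) N x - (V + 2 * L) ^ 3 * (γ ^ 2 / (2 * a)) ≤
      logW (fun r => g r + a * kappa L r) μ N x := by
  have hP1 := pairEnergy_kappa_ge hL hV.le x hx
  have hV' : 0 < (V + 2 * L) ^ 3 := by positivity
  set V' : ℝ := (V + 2 * L) ^ 3 with hV'def
  set B : ℝ := ballVol L with hB
  have hB0 : 0 < B := ballVol_pos hL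
  unfold logW
  rw [pairEnergy_add, pairEnergy_const_mul]
  have h1 : a * (((N : ℝ) ^ 2 / V' - N * B⁻¹) / 2) ≤ a * pairEnergy (kappa L) x :=
    mul_le_mul_of_nonneg_left hP1 ha.le
  have h2 : γ * N - V' * (γ ^ 2 / (2 * a)) ≤ a * ((N : ℝ) ^ 2 / V') / 2 := by
    have hsq : 0 ≤ (a * N - V' * γ) ^ 2 / (2 * a * V') := by positivity
    have e : a * ((N : ℝ) ^ 2 / V') / 2 - (γ * N - V' * (γ ^ 2 / (2 * a))) =
        (a * N - V' * γ) ^ 2 / (2 * a * V') := by
      field_simp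
      ring
    linarith
  have e2 : a * (((N : ℝ) ^ 2 / V' - N * B⁻¹) / 2) =
      a * ((N : ℝ) ^ 2 / V') / 2 - a / (2 * B) * N := by
    field_simp
  have e3 : (μ + γ - a / (2 * B)) * N = μ * N + γ * N - a / (2 * B) * N := by ring
  rw [e3]
  linarith

/-- Finite-volume comparison. -/
lemma logXi_kac_ge (hg : Measurable g) {a L : ℝ} (ha : 0 < a) (hL : 0 < L) (μ γ : ℝ) {V : ℝ}
    (hV : 0 < V) (hne : XiL (fun r => g r + a * kappa L r) μ V ≠ ∞) :
    logXi g (μ + γ - a / (2 * ballVol L)) V - (V + 2 * L) ^ 3 * (γ ^ 2 / (2 * a)) ≤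
      logXi (fun r => g r + a * kappa L r) μ V := by
  refine logXi_sub_le hne ?_
  unfold XiL
  rw [← Xi_const_mul (fun N => W_measurable hg _ N)]
  refine Xi_mono_weight (measurableSet_cube V) fun N => ?_
  refine Filter.Eventually.of_forall fun x hx => ?_
  have hcube : ∀ i, x i ∈ cube V := fun i => hx i (mem_univ i)
  have h := logW_kac_ge (g := g) ha hL μ γ hV N x hcube
  unfold W
  rw [← ENNReal.ofReal_mul (Real.exp_pos _).le, ← Real.exp_add]
  refine ENNReal.ofReal_le_ofReal (Real.exp_le_exp.mpr ?_)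
  linarith

/-- From `(P1)` and AM-GM: `e^{(a/2) N²/V'} ≥ e^{γ N - V' γ²/(2a)}`. -/
theorem press_kac_ge (hg : IsAttr g A) (hr : HasRange g R) {a L : ℝ} (ha : 0 < a) (hL : 1 ≤ L)
    (μ γ : ℝ) :
    press g (μ + γ - a / (2 * ballVol L)) - γ ^ 2 / (2 * a) ≤
      press (fun r => g r + a * kappa L r) μ := by
  have hL0 : 0 < L := by linarith
  have hattr : IsAttr (fun r => g r + a * kappa L r) (A + a * 1) :=
    hg.add ((isAttr_kappa hL).const_mul ha.le)
  have hrange : HasRange (fun r => g r + a * kappa L r) (max R (2 * L)) :=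
    hr.add ((hasRange_kappa hL).const_mul a)
  have ht1 := tendsto_press hg hr (μ + γ - a / (2 * ballVol L))
  have ht2 := tendsto_press hattr hrange μ
  have hfac : Tendsto (fun V : ℝ => (1 + 2 * L / V) ^ 3 * (γ ^ 2 / (2 * a))) atTop
      (𝓝 ((1 + 0) ^ 3 * (γ ^ 2 / (2 * a)))) := by
    refine Tendsto.mul_const _ (Tendsto.pow (Tendsto.add tendsto_const_nhds ?_) 3)
    exact tendsto_const_nhds.div_atTop tendsto_id
  have hle : ∀ᶠ V : ℝ in atTop,
      (V ^ 3)⁻¹ * logXi g (μ + γ - a / (2 * ballVol L)) V -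
        (1 + 2 * L / V) ^ 3 * (γ ^ 2 / (2 * a)) ≤
      (V ^ 3)⁻¹ * logXi (fun r => g r + a * kappa L r) μ V := by
    filter_upwards [eventually_gt_atTop (0 : ℝ)] with V hV
    have h1 := logXi_kac_ge hg.meas ha hL0 μ γ hV (XiL_ne_top hattr μ hV)
    have h2 := mul_le_mul_of_nonneg_left h1 (by positivity : 0 ≤ (V ^ 3)⁻¹)
    refine le_trans (le_of_eq ?_) h2
    field_simp
  have h := le_of_tendsto_of_tendsto (ht1.sub hfac) ht2 hle
  have e : press g (μ + γ - a / (2 * ballVol L)) - (1 + 0) ^ 3 * (γ ^ 2 / (2 * a)) =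
      press g (μ + γ - a / (2 * ballVol L)) - γ ^ 2 / (2 * a) := by
    ring
  rwa [e] at h

end Vale.Agent.P171
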