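import Vale.Agent.P171.Energy

/-!
# P171: the Kac window kernel `kappa L`.

`kappa L r = |B_L|^{-2} |B(0,L) ∩ B(r e, L)|`.  For a tuple `x`,
`∑_{i,j} kappa L ‖x i - x j‖ = |B_L|^{-2} ∫ (∑_i 1_{B(x i, L)}(y))^2 dy`.
-/

open MeasureTheory Filter Topology Set
open scoped ENNReal BigOperators

namespace Vale.Agent.P171

/-- Volume of a ball of radius `L`, as a real number. -/
noncomputable def ballVol (L : ℝ) : ℝ := (volume (Metric.ball (0 : X) L)).toReal

lemma finrank_X : Module.finrank ℝ X = 3 := by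
  simp [X]

lemma ball_ne_top (x : X) (L : ℝ) : volume (Metric.ball x L) ≠ ∞ :=
  measure_ball_lt_top.ne

lemma ballVol_pos {L : ℝ} (h : 0 < L) : 0 < ballVol L := by
  unfold ballVol
  exact ENNReal.toReal_pos (Metric.measure_ball_pos volume 0 h).ne' (ball_ne_top 0 L)

lemma ballVol_scale {L : ℝ} (h : 0 ≤ L) : ballVol L = L ^ 3 * ballVol 1 := by
  unfold ballVol
  rw [Measure.addHaar_ball volume (0 : X) h, finrank_X, ENNReal.toReal_mul,
    ENNReal.toReal_ofReal (by positivity)]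

lemma ballVol_translate (x : X) (L : ℝ) : (volume (Metric.ball x L)).toReal = ballVol L := by
  unfold ballVol
  rw [Measure.addHaar_ball_center]

lemma ballVol_nonneg (L : ℝ) : 0 ≤ ballVol L := ENNReal.toReal_nonneg

lemma kappa_nonneg (L r : ℝ) : 0 ≤ kappa L r := by
  unfold kappa
  positivity

lemma kappa_eq_div (L r : ℝ) :
    kappa L r = (volume (Metric.ball (0 : X) L ∩ Metric.ball (r • e0) L)).toReal /
      (ballVol L) ^ 2 := rfl

lemma kappa_le {L : ℝ} (h : 0 < L) (r : ℝ) : kappa L r ≤ (ballVol L)⁻¹ := by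
  rw [kappa_eq_div]
  have hb := ballVol_pos h
  have h1 : (volume (Metric.ball (0 : X) L ∩ Metric.ball (r • e0) L)).toReal ≤ ballVol L :=
    ENNReal.toReal_mono (ball_ne_top 0 L) (measure_mono inter_subset_left)
  rw [div_le_iff₀ (by positivity)]
  calc _ ≤ ballVol L := h1
    _ = (ballVol L)⁻¹ * ballVol L ^ 2 := by field_simp

lemma kappa_self {L : ℝ} (h : 0 < L) : kappa L 0 = (ballVol L)⁻¹ := by
  rw [kappa_eq_div]
  have hb := ballVol_pos h
  rw [zero_smul, inter_self]
  change ballVol L / _ = _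
  field_simp

lemma norm_e0 : ‖e0‖ = 1 := by
  simp [e0]

lemma kappa_eq_zero {L : ℝ} (h : 0 < L) {r : ℝ} (hr : 2 * L ≤ r) : kappa L r = 0 := by
  rw [kappa_eq_div]
  have hr0 : 0 ≤ r := by linarith
  have hd : Disjoint (Metric.ball (0 : X) L) (Metric.ball (r • e0) L) := by
    apply Metric.ball_disjoint_ball
    rw [dist_comm, dist_zero_right, norm_smul, norm_e0, mul_one, Real.norm_eq_abs,
      abs_of_nonneg hr0]
    linarith
  rw [hd.inter_eq]
  simp

lemma kappa_measurable (L : ℝ) : Measurable (kappa L) := by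
  unfold kappa
  refine Measurable.div_const ?_ _
  refine Measurable.ennreal_toReal ?_
  let S : Set (ℝ × X) := {p | p.2 ∈ Metric.ball (0 : X) L ∧ p.2 ∈ Metric.ball (p.1 • e0) L}
  have hS : MeasurableSet S := by
    have h1 : IsOpen S := by
      have c1 : Continuous fun p : ℝ × X => dist p.2 (0 : X) := by fun_prop
      have c2 : Continuous fun p : ℝ × X => dist p.2 (p.1 • e0) := by fun_prop
      exact (isOpen_lt c1 continuous_const).inter (isOpen_lt c2 continuous_const)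
    exact h1.measurableSet
  exact measurable_measure_prodMk_left hS

/-- The kernel at distance `‖x - y‖` is the normalized volume of the intersection of the two balls
(rotation invariance of Lebesgue measure, e.g. via a reflection). -/
lemma kappa_norm {L : ℝ} (_h : 0 < L) (x y : X) :
    kappa L ‖x - y‖ =
      (volume (Metric.ball x L ∩ Metric.ball y L)).toReal / (ballVol L) ^ 2 := by
  rw [kappa_eq_div]
  congr 2
  -- the reflection sending `x - y` to `‖x - y‖ e0`
  set v : X := x - y with hv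
  set w : X := ‖v‖ • e0 with hw
  have hnorm : ‖v‖ = ‖w‖ := by
    rw [hw, norm_smul, norm_e0, mul_one, Real.norm_eq_abs, abs_of_nonneg (norm_nonneg v)]
  let ρ : X ≃ₗᵢ[ℝ] X := (Submodule.span ℝ {v - w})ᗮ.reflection
  have hρ : ρ v = w := Submodule.reflection_sub hnorm
  have hmp : MeasurePreserving ρ volume volume := ρ.measurePreserving
  have hset : ρ ⁻¹' (Metric.ball (0 : X) L ∩ Metric.ball w L) =
      Metric.ball (0 : X) L ∩ Metric.ball v L := by
    ext z
    simp only [mem_preimage, mem_inter_iff, Metric.mem_ball, dist_zero_right]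
    have e1 : ‖ρ z‖ = ‖z‖ := ρ.norm_map z
    have e2 : dist (ρ z) w = dist z v := by
      rw [← hρ]; exact ρ.dist_map z v
    rw [e1, e2]
  have hm : MeasurableSet (Metric.ball (0 : X) L ∩ Metric.ball w L) :=
    Metric.isOpen_ball.measurableSet.inter Metric.isOpen_ball.measurableSet
  have h1 : volume (Metric.ball (0 : X) L ∩ Metric.ball w L) =
      volume (Metric.ball (0 : X) L ∩ Metric.ball v L) := by
    rw [← hset]
    exact (hmp.measure_preimage hm.nullMeasurableSet).symm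
  rw [h1]
  -- translation by `y`
  have hset2 : (fun z : X => z + (-y)) ⁻¹' (Metric.ball (0 : X) L ∩ Metric.ball v L) =
      Metric.ball x L ∩ Metric.ball y L := by
    ext z
    simp only [mem_preimage, mem_inter_iff, Metric.mem_ball, dist_eq_norm, hv]
    have e1 : z + -y - (x - y) = z - x := by abel
    have e2 : ‖z + -y - 0‖ = ‖z - y‖ := by rw [sub_zero, sub_eq_add_neg]
    rw [e1, e2]
    exact and_comm
  rw [← hset2, measure_preimage_add_right]

/-! ### Indicators of balls -/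

/-- The indicator function of a measurable set, real valued. -/
noncomputable def sInd (A : Set X) (y : X) : ℝ := A.indicator (fun _ => (1 : ℝ)) y

lemma sInd_nonneg (A : Set X) (y : X) : 0 ≤ sInd A y := by
  unfold sInd
  exact indicator_nonneg (fun _ _ => zero_le_one) y

lemma sInd_of_mem {A : Set X} {y : X} (h : y ∈ A) : sInd A y = 1 := by
  simp [sInd, h]

lemma sInd_of_not_mem {A : Set X} {y : X} (h : y ∉ A) : sInd A y = 0 := by
  simp [sInd, h]

lemma sInd_mul (A B : Set X) (y : X) : sInd A y * sInd B y = sInd (A ∩ B) y := by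
  by_cases hA : y ∈ A <;> by_cases hB : y ∈ B <;>
    simp [sInd, hA, hB]

lemma sInd_integrable {A : Set X} (hA : MeasurableSet A) (hf : volume A ≠ ∞) :
    Integrable (sInd A) := by
  unfold sInd
  exact (integrable_indicator_iff hA).2 (integrableOn_const hf)

lemma sInd_integral {A : Set X} (hA : MeasurableSet A) :
    ∫ y, sInd A y = (volume A).toReal := by
  unfold sInd
  rw [integral_indicator_const _ hA]
  simp [Measure.real]

/-- The sum of the indicators of the balls of radius `L` around the points of the tuple. -/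
noncomputable def ballSum (L : ℝ) {N : ℕ} (x : Fin N → X) (y : X) : ℝ :=
  ∑ i, sInd (Metric.ball (x i) L) y

lemma ball_meas (c : X) (L : ℝ) : MeasurableSet (Metric.ball c L) :=
  Metric.isOpen_ball.measurableSet

lemma ballSum_integrable (L : ℝ) {N : ℕ} (x : Fin N → X) : Integrable (ballSum L x) := by
  unfold ballSum
  exact integrable_finsetSum _ fun i _ => sInd_integrable (ball_meas _ _) (ball_ne_top _ _)

lemma ballSum_integral (L : ℝ) {N : ℕ} (x : Fin N → X) :
    ∫ y, ballSum L x y = N * ballVol L := by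
  unfold ballSum
  rw [integral_finsetSum _ fun i _ => sInd_integrable (ball_meas _ _) (ball_ne_top _ _)]
  simp only [sInd_integral (ball_meas _ _), ballVol_translate]
  simp

lemma ballSum_sq (L : ℝ) {N : ℕ} (x : Fin N → X) (y : X) :
    ballSum L x y ^ 2 = ∑ i, ∑ j, sInd (Metric.ball (x i) L ∩ Metric.ball (x j) L) y := by
  unfold ballSum
  rw [sq, Finset.sum_mul_sum]
  simp only [sInd_mul]

lemma inter_ne_top (c c' : X) (L : ℝ) :
    volume (Metric.ball c L ∩ Metric.ball c' L) ≠ ∞ :=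
  ne_top_of_le_ne_top (ball_ne_top c L) (measure_mono inter_subset_left)

lemma ballSum_sq_integrable (L : ℝ) {N : ℕ} (x : Fin N → X) :
    Integrable (fun y => ballSum L x y ^ 2) := by
  simp only [ballSum_sq]
  refine integrable_finsetSum _ fun i _ => integrable_finsetSum _ fun j _ => ?_
  exact sInd_integrable ((ball_meas _ _).inter (ball_meas _ _)) (inter_ne_top _ _ _)

/-- The total overlap of the balls around the points of the tuple. -/
noncomputable def overlap (L : ℝ) {N : ℕ} (x : Fin N → X) : ℝ :=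
  ∑ i, ∑ j, (volume (Metric.ball (x i) L ∩ Metric.ball (x j) L)).toReal

lemma ballSum_sq_integral (L : ℝ) {N : ℕ} (x : Fin N → X) :
    ∫ y, ballSum L x y ^ 2 = overlap L x := by
  simp only [ballSum_sq]
  unfold overlap
  rw [integral_finsetSum _ fun i _ => integrable_finsetSum _ fun j _ =>
    sInd_integrable ((ball_meas _ _).inter (ball_meas _ _)) (inter_ne_top _ _ _)]
  refine Finset.sum_congr rfl fun i _ => ?_
  rw [integral_finsetSum _ fun j _ =>
    sInd_integrable ((ball_meas _ _).inter (ball_meas _ _)) (inter_ne_top _ _ _)]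
  refine Finset.sum_congr rfl fun j _ => ?_
  exact sInd_integral ((ball_meas _ _).inter (ball_meas _ _))

/-- The pair energy in terms of the overlap. -/
lemma pairEnergy_kappa_eq {L : ℝ} (h : 0 < L) {N : ℕ} (x : Fin N → X) :
    pairEnergy (kappa L) x =
      (overlap L x / (ballVol L) ^ 2 - N * (ballVol L)⁻¹) / 2 := by
  rw [pairEnergy_eq_pairK, pairK_eq_half _ (fun a b => by simp only [norm_sub_rev])]
  have h1 : ∑ i : Fin N, ∑ j : Fin N, (if i = j then 0 else kappa L ‖x i - x j‖) =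
      ∑ i : Fin N, (∑ j : Fin N, kappa L ‖x i - x j‖ - (ballVol L)⁻¹) := by
    refine Finset.sum_congr rfl fun i _ => ?_
    have h2 : ∑ j : Fin N, kappa L ‖x i - x j‖ =
        ∑ j : Fin N, (if i = j then 0 else kappa L ‖x i - x j‖) +
        ∑ j : Fin N, (if i = j then kappa L ‖x i - x j‖ else 0) := by
      rw [← Finset.sum_add_distrib]
      refine Finset.sum_congr rfl fun j _ => ?_
      split_ifs <;> simp
    have h3 : ∑ j : Fin N, (if i = j then kappa L ‖x i - x j‖ else 0) = (ballVol L)⁻¹ := by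
      rw [Finset.sum_ite_eq]
      simp [kappa_self h]
    rw [h2, h3]
    ring
  rw [h1, Finset.sum_sub_distrib]
  have h4 : ∑ i : Fin N, ∑ j : Fin N, kappa L ‖x i - x j‖ = overlap L x / (ballVol L) ^ 2 := by
    unfold overlap
    rw [Finset.sum_div]
    refine Finset.sum_congr rfl fun i _ => ?_
    rw [Finset.sum_div]
    refine Finset.sum_congr rfl fun j _ => ?_
    exact kappa_norm h _ _
  rw [h4]
  simp
  ring

/-- The volume of a coordinate box. -/
lemma volume_box (a b : Fin 3 → ℝ) :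
    volume {y : X | ∀ c, a c ≤ y c ∧ y c ≤ b c} = ∏ c, ENNReal.ofReal (b c - a c) := by
  have hmp := PiLp.volume_preserving_ofLp (Fin 3)
  have hS : {y : X | ∀ c, a c ≤ y c ∧ y c ≤ b c} = WithLp.ofLp ⁻¹' (Icc a b) := by
    ext y
    simp [Pi.le_def, forall_and]
  rw [hS, hmp.measure_preimage measurableSet_Icc.nullMeasurableSet, Real.volume_Icc_pi]

lemma volume_box_ico (a b : Fin 3 → ℝ) :
    volume {y : X | ∀ c, a c ≤ y c ∧ y c < b c} = ∏ c, ENNReal.ofReal (b c - a c) := by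
  have hmp := PiLp.volume_preserving_ofLp (Fin 3)
  have hm : MeasurableSet (Set.pi Set.univ fun c => Ico (a c) (b c)) :=
    MeasurableSet.univ_pi fun c => measurableSet_Ico
  have hS : {y : X | ∀ c, a c ≤ y c ∧ y c < b c} =
      WithLp.ofLp ⁻¹' (Set.pi Set.univ fun c => Ico (a c) (b c)) := by
    ext y
    simp [Set.mem_pi]
  rw [hS, hmp.measure_preimage hm.nullMeasurableSet, Real.volume_pi_Ico]

lemma abs_coord_le_norm (z : X) (c : Fin 3) : |z c| ≤ ‖z‖ := by
  have := PiLp.norm_apply_le z c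
  simpa using this

/-- Lower bound (P1): positive definiteness and Cauchy-Schwarz over the enlarged cube. -/
theorem pairEnergy_kappa_ge {L LV : ℝ} (hL : 0 < L) (hLV : 0 ≤ LV) {N : ℕ} (x : Fin N → X)
    (hx : ∀ i, x i ∈ cube LV) :
    ((N : ℝ) ^ 2 / (LV + 2 * L) ^ 3 - N * (ballVol L)⁻¹) / 2 ≤ pairEnergy (kappa L) x := by
  rw [pairEnergy_kappa_eq hL]
  have hb := ballVol_pos hL
  set m : ℝ := (LV + 2 * L) ^ 3 with hm
  have hmpos : 0 < m := by positivity
  -- the enlarged cube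
  let C : Set X := {y : X | ∀ c, (fun _ => -L) c ≤ y c ∧ y c ≤ (fun _ : Fin 3 => LV + L) c}
  have hCvol : volume C = ENNReal.ofReal m := by
    have := volume_box (fun _ => -L) (fun _ => LV + L)
    change volume C = _ at this
    rw [this]
    simp only [Fin.prod_univ_three]
    have hp : 0 ≤ LV + L - -L := by linarith
    rw [← ENNReal.ofReal_mul hp, ← ENNReal.ofReal_mul (mul_nonneg hp hp)]
    congr 1
    rw [hm]
    ring
  have hCm : MeasurableSet C := by
    have h1 : IsClosed C := by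
      have : C = ⋂ c : Fin 3, ({y : X | -L ≤ y c} ∩ {y : X | y c ≤ LV + L}) := by
        ext y; simp [C, forall_and]
      rw [this]
      refine isClosed_iInter fun c => ?_
      have hc : Continuous fun y : X => y c := by fun_prop
      exact (isClosed_le continuous_const hc).inter (isClosed_le hc continuous_const)
    exact h1.measurableSet
  have hCf : volume C ≠ ∞ := by rw [hCvol]; exact ENNReal.ofReal_ne_top
  have hsupp : ∀ y, y ∉ C → ballSum L x y = 0 := by
    intro y hy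
    unfold ballSum
    refine Finset.sum_eq_zero fun i _ => sInd_of_not_mem ?_
    intro hball
    apply hy
    intro c
    have h1 := hx i c
    have h2 : |(y - x i) c| ≤ ‖y - x i‖ := abs_coord_le_norm _ _
    have h3 : ‖y - x i‖ < L := by simpa [dist_eq_norm] using hball
    have h4 : (y - x i) c = y c - x i c := by simp
    rw [h4, abs_le] at h2
    constructor
    · show -L ≤ y c
      linarith [h2.1, h1.1]
    · show y c ≤ LV + L
      linarith [h2.2, h1.2]
  -- the nonnegative function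
  set t : ℝ := (N : ℝ) * ballVol L / m with ht
  have hG : 0 ≤ ∫ y, (ballSum L x y ^ 2 - 2 * t * ballSum L x y + t ^ 2 * sInd C y) := by
    refine integral_nonneg fun y => ?_
    by_cases hy : y ∈ C
    · have : sInd C y = 1 := sInd_of_mem hy
      show 0 ≤ ballSum L x y ^ 2 - 2 * t * ballSum L x y + t ^ 2 * sInd C y
      rw [this]
      nlinarith [sq_nonneg (ballSum L x y - t)]
    · show 0 ≤ ballSum L x y ^ 2 - 2 * t * ballSum L x y + t ^ 2 * sInd C y
      rw [sInd_of_not_mem hy, hsupp y hy]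
      simp
  have hI1 := ballSum_integrable L x
  have hI2 := ballSum_sq_integrable L x
  have hI3 := sInd_integrable hCm hCf
  have hval : ∫ y, (ballSum L x y ^ 2 - 2 * t * ballSum L x y + t ^ 2 * sInd C y) =
      overlap L x - 2 * t * (N * ballVol L) + t ^ 2 * m := by
    have e1 := integral_add (f := fun y => ballSum L x y ^ 2 - 2 * t * ballSum L x y)
      (g := fun y => t ^ 2 * sInd C y) (hI2.sub (hI1.const_mul _)) (hI3.const_mul _)
    have e2 := integral_sub (f := fun y => ballSum L x y ^ 2)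
      (g := fun y => 2 * t * ballSum L x y) hI2 (hI1.const_mul _)
    rw [e1, e2, integral_const_mul, integral_const_mul,
      ballSum_sq_integral, ballSum_integral, sInd_integral hCm, hCvol,
      ENNReal.toReal_ofReal hmpos.le]
  rw [hval] at hG
  have hO : (N : ℝ) ^ 2 * (ballVol L) ^ 2 / m ≤ overlap L x := by
    have e : 2 * t * (N * ballVol L) - t ^ 2 * m = (N : ℝ) ^ 2 * (ballVol L) ^ 2 / m := by
      rw [ht]; field_simp; ring
    linarith
  have hfinal : (N : ℝ) ^ 2 / m ≤ overlap L x / (ballVol L) ^ 2 := by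
    rw [le_div_iff₀ (by positivity)]
    calc (N : ℝ) ^ 2 / m * (ballVol L) ^ 2 = (N : ℝ) ^ 2 * (ballVol L) ^ 2 / m := by ring
      _ ≤ _ := hO
  linarith


/-! ### The upper bound -/

/-- A block of the grid. -/
def kBlk (ℓ s : ℝ) (b : Fin 3 → ℤ) : Set X := {y : X | gridIdx ℓ s y = b}

/-- The corner of a block of the grid. -/
noncomputable def kCorner (ℓ s : ℝ) (b : Fin 3 → ℤ) : X :=
  (WithLp.toLp 2 (fun c => s + ℓ * (b c : ℝ)) : X)

lemma mem_kBlk_iff {ℓ : ℝ} (hℓ : 0 < ℓ) (s : ℝ) (b : Fin 3 → ℤ) (y : X) :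
    y ∈ kBlk ℓ s b ↔ ∀ c, s + ℓ * (b c : ℝ) ≤ y c ∧ y c < s + ℓ * (b c : ℝ) + ℓ := by
  unfold kBlk gridIdx
  simp only [mem_ofPred_eq, funext_iff]
  refine forall_congr' fun c => ?_
  rw [Int.floor_eq_iff, le_div_iff₀ hℓ, div_lt_iff₀ hℓ]
  constructor
  · rintro ⟨h1, h2⟩
    constructor <;> nlinarith
  · rintro ⟨h1, h2⟩
    constructor <;> nlinarith

lemma kBlk_measurable {ℓ : ℝ} (hℓ : 0 < ℓ) (s : ℝ) (b : Fin 3 → ℤ) :
    MeasurableSet (kBlk ℓ s b) := by
  have : kBlk ℓ s b = ⋂ c : Fin 3, ({y : X | s + ℓ * (b c : ℝ) ≤ y c} ∩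
      {y : X | y c < s + ℓ * (b c : ℝ) + ℓ}) := by
    ext y
    rw [mem_kBlk_iff hℓ]
    simp [forall_and]
  rw [this]
  refine MeasurableSet.iInter fun c => ?_
  have hc : Continuous fun y : X => y c := by fun_prop
  exact (isClosed_le continuous_const hc).measurableSet.inter
    (isOpen_lt hc continuous_const).measurableSet

lemma kBlk_volume {ℓ : ℝ} (hℓ : 0 < ℓ) (s : ℝ) (b : Fin 3 → ℤ) :
    volume (kBlk ℓ s b) = ENNReal.ofReal (ℓ ^ 3) := by
  have h1 : kBlk ℓ s b = {y : X | ∀ c, (fun c => s + ℓ * (b c : ℝ)) c ≤ y c ∧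
      y c < (fun c => s + ℓ * (b c : ℝ) + ℓ) c} := by
    ext y
    rw [mem_kBlk_iff hℓ]
    rfl
  rw [h1, volume_box_ico]
  simp only [add_sub_cancel_left]
  simp only [Fin.prod_univ_three]
  rw [← ENNReal.ofReal_mul hℓ.le, ← ENNReal.ofReal_mul (by positivity)]
  congr 1
  ring

lemma norm_sub_kCorner_le {ℓ : ℝ} (hℓ : 0 < ℓ) (s : ℝ) {b : Fin 3 → ℤ} {y : X}
    (hy : y ∈ kBlk ℓ s b) : ‖y - kCorner ℓ s b‖ ≤ 2 * ℓ := by
  rw [mem_kBlk_iff hℓ] at hy
  rw [EuclideanSpace.norm_eq, Real.sqrt_le_iff]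
  refine ⟨by positivity, ?_⟩
  have h : ∀ c, ‖(y - kCorner ℓ s b) c‖ ^ 2 ≤ ℓ ^ 2 := by
    intro c
    have h1 := hy c
    have e : (y - kCorner ℓ s b) c = y c - (s + ℓ * (b c : ℝ)) := by
      simp [kCorner]
    rw [e, Real.norm_eq_abs, sq_abs]
    nlinarith [h1.1, h1.2]
  calc ∑ c, ‖(y - kCorner ℓ s b) c‖ ^ 2 ≤ ∑ _c : Fin 3, ℓ ^ 2 := Finset.sum_le_sum fun c _ => h c
    _ = 3 * ℓ ^ 2 := by simp
    _ ≤ (2 * ℓ) ^ 2 := by nlinarith [sq_nonneg ℓ]

lemma mem_kBlk_gridIdx (ℓ s : ℝ) (y : X) : y ∈ kBlk ℓ s (gridIdx ℓ s y) := rfl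

lemma kBlk_disjoint (ℓ s : ℝ) {b b' : Fin 3 → ℤ} (h : b ≠ b') :
    Disjoint (kBlk ℓ s b) (kBlk ℓ s b') := by
  rw [Set.disjoint_left]
  intro y hy hy'
  exact h (hy.symm.trans hy')

/-- At a given point, few enlarged balls around the corners of blocks are met. -/
lemma card_mul_le {L ℓ : ℝ} (hℓ : 0 < ℓ) (s : ℝ) (T : Finset (Fin 3 → ℤ)) (y : X)
    (hT : ∀ β ∈ T, y ∈ Metric.ball (kCorner ℓ s β) (L + 2 * ℓ)) :
    (T.card : ℝ) * ℓ ^ 3 ≤ ballVol (L + 4 * ℓ) := by
  classical
  have h1 : volume (⋃ β ∈ T, kBlk ℓ s β) = ∑ β ∈ T, volume (kBlk ℓ s β) :=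
    measure_biUnion_finset (fun β _ β' _ hne => kBlk_disjoint ℓ s hne)
      (fun β _ => kBlk_measurable hℓ s β)
  have h2 : (⋃ β ∈ T, kBlk ℓ s β) ⊆ Metric.ball y (L + 4 * ℓ) := by
    intro z hz
    simp only [mem_iUnion, exists_prop] at hz
    obtain ⟨β, hβ, hz⟩ := hz
    have h3 : y ∈ Metric.ball (kCorner ℓ s β) (L + 2 * ℓ) := hT β hβ
    have h4 := norm_sub_kCorner_le hℓ s hz
    rw [Metric.mem_ball, dist_eq_norm] at h3 ⊢
    have h5 : ‖z - y‖ ≤ ‖z - kCorner ℓ s β‖ + ‖y - kCorner ℓ s β‖ := by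
      have := norm_sub_le_norm_sub_add_norm_sub z (kCorner ℓ s β) y
      rw [norm_sub_rev (kCorner ℓ s β) y] at this
      exact this
    linarith
  have h6 : ∑ β ∈ T, volume (kBlk ℓ s β) = (T.card : ℝ≥0∞) * ENNReal.ofReal (ℓ ^ 3) := by
    rw [Finset.sum_congr rfl fun β _ => kBlk_volume hℓ s β]
    simp
  have h7 : (T.card : ℝ≥0∞) * ENNReal.ofReal (ℓ ^ 3) ≤ volume (Metric.ball y (L + 4 * ℓ)) := by
    rw [← h6, ← h1]
    exact measure_mono h2
  have h8 := ENNReal.toReal_mono (ball_ne_top y (L + 4 * ℓ)) h7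
  rw [ballVol_translate, ENNReal.toReal_mul, ENNReal.toReal_ofReal (by positivity)] at h8
  simpa using h8

/-- Upper bound (P2): for any grid of blocks of side `ℓ` and shift `s`. -/
theorem pairEnergy_kappa_le {L ℓ : ℝ} (hL : 0 < L) (hℓ : 0 < ℓ) (s : ℝ) {N : ℕ} (x : Fin N → X) :
    pairEnergy (kappa L) x ≤ ((L + 4 * ℓ) / L) ^ 6 * ((sameCount ℓ s x : ℝ) / (2 * ℓ ^ 3)) := by
  classical
  set b : Fin N → (Fin 3 → ℤ) := fun i => gridIdx ℓ s (x i) with hb
  set D : Finset (Fin 3 → ℤ) := Finset.univ.image b with hD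
  set n : (Fin 3 → ℤ) → ℕ := fun β => (Finset.univ.filter (fun i => b i = β)).card with hn
  set Bt : (Fin 3 → ℤ) → Set X := fun β => Metric.ball (kCorner ℓ s β) (L + 2 * ℓ) with hBt
  set E : X → ℝ := fun y => ∑ β ∈ D, (n β : ℝ) * sInd (Bt β) y with hE
  set E2 : X → ℝ := fun y => ∑ β ∈ D, ((n β : ℝ) ^ 2) * sInd (Bt β) y with hE2
  have hV4 : 0 < ballVol (L + 4 * ℓ) := ballVol_pos (by positivity)
  have hℓ3 : 0 < ℓ ^ 3 := by positivity
  -- pointwise domination of the sum of indicators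
  have hle : ∀ y, ballSum L x y ≤ E y := by
    intro y
    have h1 : ballSum L x y ≤ ∑ i, sInd (Bt (b i)) y := by
      unfold ballSum
      refine Finset.sum_le_sum fun i _ => ?_
      by_cases hy : y ∈ Metric.ball (x i) L
      · rw [sInd_of_mem hy, sInd_of_mem]
        have h2 := norm_sub_kCorner_le hℓ s (mem_kBlk_gridIdx ℓ s (x i))
        show y ∈ Metric.ball (kCorner ℓ s (gridIdx ℓ s (x i))) (L + 2 * ℓ)
        rw [Metric.mem_ball, dist_eq_norm] at hy ⊢
        have h3 : ‖y - kCorner ℓ s (gridIdx ℓ s (x i))‖ ≤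
            ‖y - x i‖ + ‖x i - kCorner ℓ s (gridIdx ℓ s (x i))‖ :=
          norm_sub_le_norm_sub_add_norm_sub _ _ _
        linarith
      · rw [sInd_of_not_mem hy]
        exact sInd_nonneg _ _
    have h4 : ∑ i, sInd (Bt (b i)) y = E y := by
      have h5 := Finset.sum_comp (s := (Finset.univ : Finset (Fin N)))
        (fun β => sInd (Bt β) y) b
      simp only [nsmul_eq_mul] at h5
      exact h5
    rw [← h4]
    exact h1
  -- Cauchy-Schwarz and the packing bound at a point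
  have hsq : ∀ y, E y ^ 2 ≤ (ballVol (L + 4 * ℓ) / ℓ ^ 3) * E2 y := by
    intro y
    set T := D.filter (fun β => y ∈ Bt β) with hT
    have e1 : E y = ∑ β ∈ T, (n β : ℝ) := by
      rw [hE, hT, Finset.sum_filter]
      refine Finset.sum_congr rfl fun β _ => ?_
      by_cases hy : y ∈ Bt β
      · rw [sInd_of_mem hy, if_pos hy, mul_one]
      · rw [sInd_of_not_mem hy, if_neg hy, mul_zero]
    have e2 : E2 y = ∑ β ∈ T, (n β : ℝ) ^ 2 := by
      rw [hE2, hT, Finset.sum_filter]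
      refine Finset.sum_congr rfl fun β _ => ?_
      by_cases hy : y ∈ Bt β
      · rw [sInd_of_mem hy, if_pos hy, mul_one]
      · rw [sInd_of_not_mem hy, if_neg hy, mul_zero]
    have h5 : (∑ β ∈ T, (n β : ℝ)) ^ 2 ≤ (T.card : ℝ) * ∑ β ∈ T, (n β : ℝ) ^ 2 :=
      sq_sum_le_card_mul_sum_sq
    have h6 : (T.card : ℝ) ≤ ballVol (L + 4 * ℓ) / ℓ ^ 3 := by
      rw [le_div_iff₀ hℓ3]
      exact card_mul_le hℓ s T y fun β hβ => (Finset.mem_filter.1 hβ).2
    rw [e1, e2]
    refine h5.trans ?_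
    exact mul_le_mul_of_nonneg_right h6 (Finset.sum_nonneg fun _ _ => by positivity)
  have hBall : ∀ β, MeasurableSet (Bt β) := fun β => ball_meas _ _
  have hBallf : ∀ β, volume (Bt β) ≠ ∞ := fun β => ball_ne_top _ _
  have hE2int : Integrable E2 := by
    rw [hE2]
    exact integrable_finsetSum _ fun β _ => (sInd_integrable (hBall β) (hBallf β)).const_mul _
  have hE2val : ∫ y, E2 y = (∑ β ∈ D, (n β : ℝ) ^ 2) * ballVol (L + 2 * ℓ) := by
    rw [hE2, integral_finsetSum _ fun β _ => (sInd_integrable (hBall β) (hBallf β)).const_mul _,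
      Finset.sum_mul]
    refine Finset.sum_congr rfl fun β _ => ?_
    rw [integral_const_mul, sInd_integral (hBall β), hBt]
    simp only
    rw [ballVol_translate]
  -- sameCount
  have hsame : (sameCount ℓ s x : ℝ) = ∑ β ∈ D, (n β : ℝ) ^ 2 := by
    have h7 : sameCount ℓ s x = ∑ β ∈ D, n β ^ 2 := by
      unfold sameCount
      rw [Finset.card_eq_sum_card_fiberwise (f := fun p : Fin N × Fin N => b p.1) (t := D)
        (fun p _ => Finset.mem_coe.2 (Finset.mem_image_of_mem b (Finset.mem_univ p.1)))]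
      refine Finset.sum_congr rfl fun β _ => ?_
      have h8 : ((Finset.univ : Finset (Fin N × Fin N)).filter
          (fun p => gridIdx ℓ s (x p.1) = gridIdx ℓ s (x p.2))).filter (fun p => b p.1 = β) =
          (Finset.univ.filter (fun i => b i = β)) ×ˢ (Finset.univ.filter (fun i => b i = β)) := by
        ext p
        simp only [Finset.mem_filter, Finset.mem_univ, true_and, Finset.mem_product, hb]
        constructor
        · rintro ⟨h1, h2⟩
          exact ⟨h2, h1 ▸ h2⟩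
        · rintro ⟨h1, h2⟩
          exact ⟨h1.trans h2.symm, h1⟩
      rw [h8, Finset.card_product, hn, sq]
    rw [h7]
    push_cast
    rfl
  -- the integral inequality
  have hover : overlap L x ≤ (ballVol (L + 4 * ℓ) / ℓ ^ 3) *
      ((sameCount ℓ s x : ℝ) * ballVol (L + 2 * ℓ)) := by
    rw [← ballSum_sq_integral, hsame, ← hE2val, ← integral_const_mul]
    refine integral_mono (ballSum_sq_integrable L x) (hE2int.const_mul _) fun y => ?_
    have h9 : 0 ≤ ballSum L x y :=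
      Finset.sum_nonneg fun i _ => sInd_nonneg _ _
    calc ballSum L x y ^ 2 ≤ E y ^ 2 := pow_le_pow_left₀ h9 (hle y) 2
      _ ≤ _ := hsq y
  -- conclusion
  rw [pairEnergy_kappa_eq hL]
  have hv := ballVol_pos (L := 1) one_pos
  have hB0 := ballVol_scale (L := L) hL.le
  have hB2 := ballVol_scale (L := L + 2 * ℓ) (by positivity)
  have hB4 := ballVol_scale (L := L + 4 * ℓ) (by positivity)
  have hbL := ballVol_pos hL
  have hinv : 0 ≤ (N : ℝ) * (ballVol L)⁻¹ := by positivity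
  set S : ℝ := (sameCount ℓ s x : ℝ) with hS
  have hS0 : 0 ≤ S := Nat.cast_nonneg _
  have h10 : overlap L x / (ballVol L) ^ 2 ≤ ((L + 4 * ℓ) / L) ^ 6 * (S / ℓ ^ 3) := by
    rw [div_le_iff₀ (by positivity)]
    have h11 : (L + 2 * ℓ) ^ 3 ≤ (L + 4 * ℓ) ^ 3 :=
      pow_le_pow_left₀ (by positivity) (by linarith) 3
    calc overlap L x ≤ ballVol (L + 4 * ℓ) / ℓ ^ 3 * (S * ballVol (L + 2 * ℓ)) := hover
      _ = (ballVol 1) ^ 2 * ((L + 4 * ℓ) ^ 3 * (L + 2 * ℓ) ^ 3 * S / ℓ ^ 3) := by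
          rw [hB4, hB2]
          field_simp
      _ ≤ (ballVol 1) ^ 2 * ((L + 4 * ℓ) ^ 6 * S / ℓ ^ 3) := by
          refine mul_le_mul_of_nonneg_left ?_ (by positivity)
          refine div_le_div_of_nonneg_right ?_ hℓ3.le
          refine mul_le_mul_of_nonneg_right ?_ hS0
          calc (L + 4 * ℓ) ^ 3 * (L + 2 * ℓ) ^ 3 ≤ (L + 4 * ℓ) ^ 3 * (L + 4 * ℓ) ^ 3 :=
                mul_le_mul_of_nonneg_left h11 (by positivity)
            _ = (L + 4 * ℓ) ^ 6 := by ring
      _ = ((L + 4 * ℓ) / L) ^ 6 * (S / ℓ ^ 3) * (ballVol L) ^ 2 := by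
          rw [hB0]
          field_simp
  have e4 : ((L + 4 * ℓ) / L) ^ 6 * (S / (2 * ℓ ^ 3)) =
      ((L + 4 * ℓ) / L) ^ 6 * (S / ℓ ^ 3) / 2 := by
    field_simp
  rw [e4]
  linarith

/-- `(1+4/(kL))^6/2 ≤ 32` for `k ≥ 4`, `L ≥ 1`. -/
theorem isAttr_kappa {L : ℝ} (hL : 1 ≤ L) : IsAttr (kappa L) 1 := by
  have hL0 : 0 < L := by linarith
  refine ⟨kappa_nonneg L, kappa_measurable L, fun k hk N x => ?_⟩
  have hk0 : (0 : ℝ) < k := by
    have : 0 < k := by omega
    exact_mod_cast this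
  have hk4 : (4 : ℝ) ≤ k := by exact_mod_cast hk
  have hℓ : 0 < 1 / (k : ℝ) := by positivity
  have h := pairEnergy_kappa_le hL0 hℓ 0 x
  refine h.trans ?_
  set S : ℝ := (sameCount (1 / (k : ℝ)) 0 x : ℝ) with hS
  have hS0 : 0 ≤ S := Nat.cast_nonneg _
  have h1 : (L + 4 * (1 / (k : ℝ))) / L ≤ 2 := by
    rw [div_le_iff₀ hL0]
    have : 4 * (1 / (k : ℝ)) ≤ 1 := by
      rw [mul_one_div, div_le_one hk0]
      exact hk4
    linarith
  have h2 : 0 ≤ (L + 4 * (1 / (k : ℝ))) / L := by positivity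
  have h3 : ((L + 4 * (1 / (k : ℝ))) / L) ^ 6 ≤ 2 ^ 6 := pow_le_pow_left₀ h2 h1 6
  have e : S / (2 * (1 / (k : ℝ)) ^ 3) = (k : ℝ) ^ 3 * S / 2 := by
    field_simp
  rw [e]
  have h4 : 0 ≤ (k : ℝ) ^ 3 * S / 2 := by positivity
  calc ((L + 4 * (1 / (k : ℝ))) / L) ^ 6 * ((k : ℝ) ^ 3 * S / 2)
      ≤ 2 ^ 6 * ((k : ℝ) ^ 3 * S / 2) := mul_le_mul_of_nonneg_right h3 h4
    _ = 32 * 1 * (k : ℝ) ^ 3 * S := by ring

lemma IsAttr.add {g h : ℝ → ℝ} {A B : ℝ} (hg : IsAttr g A) (hh : IsAttr h B) :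
    IsAttr (fun r => g r + h r) (A + B) := by
  refine ⟨fun r => add_nonneg (hg.nonneg r) (hh.nonneg r), hg.meas.add hh.meas,
    fun k hk N x => ?_⟩
  rw [pairEnergy_add]
  have h1 := hg.mass k hk N x
  have h2 := hh.mass k hk N x
  calc _ ≤ _ := add_le_add h1 h2
    _ = _ := by ring

lemma IsAttr.const_mul {g : ℝ → ℝ} {A c : ℝ} (hg : IsAttr g A) (hc : 0 ≤ c) :
    IsAttr (fun r => c * g r) (c * A) := by
  refine ⟨fun r => mul_nonneg hc (hg.nonneg r), hg.meas.const_mul c, fun k hk N x => ?_⟩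
  rw [pairEnergy_const_mul]
  have h1 := hg.mass k hk N x
  calc _ ≤ _ := mul_le_mul_of_nonneg_left h1 hc
    _ = _ := by ring

lemma IsAttr.mono {g : ℝ → ℝ} {A B : ℝ} (hg : IsAttr g A) (hAB : A ≤ B) : IsAttr g B := by
  refine ⟨hg.nonneg, hg.meas, fun k hk N x => (hg.mass k hk N x).trans ?_⟩
  have h0 : 0 ≤ (k : ℝ) ^ 3 * (sameCount (1 / (k : ℝ)) 0 x : ℝ) := by positivity
  calc 32 * A * (k : ℝ) ^ 3 * (sameCount (1 / (k : ℝ)) 0 x : ℝ)
      = 32 * A * ((k : ℝ) ^ 3 * (sameCount (1 / (k : ℝ)) 0 x : ℝ)) := by ring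
    _ ≤ 32 * B * ((k : ℝ) ^ 3 * (sameCount (1 / (k : ℝ)) 0 x : ℝ)) :=
        mul_le_mul_of_nonneg_right (by linarith) h0
    _ = _ := by ring

lemma isAttr_zero : IsAttr (fun _ => 0) 0 := by
  refine ⟨fun _ => le_rfl, measurable_const, fun k hk N x => ?_⟩
  have : pairEnergy (fun _ => (0 : ℝ)) x = 0 := by
    unfold pairEnergy
    simp
  rw [this]
  simp

lemma HasRange.add {g h : ℝ → ℝ} {R S : ℝ} (hg : HasRange g R) (hh : HasRange h S) :
    HasRange (fun r => g r + h r) (max R S) := by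
  refine ⟨le_max_of_le_left hg.two_le, fun r hr => ?_⟩
  rw [hg.zero r (le_of_max_le_left hr), hh.zero r (le_of_max_le_right hr), add_zero]

lemma HasRange.const_mul {g : ℝ → ℝ} {R : ℝ} (hg : HasRange g R) (c : ℝ) :
    HasRange (fun r => c * g r) R :=
  ⟨hg.two_le, fun r hr => by rw [hg.zero r hr, mul_zero]⟩

lemma HasRange.mono {g : ℝ → ℝ} {R S : ℝ} (hg : HasRange g R) (hRS : R ≤ S) : HasRange g S :=
  ⟨hg.two_le.trans hRS, fun r hr => hg.zero r (hRS.trans hr)⟩

lemma hasRange_zero : HasRange (fun _ => 0) 2 :=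
  ⟨le_rfl, fun _ _ => rfl⟩

lemma hasRange_kappa {L : ℝ} (hL : 1 ≤ L) : HasRange (kappa L) (2 * L) :=
  ⟨by linarith, fun _ hr => kappa_eq_zero (by linarith) hr⟩

end Vale.Agent.P171
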