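import Vale.Agent.P171.Core

/-!
# P171: the shock lemma for the Hopf-Lax transform

If a convex nondecreasing function `p` of subquadratic growth has a near-kink
`S2 p m η ≥ J` and `4 η ≤ a J`, then `hopfLax a p` has an exact kink of size at least `J`.
-/

open Filter Topology Set

namespace Vale.Agent.P171

section secant

variable {p : ℝ → ℝ}

/-- Monotonicity of secant slopes of a convex function in both endpoints. -/
lemma secant_le (hp : ConvexOn ℝ univ p) {a b c d : ℝ} (hab : a < b) (hcd : c < d)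
    (hac : a ≤ c) (hbd : b ≤ d) :
    (p b - p a) / (b - a) ≤ (p d - p c) / (d - c) := by
  have had : a < d := lt_of_lt_of_le hab hbd
  have h1 : (p b - p a) / (b - a) ≤ (p d - p a) / (d - a) :=
    hp.secant_mono (mem_univ a) (mem_univ b) (mem_univ d) (ne_of_gt hab) (ne_of_gt had) hbd
  have h2 : (p a - p d) / (a - d) ≤ (p c - p d) / (c - d) :=
    hp.secant_mono (mem_univ d) (mem_univ a) (mem_univ c) (ne_of_lt had) (ne_of_lt hcd) hac
  have e1 : (p a - p d) / (a - d) = (p d - p a) / (d - a) := by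
    rw [← neg_sub (p d) (p a), ← neg_sub d a, neg_div_neg_eq]
  have e2 : (p c - p d) / (c - d) = (p d - p c) / (d - c) := by
    rw [← neg_sub (p d) (p c), ← neg_sub d c, neg_div_neg_eq]
  rw [e1, e2] at h2
  exact h1.trans h2

/-- Chord inequality in multiplied form: if `a < b`, `c < d`, `a ≤ c`, `b ≤ d` and the slope on
`[a,b]` is at least `ρ`, then `p d - p c ≥ ρ (d - c)`. -/
lemma chord_ge (hp : ConvexOn ℝ univ p) {a b c d ρ : ℝ} (hab : a < b) (hcd : c ≤ d)
    (hac : a ≤ c) (hbd : b ≤ d) (hρ : ρ ≤ (p b - p a) / (b - a)) :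
    ρ * (d - c) ≤ p d - p c := by
  rcases eq_or_lt_of_le hcd with h | h
  · subst h; simp
  · have := hρ.trans (secant_le hp hab h hac hbd)
    have hdc : 0 < d - c := sub_pos.mpr h
    rwa [le_div_iff₀ hdc] at this

/-- Chord inequality in multiplied form, other direction. -/
lemma chord_le (hp : ConvexOn ℝ univ p) {a b c d ρ : ℝ} (hcd' : c < d) (hab : a ≤ b)
    (hac : a ≤ c) (hbd : b ≤ d) (hρ : (p d - p c) / (d - c) ≤ ρ) :
    p b - p a ≤ ρ * (b - a) := by
  rcases eq_or_lt_of_le hab with h | h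
  · subst h; simp
  · have := (secant_le hp h hcd' hac hbd).trans hρ
    have hba : 0 < b - a := sub_pos.mpr h
    rwa [div_le_iff₀ hba] at this

/-- `S2` is monotone in the step `η`. -/
lemma S2_mono (hp : ConvexOn ℝ univ p) {m η η' : ℝ} (hη : 0 < η) (hηη' : η ≤ η') :
    S2 p m η ≤ S2 p m η' := by
  have hη'0 : 0 < η' := lt_of_lt_of_le hη hηη'
  have h1 : (p (m + η) - p m) / ((m + η) - m) ≤ (p (m + η') - p m) / ((m + η') - m) :=
    hp.secant_mono (mem_univ m) (mem_univ _) (mem_univ _) (by simp [hη.ne']) (by simp [hη'0.ne'])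
      (by linarith)
  have h2 : (p (m - η') - p m) / ((m - η') - m) ≤ (p (m - η) - p m) / ((m - η) - m) :=
    hp.secant_mono (mem_univ m) (mem_univ _) (mem_univ _) (by simp [hη'0.ne']) (by simp [hη.ne'])
      (by linarith)
  have e1 : (m + η) - m = η := by ring
  have e2 : (m + η') - m = η' := by ring
  have e3 : (m - η') - m = -η' := by ring
  have e4 : (m - η) - m = -η := by ring
  rw [e1, e2] at h1
  rw [e3, e4] at h2
  have e5 : S2 p m η = (p (m + η) - p m) / η - (p (m - η) - p m) / (-η) := by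
    unfold S2; field_simp; ring
  have e6 : S2 p m η' = (p (m + η') - p m) / η' - (p (m - η') - p m) / (-η') := by
    unfold S2; field_simp; ring
  rw [e5, e6]
  linarith

end secant

section hopf

variable {p : ℝ → ℝ} {a : ℝ}

/-- Subquadratic growth (one-sided). -/
def SubQuad (p : ℝ → ℝ) : Prop := ∀ ε : ℝ, 0 < ε → ∃ C : ℝ, ∀ ν : ℝ, p ν ≤ C + ε * ν ^ 2

lemma hopf_bdd (hg : SubQuad p) (ha : 0 < a) (μ : ℝ) :
    BddAbove (range fun g : ℝ => p (μ + g) - g ^ 2 / (2 * a)) := by
  obtain ⟨C, hC⟩ := hg (1 / (4 * a)) (by positivity)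
  refine ⟨C + 2 * (1 / (4 * a)) * μ ^ 2, ?_⟩
  rintro _ ⟨g, rfl⟩
  have h := hC (μ + g)
  have h1 : (μ + g) ^ 2 ≤ 2 * μ ^ 2 + 2 * g ^ 2 := by nlinarith [sq_nonneg (μ - g)]
  have h2 : (1 / (4 * a)) * (μ + g) ^ 2 ≤ (1 / (4 * a)) * (2 * μ ^ 2 + 2 * g ^ 2) :=
    mul_le_mul_of_nonneg_left h1 (by positivity)
  have h3 : (1 / (4 * a)) * (2 * μ ^ 2 + 2 * g ^ 2) = 2 * (1 / (4 * a)) * μ ^ 2 + g ^ 2 / (2 * a) := by
    field_simp; ring
  simp only
  linarith

lemma le_hopf (hg : SubQuad p) (ha : 0 < a) (μ g : ℝ) :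
    p (μ + g) - g ^ 2 / (2 * a) ≤ hopfLax a p μ :=
  le_ciSup (hopf_bdd hg ha μ) g

lemma hopf_le {μ b : ℝ} (h : ∀ g : ℝ, p (μ + g) - g ^ 2 / (2 * a) ≤ b) : hopfLax a p μ ≤ b :=
  ciSup_le h

lemma hopf_convex (hp : ConvexOn ℝ univ p) (hg : SubQuad p) (ha : 0 < a) :
    ConvexOn ℝ univ (hopfLax a p) := by
  refine ⟨convex_univ, ?_⟩
  intro x _ y _ s t hs ht hst
  refine hopf_le fun g => ?_
  have h1 := le_hopf hg ha x g
  have h2 := le_hopf hg ha y g
  have h3 := hp.2 (mem_univ (x + g)) (mem_univ (y + g)) hs ht hst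
  simp only [smul_eq_mul] at h3 ⊢
  have e : s * x + t * y + g = s * (x + g) + t * (y + g) := by
    have : s + t = 1 := hst
    calc s * x + t * y + g = s * x + t * y + (s + t) * g := by rw [this]; ring
      _ = _ := by ring
  rw [e]
  have h4 : s * (p (x + g) - g ^ 2 / (2 * a)) ≤ s * hopfLax a p x :=
    mul_le_mul_of_nonneg_left h1 hs
  have h5 : t * (p (y + g) - g ^ 2 / (2 * a)) ≤ t * hopfLax a p y :=
    mul_le_mul_of_nonneg_left h2 ht
  have h6 : g ^ 2 / (2 * a) = (s + t) * (g ^ 2 / (2 * a)) := by rw [hst]; ring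
  nlinarith

lemma hopf_continuous (hp : ConvexOn ℝ univ p) (hg : SubQuad p) (ha : 0 < a) :
    Continuous (hopfLax a p) := by
  have h := (hopf_convex hp hg ha).continuousOn isOpen_univ
  exact continuousOn_univ.mp h

/-- The function maximised in the `ν`-form of the transform. -/
private noncomputable def F (a : ℝ) (p : ℝ → ℝ) (μ ν : ℝ) : ℝ := p ν - (ν - μ) ^ 2 / (2 * a)

private lemma F_le_hopf (hg : SubQuad p) (ha : 0 < a) (μ ν : ℝ) :
    F a p μ ν ≤ hopfLax a p μ := by
  have := le_hopf hg ha μ (ν - μ)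
  simpa [F] using this

private lemma hopf_le_of_F {μ b : ℝ} (h : ∀ ν : ℝ, F a p μ ν ≤ b) : hopfLax a p μ ≤ b :=
  hopf_le fun g => by simpa [F] using h (μ + g)

/-- The shock lemma. -/
theorem shock (hp : ConvexOn ℝ univ p) (hm : Monotone p) (hg : SubQuad p) (ha : 0 < a)
    {m η J : ℝ} (hη : 0 < η) (hJ0 : 0 < J) (hJ : J ≤ S2 p m η) (haJ : 4 * η ≤ a * J) :
    ∃ μs : ℝ, μs ≤ m ∧ ∀ η' : ℝ, 0 < η' → J ≤ S2 (hopfLax a p) μs η' := by
  classical
  set w : ℝ := a * J / 4 with hw
  have hwη : η ≤ w := by rw [hw]; linarith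
  have hw0 : 0 < w := lt_of_lt_of_le hη hwη
  set ρ2 : ℝ := (p (m + η) - p m) / η with hρ2
  set ρ1 : ℝ := (p m - p (m - η)) / η with hρ1
  have hρ : J ≤ ρ2 - ρ1 := by
    have : S2 p m η = ρ2 - ρ1 := by
      simp only [S2, hρ2, hρ1]; field_simp; ring
    linarith
  -- chord facts
  have sl2 : (ρ2 : ℝ) ≤ (p (m + η) - p m) / ((m + η) - m) := by
    have : (m + η) - m = η := by ring
    rw [this]
  have sl1 : (p m - p (m - η)) / (m - (m - η)) ≤ (ρ1 : ℝ) := by
    have : m - (m - η) = η := by ring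
    rw [this]
  have C1 : ∀ ν h : ℝ, m + η ≤ ν → 0 ≤ h → ρ2 * h ≤ p (ν + h) - p ν := by
    intro ν h hν hh
    have := chord_ge hp (a := m) (b := m + η) (c := ν) (d := ν + h) (ρ := ρ2) (by linarith)
      (by linarith) (by linarith) (by linarith) sl2
    simpa using this
  have C2 : ∀ ν h : ℝ, ν ≤ m - η → 0 ≤ h → p ν - p (ν - h) ≤ ρ1 * h := by
    intro ν h hν hh
    have := chord_le hp (a := ν - h) (b := ν) (c := m - η) (d := m) (ρ := ρ1) (by linarith)
      (by linarith) (by linarith) (by linarith) sl1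
    simpa using this
  -- second difference bound in the middle
  have C3 : ∀ ν : ℝ, |ν - m| ≤ w →
      w * J ≤ p (ν + 2 * w) + p (ν - 2 * w) - 2 * p ν := by
    intro ν hν
    obtain ⟨hν1, hν2⟩ := abs_le.mp hν
    rcases le_total ν m with hνm | hνm
    · -- ν ≤ m
      set σ : ℝ := (p ν - p (ν - 2 * w)) / (2 * w) with hσ
      have hσ' : σ * (2 * w) = p ν - p (ν - 2 * w) := by
        rw [hσ]; field_simp
      have hσ1 : σ ≤ ρ1 := by
        have := secant_le hp (a := ν - 2 * w) (b := ν) (c := m - η) (d := m) (by linarith)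
          (by linarith) (by linarith) hνm
        have e1 : ν - (ν - 2 * w) = 2 * w := by ring
        have e2 : m - (m - η) = η := by ring
        rwa [e1, e2] at this
      have A : ρ2 * ((ν + 2 * w) - m) ≤ p (ν + 2 * w) - p m :=
        chord_ge hp (a := m) (b := m + η) (c := m) (d := ν + 2 * w) (ρ := ρ2) (by linarith)
          (by linarith) le_rfl (by linarith) sl2
      have B : σ * (m - ν) ≤ p m - p ν := by
        have sl : σ ≤ (p ν - p (ν - 2 * w)) / (ν - (ν - 2 * w)) := by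
          have e1 : ν - (ν - 2 * w) = 2 * w := by ring
          rw [e1]
        exact chord_ge hp (a := ν - 2 * w) (b := ν) (c := ν) (d := m) (ρ := σ) (by linarith)
          hνm (by linarith) hνm sl
      have hh : w ≤ (ν + 2 * w) - m := by linarith
      have key : (ρ2 - ρ1) * w ≤ (ρ2 - σ) * ((ν + 2 * w) - m) := by
        have h1 : ρ2 - ρ1 ≤ ρ2 - σ := by linarith
        have h2 : 0 ≤ ρ2 - ρ1 := by linarith
        exact mul_le_mul h1 hh hw0.le (by linarith)
      have : (ρ2 - σ) * ((ν + 2 * w) - m) ≤ p (ν + 2 * w) + p (ν - 2 * w) - 2 * p ν := by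
        nlinarith
      have h3 : J * w ≤ (ρ2 - ρ1) * w := mul_le_mul_of_nonneg_right hρ hw0.le
      nlinarith
    · -- m ≤ ν
      set σ : ℝ := (p (ν + 2 * w) - p ν) / (2 * w) with hσ
      have hσ' : σ * (2 * w) = p (ν + 2 * w) - p ν := by
        rw [hσ]; field_simp
      have hσ1 : ρ2 ≤ σ := by
        have := secant_le hp (a := m) (b := m + η) (c := ν) (d := ν + 2 * w) (by linarith)
          (by linarith) hνm (by linarith)
        have e1 : (ν + 2 * w) - ν = 2 * w := by ring
        have e2 : (m + η) - m = η := by ring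
        rwa [e1, e2] at this
      have A : p m - p (ν - 2 * w) ≤ ρ1 * (m - (ν - 2 * w)) :=
        chord_le hp (a := ν - 2 * w) (b := m) (c := m - η) (d := m) (ρ := ρ1) (by linarith)
          (by linarith) (by linarith) le_rfl sl1
      have B : p ν - p m ≤ σ * (ν - m) := by
        have sl : (p (ν + 2 * w) - p ν) / ((ν + 2 * w) - ν) ≤ σ := by
          have e1 : (ν + 2 * w) - ν = 2 * w := by ring
          rw [e1]
        exact chord_le hp (a := m) (b := ν) (c := ν) (d := ν + 2 * w) (ρ := σ) (by linarith)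
          hνm hνm (by linarith) sl
      have hh : w ≤ m - (ν - 2 * w) := by linarith
      have key : (ρ2 - ρ1) * w ≤ (σ - ρ1) * (m - (ν - 2 * w)) := by
        have h1 : ρ2 - ρ1 ≤ σ - ρ1 := by linarith
        have h2 : 0 ≤ ρ2 - ρ1 := by linarith
        exact mul_le_mul h1 hh hw0.le (by linarith)
      have : (σ - ρ1) * (m - (ν - 2 * w)) ≤ p (ν + 2 * w) + p (ν - 2 * w) - 2 * p ν := by
        nlinarith
      have h3 : J * w ≤ (ρ2 - ρ1) * w := mul_le_mul_of_nonneg_right hρ hw0.le
      nlinarith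
  -- middle exclusion
  have mid : ∀ μ ν : ℝ, |ν - m| ≤ w →
      F a p μ ν ≤ F a p μ (ν + 2 * w) ∨ F a p μ ν ≤ F a p μ (ν - 2 * w) := by
    intro μ ν hν
    have h := C3 ν hν
    have e : (F a p μ (ν + 2 * w) + F a p μ (ν - 2 * w) - 2 * F a p μ ν) =
        (p (ν + 2 * w) + p (ν - 2 * w) - 2 * p ν) - 4 * w ^ 2 / a := by
      simp only [F]; field_simp; ring
    have e2 : 4 * w ^ 2 / a = w * J := by
      rw [hw]; field_simp
    have h0 : 0 ≤ F a p μ (ν + 2 * w) + F a p μ (ν - 2 * w) - 2 * F a p μ ν := by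
      rw [e, e2]; linarith
    by_contra hcon
    push Not at hcon
    linarith [hcon.1, hcon.2]
  -- the two branches
  set Qp : ℝ → ℝ := fun μ => sSup (F a p μ '' Ici (m + w)) with hQp
  set Qm : ℝ → ℝ := fun μ => sSup (F a p μ '' Iic (m - w)) with hQm
  have bddp : ∀ μ, BddAbove (F a p μ '' Ici (m + w)) := by
    intro μ
    refine ⟨hopfLax a p μ, ?_⟩
    rintro _ ⟨ν, -, rfl⟩
    exact F_le_hopf hg ha μ ν
  have bddm : ∀ μ, BddAbove (F a p μ '' Iic (m - w)) := by
    intro μ
    refine ⟨hopfLax a p μ, ?_⟩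
    rintro _ ⟨ν, -, rfl⟩
    exact F_le_hopf hg ha μ ν
  have nep : ∀ μ, (F a p μ '' Ici (m + w)).Nonempty := fun μ =>
    ⟨_, ⟨m + w, self_mem_Ici, rfl⟩⟩
  have nem : ∀ μ, (F a p μ '' Iic (m - w)).Nonempty := fun μ =>
    ⟨_, ⟨m - w, self_mem_Iic, rfl⟩⟩
  have le_Qp : ∀ μ ν, m + w ≤ ν → F a p μ ν ≤ Qp μ := fun μ ν hν =>
    le_csSup (bddp μ) ⟨ν, hν, rfl⟩
  have le_Qm : ∀ μ ν, ν ≤ m - w → F a p μ ν ≤ Qm μ := fun μ ν hν =>
    le_csSup (bddm μ) ⟨ν, hν, rfl⟩
  have Qp_le : ∀ μ, Qp μ ≤ hopfLax a p μ := fun μ =>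
    csSup_le (nep μ) (by rintro _ ⟨ν, -, rfl⟩; exact F_le_hopf hg ha μ ν)
  have Qm_le : ∀ μ, Qm μ ≤ hopfLax a p μ := fun μ =>
    csSup_le (nem μ) (by rintro _ ⟨ν, -, rfl⟩; exact F_le_hopf hg ha μ ν)
  -- T = max of the branches
  have T_le : ∀ μ, hopfLax a p μ ≤ max (Qp μ) (Qm μ) := by
    intro μ
    refine hopf_le_of_F fun ν => ?_
    by_cases h1 : m + w ≤ ν
    · exact (le_Qp μ ν h1).trans (le_max_left _ _)
    by_cases h2 : ν ≤ m - w
    · exact (le_Qm μ ν h2).trans (le_max_right _ _)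
    push Not at h1 h2
    have hν : |ν - m| ≤ w := by
      rw [abs_le]; constructor <;> linarith
    rcases mid μ ν hν with h | h
    · exact h.trans ((le_Qp μ _ (by linarith)).trans (le_max_left _ _))
    · exact h.trans ((le_Qm μ _ (by linarith)).trans (le_max_right _ _))
  -- monotonicity of the branches
  have Qp_step : ∀ μ h, 0 ≤ h → Qp μ + ρ2 * h ≤ Qp (μ + h) := by
    intro μ h hh
    have : Qp μ ≤ Qp (μ + h) - ρ2 * h := by
      refine csSup_le (nep μ) ?_
      rintro _ ⟨ν, hν, rfl⟩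
      have hν' : m + w ≤ ν := hν
      have h1 := le_Qp (μ + h) (ν + h) (by linarith)
      have h2 := C1 ν h (by linarith) hh
      have e : F a p (μ + h) (ν + h) = p (ν + h) - (ν - μ) ^ 2 / (2 * a) := by
        simp only [F]; congr 2; ring
      have e3 : F a p μ ν = p ν - (ν - μ) ^ 2 / (2 * a) := rfl
      rw [e] at h1
      rw [e3]
      linarith
    linarith
  have Qm_step : ∀ μ h, 0 ≤ h → Qm μ - ρ1 * h ≤ Qm (μ - h) := by
    intro μ h hh
    have : Qm μ ≤ Qm (μ - h) + ρ1 * h := by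
      refine csSup_le (nem μ) ?_
      rintro _ ⟨ν, hν, rfl⟩
      have hν' : ν ≤ m - w := hν
      have h1 := le_Qm (μ - h) (ν - h) (by linarith)
      have h2 := C2 ν h (by linarith) hh
      have e : F a p (μ - h) (ν - h) = p (ν - h) - (ν - μ) ^ 2 / (2 * a) := by
        simp only [F]; congr 2; ring
      have e3 : F a p μ ν = p ν - (ν - μ) ^ 2 / (2 * a) := rfl
      rw [e] at h1
      rw [e3]
      linarith
    linarith
  set D : ℝ → ℝ := fun μ => Qp μ - Qm μ with hD
  have D_step : ∀ μ h, 0 ≤ h → D μ + J * h ≤ D (μ + h) := by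
    intro μ h hh
    have h1 := Qp_step μ h hh
    have h2 := Qm_step (μ + h) h hh
    have e : μ + h - h = μ := by ring
    rw [e] at h2
    have h3 : J * h ≤ (ρ2 - ρ1) * h := mul_le_mul_of_nonneg_right hρ hh
    simp only [hD]
    nlinarith
  -- mirror argument
  have D_nonneg : ∀ μ, m ≤ μ → 0 ≤ D μ := by
    intro μ hμ
    have : Qm μ ≤ Qp μ := by
      refine csSup_le (nem μ) ?_
      rintro _ ⟨ν, hν, rfl⟩
      have hν' : ν ≤ m - w := hν
      have h1 := le_Qp μ (2 * μ - ν) (by linarith)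
      have h2 : p ν ≤ p (2 * μ - ν) := hm (by linarith)
      have e : F a p μ (2 * μ - ν) = p (2 * μ - ν) - (ν - μ) ^ 2 / (2 * a) := by
        simp only [F]; congr 2; ring
      rw [e] at h1
      have e3 : F a p μ ν = p ν - (ν - μ) ^ 2 / (2 * a) := rfl
      rw [e3]
      linarith
    simp only [hD]; linarith
  -- the crossing point
  set A : Set ℝ := {μ | D μ ≤ 0} with hA
  have A_ne : A.Nonempty := by
    refine ⟨m - max (D m) 0 / J, ?_⟩
    have hh : 0 ≤ max (D m) 0 / J := by positivity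
    have h1 := D_step (m - max (D m) 0 / J) (max (D m) 0 / J) hh
    have e : m - max (D m) 0 / J + max (D m) 0 / J = m := by ring
    rw [e] at h1
    have e2 : J * (max (D m) 0 / J) = max (D m) 0 := by field_simp
    rw [e2] at h1
    have h2 := le_max_left (D m) 0
    simp only [hA, mem_ofPred_eq]
    linarith
  have A_bdd : ∀ μ ∈ A, μ ≤ m := by
    intro μ hμ
    by_contra hcon
    push Not at hcon
    have h1 := D_step m (μ - m) (by linarith)
    have e : m + (μ - m) = μ := by ring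
    rw [e] at h1
    have h2 := D_nonneg m le_rfl
    have h3 : 0 < J * (μ - m) := mul_pos hJ0 (by linarith)
    have h4 : D μ ≤ 0 := hμ
    linarith
  have A_bddAbove : BddAbove A := ⟨m, A_bdd⟩
  set x : ℝ := sSup A with hx
  have hxm : x ≤ m := csSup_le A_ne A_bdd
  refine ⟨x, hxm, ?_⟩
  intro η' hη'
  have hT := hopf_continuous hp hg ha
  -- left inequality
  have left : hopfLax a p x - ρ1 * η' ≤ hopfLax a p (x - η') := by
    obtain ⟨u, -, hu_tend, hu_mem⟩ := exists_seq_tendsto_sSup A_ne A_bddAbove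
    have hu_le : ∀ n, u n ≤ x := fun n => le_csSup A_bddAbove (hu_mem n)
    have hev : ∀ᶠ n in atTop, x - η' ≤ u n :=
      hu_tend.eventually (lt_mem_nhds (by linarith)) |>.mono fun n hn => hn.le
    have hlim : Tendsto (fun n => hopfLax a p (u n) - ρ1 * (u n - (x - η'))) atTop
        (𝓝 (hopfLax a p x - ρ1 * (x - (x - η')))) := by
      refine ((hT.tendsto x).comp hu_tend).sub ?_
      exact (hu_tend.sub_const _).const_mul _
    have hbound : ∀ᶠ n in atTop, hopfLax a p (u n) - ρ1 * (u n - (x - η'))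
        ≤ hopfLax a p (x - η') := by
      filter_upwards [hev] with n hn
      have hDn : D (u n) ≤ 0 := hu_mem n
      have h1 : hopfLax a p (u n) ≤ Qm (u n) := by
        refine (T_le (u n)).trans (max_le ?_ le_rfl)
        simp only [hD] at hDn; linarith
      have h2 := Qm_step (u n) (u n - (x - η')) (by linarith)
      have e : u n - (u n - (x - η')) = x - η' := by ring
      rw [e] at h2
      have h3 := Qm_le (x - η')
      linarith
    have := le_of_tendsto hlim hbound
    have e : x - (x - η') = η' := by ring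
    rwa [e] at this
  -- right inequality
  have right : hopfLax a p x + ρ2 * η' ≤ hopfLax a p (x + η') := by
    have hlim : Tendsto (fun z => hopfLax a p z + ρ2 * ((x + η') - z)) (𝓝[>] x)
        (𝓝 (hopfLax a p x + ρ2 * ((x + η') - x))) := by
      refine (hT.continuousWithinAt.tendsto).add ?_
      refine (Tendsto.const_mul _ ?_)
      refine Tendsto.sub tendsto_const_nhds ?_
      exact tendsto_nhdsWithin_of_tendsto_nhds tendsto_id
    have hbound : ∀ᶠ z in 𝓝[>] x, hopfLax a p z + ρ2 * ((x + η') - z)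
        ≤ hopfLax a p (x + η') := by
      have h1 : Ioo x (x + η') ∈ 𝓝[>] x := Ioo_mem_nhdsGT (by linarith)
      filter_upwards [h1] with z hz
      have hDz : 0 < D z := by
        by_contra hcon
        push Not at hcon
        have : z ≤ x := le_csSup A_bddAbove hcon
        linarith [hz.1]
      have h2 : hopfLax a p z ≤ Qp z := by
        refine (T_le z).trans (max_le le_rfl ?_)
        simp only [hD] at hDz; linarith
      have h3 := Qp_step z ((x + η') - z) (by linarith [hz.2])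
      have e : z + ((x + η') - z) = x + η' := by ring
      rw [e] at h3
      have h4 := Qp_le (x + η')
      linarith
    have : (𝓝[>] x).NeBot := nhdsGT_neBot x
    have := le_of_tendsto hlim hbound
    have e : (x + η') - x = η' := by ring
    rwa [e] at this
  unfold S2
  rw [le_div_iff₀ hη']
  have h3 : J * η' ≤ (ρ2 - ρ1) * η' := mul_le_mul_of_nonneg_right hρ hη'.le
  nlinarith

end hopf

end Vale.Agent.P171
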