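import Vale.Agent.P171.LogConvex
import Vale.Agent.P171.Shock

/-!
# P171: existence of the pressure for finite-range `g` (corridor superadditivity), and properties.
-/

open MeasureTheory Filter Topology Set
open scoped ENNReal BigOperators

namespace Vale.Agent.P171

/-- The pressure of `phi0 - g` at chemical potential `ν`, as a limit of finite-volume quantities. -/
noncomputable def press (g : ℝ → ℝ) (ν : ℝ) : ℝ :=
  limUnder atTop (fun L : ℝ => (L ^ 3)⁻¹ * logXi g ν L)

variable {g : ℝ → ℝ} {A R : ℝ}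

/-- The translation placing the cube with index `i` at the origin. -/
noncomputable def packTr (c₀ : ℝ) {m : ℕ} (i : Fin 3 → Fin m) : X :=
  (WithLp.toLp 2 (fun c => -(c₀ * ((i c : ℕ) : ℝ))) : X)

/-- The cube with index `i`, as a region. -/
def packCube (L₀ c₀ : ℝ) {m : ℕ} (i : Fin 3 → Fin m) : Set X :=
  (fun x : X => x + packTr c₀ i) ⁻¹' cube L₀

lemma mem_packCube {L₀ c₀ : ℝ} {m : ℕ} {i : Fin 3 → Fin m} {x : X} :
    x ∈ packCube L₀ c₀ i ↔ ∀ c, c₀ * ((i c : ℕ) : ℝ) ≤ x c ∧ x c ≤ c₀ * ((i c : ℕ) : ℝ) + L₀ := by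
  unfold packCube
  simp only [mem_preimage, cube, mem_ofPred_eq]
  refine forall_congr' fun c => ?_
  have e : (x + packTr c₀ i) c = x c - c₀ * ((i c : ℕ) : ℝ) := by
    simp [packTr, sub_eq_add_neg]
  rw [e]
  constructor
  · rintro ⟨h1, h2⟩
    constructor <;> linarith
  · rintro ⟨h1, h2⟩
    constructor <;> linarith

/-- Two distinct cubes of the packing are separated by the corridor width `R`. -/
lemma packCube_far {L₀ : ℝ} (hL₀ : 0 < L₀) {R : ℝ} {m : ℕ} {i j : Fin 3 → Fin m} (hij : i ≠ j)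
    {y z : X} (hy : y ∈ packCube L₀ (L₀ + R) i) (hz : z ∈ packCube L₀ (L₀ + R) j)
    (hR : 0 ≤ R) : R ≤ ‖y - z‖ := by
  obtain ⟨c, hc⟩ : ∃ c, i c ≠ j c := Function.ne_iff.1 hij
  rw [mem_packCube] at hy hz
  have h1 := hy c
  have h2 := hz c
  have h3 : |(y - z) c| ≤ ‖y - z‖ := abs_coord_le_norm _ _
  have e : (y - z) c = y c - z c := by simp
  rw [e] at h3
  have hc0 : 0 < L₀ + R := by linarith
  refine le_trans ?_ h3
  have hne : ((i c : ℕ)) ≠ ((j c : ℕ)) := fun h => hc (Fin.ext h)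
  rcases Nat.lt_or_gt_of_ne hne with hlt | hlt
  · have hle : ((i c : ℕ) : ℝ) + 1 ≤ ((j c : ℕ) : ℝ) := by exact_mod_cast hlt
    have h4 : (L₀ + R) * (((i c : ℕ) : ℝ) + 1) ≤ (L₀ + R) * ((j c : ℕ) : ℝ) :=
      mul_le_mul_of_nonneg_left hle hc0.le
    rw [abs_sub_comm, le_abs]
    left
    nlinarith [h1.2, h2.1]
  · have hle : ((j c : ℕ) : ℝ) + 1 ≤ ((i c : ℕ) : ℝ) := by exact_mod_cast hlt
    have h4 : (L₀ + R) * (((j c : ℕ) : ℝ) + 1) ≤ (L₀ + R) * ((i c : ℕ) : ℝ) :=
      mul_le_mul_of_nonneg_left hle hc0.le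
    rw [le_abs]
    left
    nlinarith [h1.1, h2.2]

/-- Packing: separated translates of a cube inside a larger cube. -/
theorem logXi_packing (hg : IsAttr g A) (hr : HasRange g R) (ν : ℝ) {L₀ : ℝ} (hL₀ : 0 < L₀)
    (m : ℕ) (hm : 1 ≤ m) :
    (m : ℝ) ^ 3 * logXi g ν L₀ ≤ logXi g ν ((m : ℝ) * (L₀ + R)) := by
  classical
  have hR0 : 0 < R := by linarith [hr.two_le]
  have hc0 : 0 < L₀ + R := by linarith
  have hm0 : (0 : ℝ) < m := by exact_mod_cast hm
  have hVm := W_measurable hg.meas ν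
  set Λ : (Fin 3 → Fin m) → Set X := fun i => packCube L₀ (L₀ + R) i with hΛ
  have hΛm : ∀ i, MeasurableSet (Λ i) := fun i => by
    have hc : Measurable fun x : X => x + packTr (L₀ + R) i := measurable_add_const _
    exact hc (measurableSet_cube L₀)
  have hdisj : Pairwise (Function.onFun Disjoint Λ) := by
    intro i j hij
    rw [Function.onFun, Set.disjoint_left]
    intro y hy hy'
    have := packCube_far hL₀ hij hy hy' hR0.le
    rw [sub_self, norm_zero] at this
    linarith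
  have hfac := Xi_biUnion (Finset.univ : Finset (Fin 3 → Fin m)) Λ hΛm hdisj
    (V := W g ν) (W_zero g ν) hVm (W_perm g ν) ?_
  · have htr : ∀ i, Xi (Λ i) (W g ν) = XiL g ν L₀ := fun i =>
      Xi_translate (measurableSet_cube L₀) (packTr (L₀ + R) i) hVm
        (fun N x => W_translate g ν N x _)
    simp only [htr, Finset.prod_const, Finset.card_univ, Fintype.card_fun, Fintype.card_fin] at hfac
    have hsub : (⋃ i ∈ (Finset.univ : Finset (Fin 3 → Fin m)), Λ i) ⊆ cube ((m : ℝ) * (L₀ + R)) := by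
      intro x hx
      simp only [Finset.mem_univ, iUnion_true, mem_iUnion] at hx
      obtain ⟨i, hi⟩ := hx
      rw [hΛ] at hi
      simp only at hi
      rw [mem_packCube] at hi
      intro c
      have h1 := hi c
      have h2 : ((i c : ℕ) : ℝ) + 1 ≤ m := by exact_mod_cast (i c).2
      have h3 : (0 : ℝ) ≤ ((i c : ℕ) : ℝ) := Nat.cast_nonneg _
      constructor
      · exact le_trans (mul_nonneg hc0.le h3) h1.1
      · nlinarith [h1.2]
    have hmono : (XiL g ν L₀) ^ (m ^ 3) ≤ XiL g ν ((m : ℝ) * (L₀ + R)) := by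
      rw [← hfac]
      exact Xi_mono_set hsub _
    have hf1 := XiL_ne_top hg ν hL₀
    have hf2 := XiL_ne_top hg ν (L := (m : ℝ) * (L₀ + R)) (by positivity)
    have h4 : ((XiL g ν L₀).toReal) ^ (m ^ 3) ≤ (XiL g ν ((m : ℝ) * (L₀ + R))).toReal := by
      have := ENNReal.toReal_mono hf2 hmono
      rwa [ENNReal.toReal_pow] at this
    have h5 : 1 ≤ (XiL g ν L₀).toReal := by
      have := ENNReal.toReal_mono hf1 (one_le_XiL g ν L₀)
      simpa using this
    have h6 : 0 < ((XiL g ν L₀).toReal) ^ (m ^ 3) := by positivity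
    have h7 := Real.log_le_log h6 h4
    rw [Real.log_pow] at h7
    unfold logXi
    push_cast at h7
    exact h7
  · intro D' j hj k l y z hy hz
    refine W_append_far g ν hr y z fun a b => ?_
    have h1 := hy a
    simp only [mem_iUnion, exists_prop] at h1
    obtain ⟨i', hi', hmem⟩ := h1
    have hne : i' ≠ j := fun h => hj (h ▸ hi')
    exact packCube_far hL₀ hne hmem (hz b) hR0.le

theorem logXi_mono_L (hg : IsAttr g A) (ν : ℝ) {L₁ L₂ : ℝ} (h₁ : 0 < L₁) (h : L₁ ≤ L₂) :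
    logXi g ν L₁ ≤ logXi g ν L₂ := by
  have hsub : cube L₁ ⊆ cube L₂ := fun x hx c => ⟨(hx c).1, (hx c).2.trans h⟩
  have hf1 := XiL_ne_top hg ν h₁
  have hf2 := XiL_ne_top hg ν (L := L₂) (by linarith)
  have h1 : (XiL g ν L₁).toReal ≤ (XiL g ν L₂).toReal :=
    ENNReal.toReal_mono hf2 (Xi_mono_set hsub _)
  have h2 : 1 ≤ (XiL g ν L₁).toReal := by
    have := ENNReal.toReal_mono hf1 (one_le_XiL g ν L₁)
    simpa using this
  exact Real.log_le_log (by linarith) h1

/-- The limit exists and a finite volume cannot beat it. -/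
lemma exists_limit (hg : IsAttr g A) (hr : HasRange g R) (ν : ℝ) :
    ∃ s : ℝ, Tendsto (fun L : ℝ => (L ^ 3)⁻¹ * logXi g ν L) atTop (𝓝 s) ∧
      ∀ L, 1 ≤ L → logXi g ν L ≤ (L + R) ^ 3 * s := by
  have hR0 : 0 < R := by linarith [hr.two_le]
  set v : ℝ → ℝ := fun L => logXi g ν L / (L + R) ^ 3 with hv
  set S : Set ℝ := v '' Ici 1 with hS
  obtain ⟨C, hC⟩ := Xi_le_growth A 1 one_pos
  have hbdd : BddAbove S := by
    refine ⟨C + 1 * ν ^ 2, ?_⟩
    rintro _ ⟨L, hL, rfl⟩
    have hL1 : (1 : ℝ) ≤ L := hL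
    have hL0 : 0 < L := by linarith
    have h1 := logXi_le_growth (C := C) (ε := 1) hL0 (hC g hg ν L hL1)
    have h2 := logXi_nonneg hg ν hL0
    have hL3 : 0 < L ^ 3 := by positivity
    have hK : 0 ≤ C + 1 * ν ^ 2 := by
      by_contra hneg
      push Not at hneg
      have := mul_neg_of_pos_of_neg hL3 hneg
      linarith
    show logXi g ν L / (L + R) ^ 3 ≤ _
    rw [div_le_iff₀ (by positivity)]
    have h3 : L ^ 3 ≤ (L + R) ^ 3 := pow_le_pow_left₀ hL0.le (by linarith) 3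
    nlinarith
  have hne : S.Nonempty := ⟨v 1, mem_image_of_mem v (mem_Ici.2 le_rfl)⟩
  set s : ℝ := sSup S with hs
  have hvs : ∀ L, 1 ≤ L → v L ≤ s := fun L hL =>
    le_csSup hbdd (mem_image_of_mem v (mem_Ici.2 hL))
  have hupper : ∀ L, 1 ≤ L → logXi g ν L ≤ (L + R) ^ 3 * s := by
    intro L hL
    have h1 := hvs L hL
    have hL0 : 0 < L := by linarith
    rw [hv] at h1
    simp only at h1
    rw [div_le_iff₀ (by positivity)] at h1
    linarith
  -- the lower bound by packing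
  have hlower : ∀ L₀ L, 1 ≤ L₀ → L₀ + R ≤ L →
      v L₀ * (1 - (L₀ + R) / L) ^ 3 ≤ (L ^ 3)⁻¹ * logXi g ν L := by
    intro L₀ L hL₀ hL
    have hL₀0 : 0 < L₀ := by linarith
    set c₀ := L₀ + R with hc₀
    have hc₀0 : 0 < c₀ := by linarith
    have hL0 : 0 < L := by linarith
    set m : ℕ := ⌊L / c₀⌋₊ with hm
    have hdiv : 1 ≤ L / c₀ := by rwa [one_le_div hc₀0]
    have hm1 : 1 ≤ m := Nat.le_floor (by simpa using hdiv)
    have hmle : (m : ℝ) ≤ L / c₀ := Nat.floor_le (by positivity)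
    have hmge : L / c₀ < (m : ℝ) + 1 := Nat.lt_floor_add_one _
    have hm0 : (0 : ℝ) < m := by exact_mod_cast hm1
    have h1 := logXi_packing hg hr ν hL₀0 m hm1
    have h2 : (m : ℝ) * c₀ ≤ L := by
      rwa [le_div_iff₀ hc₀0] at hmle
    have h3 := logXi_mono_L hg ν (L₁ := (m : ℝ) * c₀) (L₂ := L) (by positivity) h2
    have h4 : (m : ℝ) ^ 3 * logXi g ν L₀ ≤ logXi g ν L := h1.trans h3
    have h5 := logXi_nonneg hg ν hL₀0
    have h6 : 0 ≤ 1 - c₀ / L := by
      rw [sub_nonneg, div_le_one hL0]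
      exact hL
    have h7 : L * (1 - c₀ / L) / c₀ ≤ m := by
      have e : L * (1 - c₀ / L) / c₀ = L / c₀ - 1 := by
        field_simp
      rw [e]
      linarith
    have h8 : (L * (1 - c₀ / L) / c₀) ^ 3 ≤ (m : ℝ) ^ 3 :=
      pow_le_pow_left₀ (by positivity) h7 3
    have h9 : (L * (1 - c₀ / L) / c₀) ^ 3 * logXi g ν L₀ ≤ logXi g ν L :=
      (mul_le_mul_of_nonneg_right h8 h5).trans h4
    have e : v L₀ * (1 - c₀ / L) ^ 3 =
        (L ^ 3)⁻¹ * ((L * (1 - c₀ / L) / c₀) ^ 3 * logXi g ν L₀) := by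
      rw [hv]
      simp only
      rw [← hc₀]
      field_simp
    rw [e]
    exact mul_le_mul_of_nonneg_left h9 (by positivity)
  refine ⟨s, ?_, hupper⟩
  refine tendsto_order.2 ⟨fun b hb => ?_, fun b hb => ?_⟩
  · obtain ⟨_, ⟨L₀, hL₀, rfl⟩, hb'⟩ := exists_lt_of_lt_csSup hne hb
    have hL₀1 : (1 : ℝ) ≤ L₀ := hL₀
    have hlim : Tendsto (fun L : ℝ => v L₀ * (1 - (L₀ + R) / L) ^ 3) atTop (𝓝 (v L₀ * (1 - 0) ^ 3)) := by
      refine Tendsto.const_mul _ (Tendsto.pow (Tendsto.sub tendsto_const_nhds ?_) 3)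
      exact tendsto_const_nhds.div_atTop tendsto_id
    simp only [sub_zero, one_pow, mul_one] at hlim
    filter_upwards [hlim.eventually (lt_mem_nhds hb'), eventually_ge_atTop (L₀ + R)] with L h1 h2
    exact lt_of_lt_of_le h1 (hlower L₀ L hL₀1 h2)
  · have hlim : Tendsto (fun L : ℝ => (1 + R / L) ^ 3 * s) atTop (𝓝 ((1 + 0) ^ 3 * s)) := by
      refine Tendsto.mul_const _ (Tendsto.pow (Tendsto.add tendsto_const_nhds ?_) 3)
      exact tendsto_const_nhds.div_atTop tendsto_id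
    simp only [add_zero, one_pow, one_mul] at hlim
    filter_upwards [hlim.eventually (gt_mem_nhds hb), eventually_ge_atTop 1] with L h1 h2
    refine lt_of_le_of_lt ?_ h1
    have hL0 : 0 < L := by linarith
    have h3 := hupper L h2
    have e : (1 + R / L) ^ 3 * s = (L ^ 3)⁻¹ * ((L + R) ^ 3 * s) := by
      field_simp
    rw [e]
    exact mul_le_mul_of_nonneg_left h3 (by positivity)

theorem tendsto_press (hg : IsAttr g A) (hr : HasRange g R) (ν : ℝ) :
    Tendsto (fun L : ℝ => (L ^ 3)⁻¹ * logXi g ν L) atTop (𝓝 (press g ν)) := by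
  obtain ⟨s, hs, -⟩ := exists_limit hg hr ν
  unfold press
  rw [hs.limUnder_eq]
  exact hs

/-- The limit is a supremum: a finite volume cannot beat the pressure of a slightly larger cube. -/
theorem logXi_le_press (hg : IsAttr g A) (hr : HasRange g R) (ν : ℝ) {L : ℝ} (hL : 1 ≤ L) :
    logXi g ν L ≤ (L + R) ^ 3 * press g ν := by
  obtain ⟨s, hs, hup⟩ := exists_limit hg hr ν
  have : press g ν = s := hs.limUnder_eq
  rw [this]
  exact hup L hL

/-- Comparison of the pressure with a bound on the grand sum on large cubes. -/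
lemma press_le_of_bound (hg : IsAttr g A) (hr : HasRange g R) {ν c : ℝ}
    (h : ∀ L, 1 ≤ L → logXi g ν L ≤ L ^ 3 * c) : press g ν ≤ c := by
  refine le_of_tendsto (tendsto_press hg hr ν) ?_
  filter_upwards [eventually_ge_atTop 1] with L hL
  have hL0 : 0 < L := by linarith
  have hL3 : 0 < L ^ 3 := by positivity
  rw [inv_mul_le_iff₀ hL3]
  exact h L hL

theorem press_nonneg (hg : IsAttr g A) (hr : HasRange g R) (ν : ℝ) : 0 ≤ press g ν := by
  refine ge_of_tendsto (tendsto_press hg hr ν) ?_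
  filter_upwards [eventually_gt_atTop 0] with L hL
  have := logXi_nonneg hg ν hL
  positivity

/-- Comparison of log of grand sums from a comparison of weights. -/
lemma logXi_mono_of_le {g' : ℝ → ℝ} {A' : ℝ} (hg : IsAttr g A) (hg' : IsAttr g' A')
    {ν ν' L : ℝ} (hL : 0 < L)
    (h : ∀ (N : ℕ) (x : Fin N → X), logW g ν N x ≤ logW g' ν' N x) :
    logXi g ν L ≤ logXi g' ν' L := by
  have hle : XiL g ν L ≤ XiL g' ν' L := by
    refine Xi_mono_weight (measurableSet_cube L) fun N => Eventually.of_forall fun x _ => ?_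
    exact ENNReal.ofReal_le_ofReal (Real.exp_le_exp.2 (h N x))
  have hf1 := XiL_ne_top hg ν hL
  have hf2 := XiL_ne_top hg' ν' hL
  have h2 : 1 ≤ (XiL g ν L).toReal := by
    have := ENNReal.toReal_mono hf1 (one_le_XiL g ν L)
    simpa using this
  exact Real.log_le_log (by linarith) (ENNReal.toReal_mono hf2 hle)

theorem press_monotone (hg : IsAttr g A) (hr : HasRange g R) : Monotone (press g) := by
  intro ν ν' hνν'
  refine le_of_tendsto_of_tendsto (tendsto_press hg hr ν) (tendsto_press hg hr ν') ?_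
  filter_upwards [eventually_gt_atTop 0] with L hL
  refine mul_le_mul_of_nonneg_left ?_ (by positivity)
  refine logXi_mono_of_le hg hg hL fun N x => ?_
  unfold logW
  have : ν * (N : ℝ) ≤ ν' * (N : ℝ) := mul_le_mul_of_nonneg_right hνν' (Nat.cast_nonneg N)
  linarith

theorem press_convex (hg : IsAttr g A) (hr : HasRange g R) : ConvexOn ℝ univ (press g) := by
  refine ⟨convex_univ, fun ν₀ _ ν₁ _ a b ha hb hab => ?_⟩
  have hfun : (fun r => (1 - b) * g r + b * g r) = g := by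
    funext r
    ring
  have hlim1 := tendsto_press hg hr (a • ν₀ + b • ν₁)
  have hlim2 : Tendsto (fun L : ℝ => a * ((L ^ 3)⁻¹ * logXi g ν₀ L) +
      b * ((L ^ 3)⁻¹ * logXi g ν₁ L)) atTop (𝓝 (a * press g ν₀ + b * press g ν₁)) :=
    ((tendsto_press hg hr ν₀).const_mul a).add ((tendsto_press hg hr ν₁).const_mul b)
  simp only [smul_eq_mul] at hlim1 ⊢
  refine le_of_tendsto_of_tendsto hlim1 hlim2 ?_
  filter_upwards [eventually_gt_atTop 0] with L hL
  have hb1 : b ≤ 1 := by linarith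
  have h := logXi_convex (g₀ := g) (g₁ := g) (ν₀ := ν₀) (ν₁ := ν₁) (L := L) (t := b) hg.meas hg.meas
    hb hb1 (XiL_ne_top hg ν₀ hL) (XiL_ne_top hg ν₁ hL)
  rw [hfun] at h
  have ea : 1 - b = a := by linarith
  rw [ea] at h
  have h3 : (0 : ℝ) ≤ (L ^ 3)⁻¹ := by positivity
  have h4 := mul_le_mul_of_nonneg_left h h3
  calc _ ≤ _ := h4
    _ = _ := by ring

/-- Bound uniform in the class. -/
theorem press_le_growth (A ε : ℝ) (hε : 0 < ε) : ∃ C : ℝ, ∀ g R, IsAttr g A → HasRange g R →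
    ∀ ν, press g ν ≤ C + ε * ν ^ 2 := by
  obtain ⟨C, hC⟩ := Xi_le_growth A ε hε
  refine ⟨C, fun g R hg hr ν => press_le_of_bound hg hr fun L hL => ?_⟩
  exact logXi_le_growth (by linarith) (hC g hg ν L hL)

theorem press_subquad (hg : IsAttr g A) (hr : HasRange g R) : SubQuad (press g) := by
  intro ε hε
  obtain ⟨C, hC⟩ := press_le_growth A ε hε
  exact ⟨C, fun ν => hC g R hg hr ν⟩

/-- Log of the grand sum from an upper bound on the grand sum. -/
lemma logXi_le_of_XiL_le {g : ℝ → ℝ} {ν L c : ℝ} (h : XiL g ν L ≤ ENNReal.ofReal (Real.exp c)) :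
    logXi g ν L ≤ c := by
  unfold logXi
  have hfin : XiL g ν L ≠ ∞ := ne_top_of_le_ne_top ENNReal.ofReal_ne_top h
  have h1 : 1 ≤ (XiL g ν L).toReal := by
    have := ENNReal.toReal_mono hfin (one_le_XiL g ν L)
    simpa using this
  have h2 : (XiL g ν L).toReal ≤ Real.exp c :=
    ENNReal.toReal_le_of_le_ofReal (Real.exp_pos _).le h
  rw [Real.log_le_iff_le_exp (by linarith)]
  exact h2

/-- Low-activity bound, uniform in the class. -/
theorem press_le_exp (A : ℝ) : ∃ C : ℝ, ∀ g R, IsAttr g A → HasRange g R →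
    ∀ ν, press g ν ≤ Real.exp (ν + C) := by
  obtain ⟨C, hC⟩ := Xi_le_exp A
  refine ⟨C, fun g R hg hr ν => press_le_of_bound hg hr fun L hL => ?_⟩
  exact logXi_le_of_XiL_le (hC g hg ν L (by linarith))

theorem press_mono_attr {g' : ℝ → ℝ} {A' R' : ℝ} (hg : IsAttr g A) (hr : HasRange g R)
    (hg' : IsAttr g' A') (hr' : HasRange g' R') (hgg' : ∀ r, g r ≤ g' r) (ν : ℝ) :
    press g ν ≤ press g' ν := by
  refine le_of_tendsto_of_tendsto (tendsto_press hg hr ν) (tendsto_press hg' hr' ν) ?_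
  filter_upwards [eventually_gt_atTop 0] with L hL
  refine mul_le_mul_of_nonneg_left ?_ (by positivity)
  refine logXi_mono_of_le hg hg' hL fun N x => ?_
  unfold logW
  have := pairEnergy_mono hgg' x
  linarith

/-- Perturbation of the coupling. -/
theorem press_coupling (hg : IsAttr g A) (hA : 0 ≤ A) (hr : HasRange g R) {ζ : ℝ} (h0 : 0 ≤ ζ)
    (h1 : ζ ≤ 1) (ν : ℝ) :
    press (fun r => (1 + ζ) * g r) ν ≤ press g ν + ζ * press (fun r => 2 * g r) ν := by
  have _ := hA
  have hg1 : IsAttr (fun r => (1 + ζ) * g r) ((1 + ζ) * A) := hg.const_mul (by linarith)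
  have hr1 : HasRange (fun r => (1 + ζ) * g r) R := hr.const_mul _
  have hg2 : IsAttr (fun r => 2 * g r) (2 * A) := hg.const_mul (by norm_num)
  have hr2 : HasRange (fun r => 2 * g r) R := hr.const_mul _
  have hlim2 : Tendsto (fun L : ℝ => (L ^ 3)⁻¹ * logXi g ν L +
      ζ * ((L ^ 3)⁻¹ * logXi (fun r => 2 * g r) ν L)) atTop
      (𝓝 (press g ν + ζ * press (fun r => 2 * g r) ν)) :=
    (tendsto_press hg hr ν).add ((tendsto_press hg2 hr2 ν).const_mul ζ)
  refine le_of_tendsto_of_tendsto (tendsto_press hg1 hr1 ν) hlim2 ?_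
  filter_upwards [eventually_gt_atTop 0] with L hL
  have h := logXi_convex (g₀ := g) (g₁ := fun r => 2 * g r) (ν₀ := ν) (ν₁ := ν) (L := L) (t := ζ)
    hg.meas hg2.meas h0 h1 (XiL_ne_top hg ν hL) (XiL_ne_top hg2 ν hL)
  have e1 : (fun r => (1 - ζ) * g r + ζ * (2 * g r)) = fun r => (1 + ζ) * g r := by
    funext r
    ring
  have e2 : (1 - ζ) * ν + ζ * ν = ν := by ring
  rw [e1, e2] at h
  have h3 := logXi_nonneg hg ν hL
  have h4 : (0 : ℝ) ≤ (L ^ 3)⁻¹ := by positivity
  have h5 : logXi (fun r => (1 + ζ) * g r) ν L ≤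
      logXi g ν L + ζ * logXi (fun r => 2 * g r) ν L := by nlinarith
  have h6 := mul_le_mul_of_nonneg_left h5 h4
  calc _ ≤ _ := h6
    _ = _ := by ring

/-- The term with one particle in the unit cube. -/
lemma XiL_zero_ge (ν : ℝ) : ENNReal.ofReal (1 + Real.exp ν) ≤ XiL (fun _ => 0) ν 1 := by
  have h0 : Set.pi Set.univ (fun _ : Fin 0 => cube 1) = univ := by
    ext x
    simp
  have hvol0 : (volume : Measure (Fin 0 → X)) univ = 1 := by
    rw [volume_pi, Measure.pi_empty_univ]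
  have term0 : ((Nat.factorial 0 : ℕ) : ℝ≥0∞)⁻¹ *
      ∫⁻ x in Set.pi Set.univ (fun _ : Fin 0 => cube 1), W (fun _ => 0) ν 0 x = 1 := by
    rw [h0]
    simp [W_zero, hvol0]
  have hlog1 : ∀ x : Fin 1 → X, logW (fun _ => 0) ν 1 x = ν := by
    intro x
    have hp : ∀ f : ℝ → ℝ, pairEnergy f x = 0 := by
      intro f
      unfold pairEnergy
      refine Finset.sum_eq_zero fun p hp => ?_
      have hlt : p.1 < p.2 := (Finset.mem_filter.1 hp).2
      exact absurd hlt (by simp [Subsingleton.elim p.1 p.2])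
    unfold logW
    rw [hp, hp]
    simp
  have term1 : ((Nat.factorial 1 : ℕ) : ℝ≥0∞)⁻¹ *
      ∫⁻ x in Set.pi Set.univ (fun _ : Fin 1 => cube 1), W (fun _ => 0) ν 1 x =
      ENNReal.ofReal (Real.exp ν) := by
    have h1 : ∀ x : Fin 1 → X, W (fun _ => 0) ν 1 x = ENNReal.ofReal (Real.exp ν) := by
      intro x
      unfold W
      rw [hlog1]
    simp only [h1]
    rw [setLIntegral_const, volume_pi, Measure.pi_pi]
    simp [volume_cube (zero_le_one' ℝ)]
  unfold XiL Xi
  have hs := ENNReal.sum_le_tsum (f := fun N : ℕ => ((N.factorial : ℕ) : ℝ≥0∞)⁻¹ *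
    ∫⁻ x in Set.pi Set.univ (fun _ : Fin N => cube 1), W (fun _ => 0) ν N x)
    (Finset.range 2)
  refine le_trans ?_ hs
  rw [Finset.sum_range_succ, Finset.sum_range_one, term0, term1,
    ENNReal.ofReal_add zero_le_one (Real.exp_pos ν).le, ENNReal.ofReal_one]

/-- Explicit lower bound for the pure core. -/
theorem press_zero_ge (ν : ℝ) :
    (1 / 27) * Real.log (1 + Real.exp ν) ≤ press (fun _ => 0) ν := by
  have h1 := logXi_le_press isAttr_zero hasRange_zero ν (L := 1) le_rfl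
  have hf := XiL_ne_top (isAttr_zero) ν (L := 1) one_pos
  have h2 : 1 + Real.exp ν ≤ (XiL (fun _ => 0) ν 1).toReal := by
    have h3 := ENNReal.toReal_mono hf (XiL_zero_ge ν)
    rwa [ENNReal.toReal_ofReal (by positivity)] at h3
  have h3 : Real.log (1 + Real.exp ν) ≤ logXi (fun _ => 0) ν 1 := by
    unfold logXi
    exact Real.log_le_log (by positivity) h2
  have e : ((1 : ℝ) + 2) ^ 3 = 27 := by norm_num
  rw [e] at h1
  linarith

/-- Explicit upper bound for the pure core. -/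
theorem press_zero_le (ν : ℝ) : press (fun _ => 0) ν ≤ Real.exp ν := by
  refine press_le_of_bound isAttr_zero hasRange_zero fun L hL => ?_
  have hL0 : 0 < L := by linarith
  have h := XiL_le_of_logW_le (g := fun _ => 0) (ν := ν) hL0 ν 0 ?_
  · have := logXi_le_of_XiL_le h
    simpa using this
  · intro N x _ _
    unfold logW
    have h1 := pairEnergy_nonneg phi0_nonneg x
    have h2 : pairEnergy (fun _ => (0 : ℝ)) x = 0 := by
      unfold pairEnergy
      simp
    rw [h2]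
    linarith

end Vale.Agent.P171
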