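import Vale.Agent.P171.Cells

/-!
# P171: finite-volume log-convexity of the grand sum in `(g, ν)`.
-/

open MeasureTheory Filter Topology Set
open scoped ENNReal BigOperators

namespace Vale.Agent.P171

lemma logW_convex_comb (g₀ g₁ : ℝ → ℝ) (ν₀ ν₁ t : ℝ) (N : ℕ) (x : Fin N → X) :
    logW (fun r => (1 - t) * g₀ r + t * g₁ r) ((1 - t) * ν₀ + t * ν₁) N x =
      (1 - t) * logW g₀ ν₀ N x + t * logW g₁ ν₁ N x := by
  unfold logW
  rw [pairEnergy_add, pairEnergy_const_mul, pairEnergy_const_mul]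
  ring

/-- Hölder: `log Xi` is jointly convex in the pair `(g, ν)`. -/
theorem logXi_convex {g₀ g₁ : ℝ → ℝ} (h₀ : Measurable g₀) (h₁ : Measurable g₁) {ν₀ ν₁ L t : ℝ}
    (ht0 : 0 ≤ t) (ht1 : t ≤ 1) (hf₀ : XiL g₀ ν₀ L ≠ ∞) (hf₁ : XiL g₁ ν₁ L ≠ ∞) :
    logXi (fun r => (1 - t) * g₀ r + t * g₁ r) ((1 - t) * ν₀ + t * ν₁) L ≤
      (1 - t) * logXi g₀ ν₀ L + t * logXi g₁ ν₁ L := by
  set A : ℝ := (XiL g₀ ν₀ L).toReal with hA
  set B : ℝ := (XiL g₁ ν₁ L).toReal with hB
  have hA1 : 1 ≤ A := by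
    have := ENNReal.toReal_mono hf₀ (one_le_Xi (cube L) g₀ ν₀)
    simpa using this
  have hB1 : 1 ≤ B := by
    have := ENNReal.toReal_mono hf₁ (one_le_Xi (cube L) g₁ ν₁)
    simpa using this
  have hA0 : 0 < A := by linarith
  have hB0 : 0 < B := by linarith
  have ht0' : 0 ≤ 1 - t := by linarith
  set c : ℝ := Real.exp ((1 - t) * Real.log A + t * Real.log B) with hc
  have hc0 : 0 < c := Real.exp_pos _
  -- the pointwise bound
  have hpt : ∀ (N : ℕ) (x : Fin N → X),
      W (fun r => (1 - t) * g₀ r + t * g₁ r) ((1 - t) * ν₀ + t * ν₁) N x ≤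
        ENNReal.ofReal c * (ENNReal.ofReal ((1 - t) / A) * W g₀ ν₀ N x +
          ENNReal.ofReal (t / B) * W g₁ ν₁ N x) := by
    intro N x
    unfold W
    rw [logW_convex_comb]
    set a := logW g₀ ν₀ N x
    set b := logW g₁ ν₁ N x
    have hconv : Real.exp ((1 - t) * (a - Real.log A) + t * (b - Real.log B)) ≤
        (1 - t) * Real.exp (a - Real.log A) + t * Real.exp (b - Real.log B) := by
      have := convexOn_exp.2 (mem_univ (a - Real.log A)) (mem_univ (b - Real.log B)) ht0' ht0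
        (by ring)
      simpa [smul_eq_mul] using this
    have e1 : Real.exp (a - Real.log A) = Real.exp a / A := by
      rw [Real.exp_sub, Real.exp_log hA0]
    have e2 : Real.exp (b - Real.log B) = Real.exp b / B := by
      rw [Real.exp_sub, Real.exp_log hB0]
    have e3 : Real.exp ((1 - t) * a + t * b) =
        c * Real.exp ((1 - t) * (a - Real.log A) + t * (b - Real.log B)) := by
      rw [hc, ← Real.exp_add]
      congr 1
      ring
    have hmain : Real.exp ((1 - t) * a + t * b) ≤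
        c * ((1 - t) / A * Real.exp a + t / B * Real.exp b) := by
      rw [e3]
      refine mul_le_mul_of_nonneg_left ?_ hc0.le
      rw [e1, e2] at hconv
      calc _ ≤ _ := hconv
        _ = _ := by ring
    have hnn1 : 0 ≤ (1 - t) / A := by positivity
    have hnn2 : 0 ≤ t / B := by positivity
    calc ENNReal.ofReal (Real.exp ((1 - t) * a + t * b))
        ≤ ENNReal.ofReal (c * ((1 - t) / A * Real.exp a + t / B * Real.exp b)) :=
          ENNReal.ofReal_le_ofReal hmain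
      _ = _ := by
          rw [ENNReal.ofReal_mul hc0.le, ENNReal.ofReal_add (by positivity) (by positivity),
            ENNReal.ofReal_mul hnn1, ENNReal.ofReal_mul hnn2]
  have hW₀ := W_measurable h₀ ν₀
  have hW₁ := W_measurable h₁ ν₁
  have hbound : XiL (fun r => (1 - t) * g₀ r + t * g₁ r) ((1 - t) * ν₀ + t * ν₁) L ≤
      ENNReal.ofReal c := by
    have hm : XiL (fun r => (1 - t) * g₀ r + t * g₁ r) ((1 - t) * ν₀ + t * ν₁) L ≤
        Xi (cube L) (fun N x => ENNReal.ofReal c * (ENNReal.ofReal ((1 - t) / A) * W g₀ ν₀ N x +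
          ENNReal.ofReal (t / B) * W g₁ ν₁ N x)) :=
      Xi_mono_weight (measurableSet_cube L) fun N => Eventually.of_forall fun x _ => hpt N x
    refine hm.trans (le_of_eq ?_)
    have m1 : ∀ N, Measurable fun x : Fin N → X => ENNReal.ofReal ((1 - t) / A) * W g₀ ν₀ N x :=
      fun N => (hW₀ N).const_mul _
    have m2 : ∀ N, Measurable fun x : Fin N → X => ENNReal.ofReal (t / B) * W g₁ ν₁ N x :=
      fun N => (hW₁ N).const_mul _
    rw [Xi_const_mul (V := fun N x => ENNReal.ofReal ((1 - t) / A) * W g₀ ν₀ N x +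
        ENNReal.ofReal (t / B) * W g₁ ν₁ N x) (fun N => (m1 N).add (m2 N)),
      Xi_add m1, Xi_const_mul hW₀, Xi_const_mul hW₁]
    change ENNReal.ofReal c * (ENNReal.ofReal ((1 - t) / A) * XiL g₀ ν₀ L +
      ENNReal.ofReal (t / B) * XiL g₁ ν₁ L) = _
    have e1 : XiL g₀ ν₀ L = ENNReal.ofReal A := (ENNReal.ofReal_toReal hf₀).symm
    have e2 : XiL g₁ ν₁ L = ENNReal.ofReal B := (ENNReal.ofReal_toReal hf₁).symm
    rw [e1, e2, ← ENNReal.ofReal_mul (by positivity), ← ENNReal.ofReal_mul (by positivity),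
      ← ENNReal.ofReal_add (by positivity) (by positivity), ← ENNReal.ofReal_mul hc0.le]
    congr 1
    field_simp
    ring
  -- conclusion
  unfold logXi
  rw [← hA, ← hB]
  have hfin : XiL (fun r => (1 - t) * g₀ r + t * g₁ r) ((1 - t) * ν₀ + t * ν₁) L ≠ ∞ :=
    ne_top_of_le_ne_top ENNReal.ofReal_ne_top hbound
  have h1 : 1 ≤ (XiL (fun r => (1 - t) * g₀ r + t * g₁ r) ((1 - t) * ν₀ + t * ν₁) L).toReal := by
    have := ENNReal.toReal_mono hfin (one_le_XiL (fun r => (1 - t) * g₀ r + t * g₁ r)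
      ((1 - t) * ν₀ + t * ν₁) L)
    simpa using this
  have h2 : (XiL (fun r => (1 - t) * g₀ r + t * g₁ r) ((1 - t) * ν₀ + t * ν₁) L).toReal ≤ c :=
    ENNReal.toReal_le_of_le_ofReal hc0.le hbound
  rw [Real.log_le_iff_le_exp (by linarith)]
  exact h2

/-- Uniform bound for small attractive tails. If `h₁` has mass `≤ 1`, adding `t h₁` increases
`log Xi` by at most `t L^3 (C + ν²)`, where `C` is uniform in the class of mass `A+1`. -/
theorem logXi_tail (A : ℝ) : ∃ C : ℝ, ∀ (g h₁ : ℝ → ℝ), IsAttr g A → IsAttr h₁ 1 →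
    ∀ (t ν L : ℝ), 0 ≤ t → t ≤ 1 → 1 ≤ L →
      logXi (fun r => g r + t * h₁ r) ν L ≤ logXi g ν L + t * (L ^ 3 * (C + ν ^ 2)) := by
  obtain ⟨C, hC⟩ := Xi_le_growth (A + 1) 1 one_pos
  refine ⟨C, fun g h₁ hg hh t ν L ht0 ht1 hL => ?_⟩
  have hL0 : 0 < L := by linarith
  have hgh : IsAttr (fun r => g r + h₁ r) (A + 1) := hg.add hh
  have h1 := logXi_convex (g₀ := g) (g₁ := fun r => g r + h₁ r) (ν₀ := ν) (ν₁ := ν) (L := L) (t := t)
    hg.meas hgh.meas ht0 ht1 (XiL_ne_top hg ν hL0) (XiL_ne_top hgh ν hL0)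
  have e1 : (fun r => (1 - t) * g r + t * (g r + h₁ r)) = fun r => g r + t * h₁ r := by
    funext r
    ring
  have e2 : (1 - t) * ν + t * ν = ν := by ring
  rw [e1, e2] at h1
  have h2 := hC _ hgh ν L hL
  have h3 := logXi_le_growth (C := C) (ε := 1) hL0 h2
  have h4 := logXi_nonneg hg ν hL0
  have h5 : t * logXi (fun r => g r + h₁ r) ν L ≤ t * (L ^ 3 * (C + 1 * ν ^ 2)) :=
    mul_le_mul_of_nonneg_left h3 ht0
  rw [one_mul] at h5
  nlinarith

end Vale.Agent.P171
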