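import Vale.Agent.P171.KacLimit

/-!
# P171: the tower of Kac potentials.
-/

open MeasureTheory Filter Topology Set
open scoped ENNReal BigOperators

namespace Vale.Agent.P171

/-- Coupling constants of the tower. -/
noncomputable def aT (k : ℕ) : ℝ := 20000 * (1 / 2) ^ k
/-- Window widths of the tower. -/
noncomputable def etaT (k : ℕ) : ℝ := 5 * (1 / 2) ^ k
/-- Near-kink sizes of the tower. -/
noncomputable def JT (k : ℕ) : ℝ := (1 / 500) * (1 / 2 + (1 / 2) ^ (k + 1))
/-- Accumulated masses of the tower. -/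
noncomputable def AT (k : ℕ) : ℝ := 40000 * (1 - (1 / 2) ^ k)

lemma aT_pos (k : ℕ) : 0 < aT k := by unfold aT; positivity
lemma etaT_pos (k : ℕ) : 0 < etaT k := by unfold etaT; positivity
lemma JT_pos (k : ℕ) : 0 < JT k := by unfold JT; positivity

lemma JT_ge (k : ℕ) : 1 / 1000 ≤ JT k := by
  unfold JT
  have : (0 : ℝ) ≤ (1 / 2) ^ (k + 1) := by positivity
  linarith

lemma JT_succ_lt (k : ℕ) : JT (k + 1) < JT k := by
  unfold JT
  have h : (0 : ℝ) < (1 / 2) ^ (k + 1) := by positivity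
  have e : (1 / 2 : ℝ) ^ (k + 1 + 1) = (1 / 2) * (1 / 2) ^ (k + 1) := by ring
  rw [e]
  linarith

lemma four_eta_le (k : ℕ) : 4 * etaT k ≤ aT k * JT k := by
  have h1 := JT_ge k
  have h2 : 0 < aT k := aT_pos k
  have h3 : aT k * (1 / 1000) ≤ aT k * JT k := mul_le_mul_of_nonneg_left h1 h2.le
  refine le_trans (le_of_eq ?_) h3
  unfold etaT aT
  ring

lemma AT_succ (k : ℕ) : AT (k + 1) = AT k + aT k * 1 := by
  unfold AT aT
  ring

lemma AT_zero : AT 0 = 0 := by
  unfold AT
  norm_num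

lemma AT_nonneg (k : ℕ) : 0 ≤ AT k := by
  unfold AT
  have : (1 / 2 : ℝ) ^ k ≤ 1 := pow_le_one₀ (by norm_num) (by norm_num)
  nlinarith

lemma AT_le (k : ℕ) : AT k ≤ 40000 := by
  unfold AT
  have : (0 : ℝ) ≤ (1 / 2) ^ k := by positivity
  nlinarith

lemma etaT_le (k : ℕ) : etaT k ≤ 5 := by
  unfold etaT
  have : (1 / 2 : ℝ) ^ k ≤ 1 := pow_le_one₀ (by norm_num) (by norm_num)
  linarith

/-- Inductive invariant of the tower. -/
def Good (k : ℕ) (g : ℝ → ℝ) (m : ℝ) : Prop :=
  IsAttr g (AT k) ∧ (∃ R, HasRange g R) ∧ JT k ≤ S2 (press g) m (etaT k)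

lemma S2_tendsto {f : ℝ → ℝ → ℝ} {l : Filter ℝ} {F : ℝ → ℝ} {m η : ℝ}
    (h : ∀ ν, Tendsto (fun L => f L ν) l (𝓝 (F ν))) :
    Tendsto (fun L => S2 (f L) m η) l (𝓝 (S2 F m η)) := by
  unfold S2
  exact (((h _).add (h _)).sub ((h _).const_mul 2)).div_const η

/-- The step of the tower. -/
lemma tower_step {k : ℕ} {g : ℝ → ℝ} {m : ℝ} (h : Good k g m) :
    ∃ L m' : ℝ, 1 ≤ L ∧ m' ≤ m ∧ Good (k + 1) (fun r => g r + aT k * kappa L r) m' := by
  obtain ⟨hA, ⟨R, hR⟩, hS⟩ := h
  obtain ⟨μs, hμs, hshock⟩ := shock (press_convex hA hR) (press_monotone hA hR)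
    (press_subquad hA hR) (aT_pos k) (etaT_pos k) (JT_pos k) hS (four_eta_le k)
  have hlim : Tendsto (fun L : ℝ => S2 (press (fun r => g r + aT k * kappa L r)) μs (etaT (k + 1)))
      atTop (𝓝 (S2 (hopfLax (aT k) (press g)) μs (etaT (k + 1)))) :=
    S2_tendsto fun ν => tendsto_press_kac hA (AT_nonneg k) hR (aT_pos k) ν
  have hlt : JT (k + 1) < S2 (hopfLax (aT k) (press g)) μs (etaT (k + 1)) :=
    lt_of_lt_of_le (JT_succ_lt k) (hshock _ (etaT_pos _))
  obtain ⟨L, hL1, hL2⟩ := ((hlim.eventually (lt_mem_nhds hlt)).and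
    (eventually_ge_atTop (1 : ℝ))).exists
  refine ⟨L, μs, hL2, hμs, ?_, ⟨_, hR.add ((hasRange_kappa hL2).const_mul (aT k))⟩, hL1.le⟩
  rw [AT_succ]
  exact hA.add ((isAttr_kappa hL2).const_mul (aT_pos k).le)

/-- Numerical start of the tower. -/
lemma good_zero : Good 0 (fun _ => 0) (-5) := by
  refine ⟨by rw [AT_zero]; exact isAttr_zero, ⟨2, hasRange_zero⟩, ?_⟩
  have h1 := press_zero_ge 0
  have h2 := press_zero_le (-5)
  have h3 := press_nonneg isAttr_zero hasRange_zero (-5 - 5)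
  have h4 : Real.log 2 > 0.69 := by
    have := Real.log_two_gt_d9
    linarith
  have h5 : Real.exp (-5) ≤ 0.007 := by
    have e : Real.exp (-5) = (Real.exp 1 ^ 5)⁻¹ := by
      rw [← Real.exp_nat_mul, ← Real.exp_neg]
      norm_num
    rw [e]
    have h6 : (2.7 : ℝ) ≤ Real.exp 1 := by
      have := Real.exp_one_gt_d9
      linarith
    have h7 : (2.7 : ℝ) ^ 5 ≤ Real.exp 1 ^ 5 := pow_le_pow_left₀ (by norm_num) h6 5
    have h8 : (Real.exp 1 ^ 5)⁻¹ ≤ ((2.7 : ℝ) ^ 5)⁻¹ := inv_anti₀ (by norm_num) h7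
    refine h8.trans (by norm_num)
  have e1 : Real.log (1 + Real.exp 0) = Real.log 2 := by
    rw [Real.exp_zero]
    norm_num
  rw [e1] at h1
  unfold S2 JT etaT
  have e2 : (-5 : ℝ) + 5 * (1 / 2) ^ 0 = 0 := by norm_num
  have e3 : (-5 : ℝ) - 5 * (1 / 2) ^ 0 = -5 - 5 := by norm_num
  rw [e2, e3]
  have e4 : (5 : ℝ) * (1 / 2) ^ 0 = 5 := by norm_num
  rw [e4, le_div_iff₀ (by norm_num)]
  norm_num at h1 h3 h2 ⊢
  linarith

/-- The sequence of states. -/
noncomputable def towerS : ∀ k : ℕ, {s : (ℝ → ℝ) × ℝ // Good k s.1 s.2}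
  | 0 => ⟨(fun _ => 0, -5), good_zero⟩
  | k + 1 =>
    ⟨(fun r => (towerS k).1.1 r + aT k * kappa (tower_step (towerS k).2).choose r,
      (tower_step (towerS k).2).choose_spec.choose),
      (tower_step (towerS k).2).choose_spec.choose_spec.2.2⟩

/-- The ranges of the Kac kernels in the tower. -/
noncomputable def LT (k : ℕ) : ℝ := (tower_step (towerS k).2).choose

/-- The location of the near-kink. -/
noncomputable def mT (k : ℕ) : ℝ := (towerS k).1.2

/-- The partial sums. -/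
noncomputable def gT (k : ℕ) : ℝ → ℝ := (towerS k).1.1

lemma LT_ge (k : ℕ) : 1 ≤ LT k := (tower_step (towerS k).2).choose_spec.choose_spec.1

lemma mT_succ_le (k : ℕ) : mT (k + 1) ≤ mT k :=
  (tower_step (towerS k).2).choose_spec.choose_spec.2.1

lemma good_T (k : ℕ) : Good k (gT k) (mT k) := (towerS k).2

lemma gT_zero : gT 0 = fun _ => 0 := rfl

lemma gT_succ (k : ℕ) : gT (k + 1) = fun r => gT k r + aT k * kappa (LT k) r := rfl

lemma attr_T (k : ℕ) : IsAttr (gT k) 40000 := (good_T k).1.mono (AT_le k)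

lemma kappa_le_uniform {L : ℝ} (hL : 1 ≤ L) (r : ℝ) : kappa L r ≤ (ballVol 1)⁻¹ := by
  have hL0 : 0 < L := by linarith
  refine (kappa_le hL0 r).trans ?_
  have hB : 0 < ballVol 1 := ballVol_pos one_pos
  refine inv_anti₀ hB ?_
  rw [ballVol_scale hL0.le]
  have : (1 : ℝ) ≤ L ^ 3 := one_le_pow₀ hL
  nlinarith

lemma aT_summable : Summable aT := by
  unfold aT
  exact (summable_geometric_two).mul_left _

lemma aT_tsum : ∑' k, aT k = 40000 := by
  unfold aT
  rw [tsum_mul_left, tsum_geometric_two]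
  norm_num

/-- The full attractive part. -/
noncomputable def gTop (r : ℝ) : ℝ := ∑' k, aT k * kappa (LT k) r

lemma term_summable (r : ℝ) : Summable fun k => aT k * kappa (LT k) r := by
  refine Summable.of_nonneg_of_le (fun k => mul_nonneg (aT_pos k).le (kappa_nonneg _ _))
    (fun k => mul_le_mul_of_nonneg_left (kappa_le_uniform (LT_ge k) r) (aT_pos k).le)
    (aT_summable.mul_right _)

lemma gT_eq (k : ℕ) (r : ℝ) : gT k r = ∑ j ∈ Finset.range k, aT j * kappa (LT j) r := by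
  induction k with
  | zero => simp [gT_zero]
  | succ k ih =>
    rw [gT_succ, Finset.sum_range_succ]
    beta_reduce
    rw [ih]

lemma gT_tendsto (r : ℝ) : Tendsto (fun k => gT k r) atTop (𝓝 (gTop r)) := by
  simp_rw [gT_eq]
  exact (term_summable r).hasSum.tendsto_sum_nat

lemma gT_le_gTop (k : ℕ) (r : ℝ) : gT k r ≤ gTop r := by
  rw [gT_eq]
  exact (term_summable r).sum_le_tsum _
    (fun j _ => mul_nonneg (aT_pos j).le (kappa_nonneg _ _))

/-- Closure of `IsAttr` under pointwise limits. -/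
lemma IsAttr.of_tendsto {f : ℕ → ℝ → ℝ} {F : ℝ → ℝ} {A : ℝ} (hf : ∀ n, IsAttr (f n) A)
    (hlim : ∀ r, Tendsto (fun n => f n r) atTop (𝓝 (F r))) : IsAttr F A := by
  refine ⟨fun r => ge_of_tendsto' (hlim r) fun n => (hf n).nonneg r, ?_, ?_⟩
  · exact measurable_of_tendsto_metrizable (fun n => (hf n).meas) (tendsto_pi_nhds.mpr hlim)
  · intro k hk N x
    have h1 : Tendsto (fun n => pairEnergy (f n) x) atTop (𝓝 (pairEnergy F x)) := by
      unfold pairEnergy
      exact tendsto_finsetSum _ fun p _ => hlim _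
    exact le_of_tendsto' h1 fun n => (hf n).mass k hk N x

lemma attr_gTop : IsAttr gTop 40000 := IsAttr.of_tendsto attr_T gT_tendsto

lemma gTop_le (r : ℝ) : gTop r ≤ 40000 * (ballVol 1)⁻¹ := by
  refine le_of_tendsto' (gT_tendsto r) fun k => ?_
  rw [gT_eq]
  have hB : 0 ≤ (ballVol 1)⁻¹ := (inv_pos.mpr (ballVol_pos one_pos)).le
  have h1 : ∑ j ∈ Finset.range k, aT j * kappa (LT j) r ≤
      ∑ j ∈ Finset.range k, aT j * (ballVol 1)⁻¹ :=
    Finset.sum_le_sum fun j _ =>
      mul_le_mul_of_nonneg_left (kappa_le_uniform (LT_ge j) r) (aT_pos j).le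
  refine h1.trans ?_
  rw [← Finset.sum_mul]
  refine mul_le_mul_of_nonneg_right ?_ hB
  rw [← aT_tsum]
  exact aT_summable.sum_le_tsum _ fun j _ => (aT_pos j).le

/-! ### The tail of the tower -/

/-- Tail masses. -/
noncomputable def tT (k : ℕ) : ℝ := 40000 * (1 / 2) ^ k

lemma tT_pos (k : ℕ) : 0 < tT k := by unfold tT; positivity

lemma AT_sub_le (k d : ℕ) : AT (k + d) - AT k ≤ tT k := by
  unfold AT tT
  have : (0 : ℝ) ≤ (1 / 2) ^ (k + d) := by positivity
  nlinarith

lemma gT_add_attr (k d : ℕ) :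
    IsAttr (fun r => gT (k + d) r - gT k r) (AT (k + d) - AT k) := by
  induction d with
  | zero =>
    simp only [add_zero, sub_self]
    exact isAttr_zero
  | succ d ih =>
    have h1 : IsAttr (fun r => (gT (k + d) r - gT k r) + aT (k + d) * kappa (LT (k + d)) r)
        ((AT (k + d) - AT k) + aT (k + d) * 1) :=
      ih.add ((isAttr_kappa (LT_ge _)).const_mul (aT_pos _).le)
    have e1 : (fun r => gT (k + (d + 1)) r - gT k r) =
        fun r => (gT (k + d) r - gT k r) + aT (k + d) * kappa (LT (k + d)) r := by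
      funext r
      rw [← add_assoc, gT_succ]
      ring
    have e2 : AT (k + (d + 1)) - AT k = (AT (k + d) - AT k) + aT (k + d) * 1 := by
      rw [← add_assoc, AT_succ]
      ring
    rw [e1, e2]
    exact h1

/-- The normalized tail. -/
noncomputable def hT (k : ℕ) (r : ℝ) : ℝ := (tT k)⁻¹ * (gTop r - gT k r)

lemma attr_hT (k : ℕ) : IsAttr (hT k) 1 := by
  have hpos := tT_pos k
  have h1 : ∀ d, IsAttr (fun r => (tT k)⁻¹ * (gT (k + d) r - gT k r)) 1 := by
    intro d
    have h2 := (gT_add_attr k d).const_mul (c := (tT k)⁻¹) (by positivity)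
    refine h2.mono ?_
    rw [inv_mul_le_iff₀ hpos, mul_one]
    exact AT_sub_le k d
  refine IsAttr.of_tendsto h1 fun r => ?_
  refine Tendsto.const_mul _ (Tendsto.sub_const ?_ _)
  exact (gT_tendsto r).comp (tendsto_atTop_mono (fun d => Nat.le_add_left d k) tendsto_id)

lemma gTop_eq_tail (k : ℕ) : gTop = fun r => gT k r + tT k * hT k r := by
  funext r
  unfold hT
  have := (tT_pos k).ne'
  field_simp
  ring

/-! ### The limit pressure -/

lemma range_T (k : ℕ) : ∃ R, HasRange (gT k) R := (good_T k).2.1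

lemma gT_mono : Monotone gT := by
  refine monotone_nat_of_le_succ fun k r => ?_
  rw [gT_succ]
  have : 0 ≤ aT k * kappa (LT k) r := mul_nonneg (aT_pos k).le (kappa_nonneg _ _)
  simp only
  linarith

lemma pk_mono (ν : ℝ) : Monotone fun k => press (gT k) ν := by
  intro j k hjk
  obtain ⟨R, hR⟩ := range_T j
  obtain ⟨R', hR'⟩ := range_T k
  exact press_mono_attr (attr_T j) hR (attr_T k) hR' (gT_mono hjk) ν

lemma pk_bdd (ν : ℝ) : BddAbove (range fun k => press (gT k) ν) := by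
  obtain ⟨C, hC⟩ := press_le_growth 40000 1 one_pos
  refine ⟨C + 1 * ν ^ 2, ?_⟩
  rintro _ ⟨k, rfl⟩
  obtain ⟨R, hR⟩ := range_T k
  exact hC _ R (attr_T k) hR ν

/-- The limit pressure. -/
noncomputable def pInf (ν : ℝ) : ℝ := ⨆ k, press (gT k) ν

lemma pk_tendsto (ν : ℝ) : Tendsto (fun k => press (gT k) ν) atTop (𝓝 (pInf ν)) :=
  tendsto_atTop_ciSup (pk_mono ν) (pk_bdd ν)

lemma pk_le_pInf (k : ℕ) (ν : ℝ) : press (gT k) ν ≤ pInf ν := le_ciSup (pk_bdd ν) k

lemma pk_convex (k : ℕ) : ConvexOn ℝ univ (press (gT k)) := by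
  obtain ⟨R, hR⟩ := range_T k
  exact press_convex (attr_T k) hR

lemma pInf_convex : ConvexOn ℝ univ pInf := by
  refine ⟨convex_univ, ?_⟩
  intro x _ y _ s t hs ht hst
  refine le_of_tendsto_of_tendsto' (pk_tendsto _) ?_ fun k => (pk_convex k).2 (mem_univ x)
    (mem_univ y) hs ht hst
  exact ((pk_tendsto x).const_smul s).add ((pk_tendsto y).const_smul t)

lemma pInf_continuous : Continuous pInf :=
  continuousOn_univ.mp (pInf_convex.continuousOn isOpen_univ)

lemma mT_antitone : Antitone mT := antitone_nat_of_succ_le mT_succ_le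

lemma mT_bdd : BddBelow (range mT) := by
  obtain ⟨C, hC⟩ := press_le_exp 40000
  refine ⟨Real.log (1 / 400) - 5 - C, ?_⟩
  rintro _ ⟨k, rfl⟩
  obtain ⟨R, hR⟩ := range_T k
  have hconv := pk_convex k
  have h1 : 1 / 1000 ≤ S2 (press (gT k)) (mT k) (etaT k) := (JT_ge k).trans (good_T k).2.2
  have h2 : S2 (press (gT k)) (mT k) (etaT k) ≤ S2 (press (gT k)) (mT k) 5 :=
    S2_mono hconv (etaT_pos k) (etaT_le k)
  have h3 : S2 (press (gT k)) (mT k) 5 ≤ 2 * press (gT k) (mT k + 5) / 5 := by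
    unfold S2
    have h4 : press (gT k) (mT k - 5) ≤ press (gT k) (mT k + 5) :=
      press_monotone (attr_T k) hR (by linarith)
    have h5 := press_nonneg (attr_T k) hR (mT k)
    refine div_le_div_of_nonneg_right ?_ (by norm_num)
    linarith
  have h6 := hC _ R (attr_T k) hR (mT k + 5)
  have h7 : 1 / 400 ≤ Real.exp (mT k + 5 + C) := by
    have : 1 / 1000 ≤ 2 * press (gT k) (mT k + 5) / 5 := h1.trans (h2.trans h3)
    linarith
  have h8 := (Real.log_le_iff_le_exp (by norm_num)).mpr h7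
  linarith

/-- The location of the kink. -/
noncomputable def muInf : ℝ := ⨅ k, mT k

lemma mT_tendsto : Tendsto mT atTop (𝓝 muInf) := tendsto_atTop_ciInf mT_antitone mT_bdd

lemma muInf_le (k : ℕ) : muInf ≤ mT k := ciInf_le mT_bdd k

lemma etaT_tendsto : Tendsto etaT atTop (𝓝 0) := by
  unfold etaT
  have h := (tendsto_pow_atTop_nhds_zero_of_lt_one (r := (1 / 2 : ℝ)) (by norm_num)
    (by norm_num)).const_mul (5 : ℝ)
  simpa using h

/-- A first bound with an auxiliary shift. -/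
lemma S2_limit_aux {η δ : ℝ} (hη : 0 < η) (hδ : 0 < δ) :
    1 / 1000 ≤ ((pInf (muInf + δ + η) - pInf (muInf + δ)) -
      (pInf muInf - pInf (muInf - η))) / η := by
  have hlim : Tendsto (fun k => ((press (gT k) (muInf + δ + η) - press (gT k) (muInf + δ)) -
      (press (gT k) muInf - press (gT k) (muInf - η))) / η) atTop
      (𝓝 (((pInf (muInf + δ + η) - pInf (muInf + δ)) -
      (pInf muInf - pInf (muInf - η))) / η)) :=
    (((pk_tendsto _).sub (pk_tendsto _)).sub ((pk_tendsto _).sub (pk_tendsto _))).div_const η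
  refine ge_of_tendsto hlim ?_
  filter_upwards [etaT_tendsto.eventually (gt_mem_nhds hη),
    mT_tendsto.eventually (gt_mem_nhds (by linarith : muInf < muInf + δ))] with k hk1 hk2
  have hconv := pk_convex k
  have h1 : 1 / 1000 ≤ S2 (press (gT k)) (mT k) η :=
    (JT_ge k).trans ((good_T k).2.2.trans (S2_mono hconv (etaT_pos k) hk1.le))
  refine h1.trans ?_
  have hr := secant_le hconv (a := mT k) (b := mT k + η) (c := muInf + δ) (d := muInf + δ + η)
    (by linarith) (by linarith) hk2.le (by linarith)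
  have hl := secant_le hconv (a := muInf - η) (b := muInf) (c := mT k - η) (d := mT k)
    (by linarith) (by linarith) (by linarith [muInf_le k]) (muInf_le k)
  have e1 : mT k + η - mT k = η := by ring
  have e2 : muInf + δ + η - (muInf + δ) = η := by ring
  have e3 : muInf - (muInf - η) = η := by ring
  have e4 : mT k - (mT k - η) = η := by ring
  rw [e1, e2] at hr
  rw [e3, e4] at hl
  unfold S2
  have e5 : (press (gT k) (mT k + η) + press (gT k) (mT k - η) - 2 * press (gT k) (mT k)) / η =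
      (press (gT k) (mT k + η) - press (gT k) (mT k)) / η -
        (press (gT k) (mT k) - press (gT k) (mT k - η)) / η := by
    ring
  have e6 : ((press (gT k) (muInf + δ + η) - press (gT k) (muInf + δ)) -
      (press (gT k) muInf - press (gT k) (muInf - η))) / η =
      (press (gT k) (muInf + δ + η) - press (gT k) (muInf + δ)) / η -
        (press (gT k) muInf - press (gT k) (muInf - η)) / η := by
    ring
  rw [e5, e6]
  linarith

/-- The near-kink passes to the limit at every scale. -/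
lemma S2_limit {η : ℝ} (hη : 0 < η) : 1 / 1000 ≤ S2 pInf muInf η := by
  have hcont := pInf_continuous
  have hlim : Tendsto (fun δ : ℝ => ((pInf (muInf + δ + η) - pInf (muInf + δ)) -
      (pInf muInf - pInf (muInf - η))) / η) (𝓝[>] 0)
      (𝓝 (((pInf (muInf + 0 + η) - pInf (muInf + 0)) -
      (pInf muInf - pInf (muInf - η))) / η)) := by
    refine Tendsto.mono_left ?_ nhdsWithin_le_nhds
    refine Continuous.tendsto ?_ 0
    fun_prop
  have h := ge_of_tendsto hlim (eventually_nhdsWithin_of_forall fun δ hδ => S2_limit_aux hη hδ)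
  refine h.trans (le_of_eq ?_)
  unfold S2
  rw [add_zero]
  ring

/-- A function with a uniform positive second difference quotient is not differentiable. -/
lemma not_diff_of_S2 {p : ℝ → ℝ} {μ J : ℝ} (hJ : 0 < J) (h : ∀ η : ℝ, 0 < η → J ≤ S2 p μ η) :
    ¬ DifferentiableAt ℝ p μ := by
  intro hd
  have hder := hd.hasDerivAt
  have hs := hder.tendsto_slope_zero
  have h1 : Tendsto (fun t : ℝ => t⁻¹ • (p (μ + t) - p μ)) (𝓝[>] 0) (𝓝 (deriv p μ)) :=
    hs.mono_left (nhdsWithin_mono _ fun x hx => ne_of_gt hx)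
  have hneg : Tendsto (fun t : ℝ => -t) (𝓝[>] (0 : ℝ)) (𝓝[≠] 0) := by
    refine tendsto_nhdsWithin_iff.mpr ⟨?_, ?_⟩
    · have : Tendsto (fun t : ℝ => -t) (𝓝 (0 : ℝ)) (𝓝 (-0)) := tendsto_id.neg
      rw [neg_zero] at this
      exact this.mono_left nhdsWithin_le_nhds
    · filter_upwards [self_mem_nhdsWithin] with t ht
      exact neg_ne_zero.mpr (ne_of_gt ht)
  have h2 : Tendsto (fun t : ℝ => (-t)⁻¹ • (p (μ + -t) - p μ)) (𝓝[>] 0) (𝓝 (deriv p μ)) :=
    hs.comp hneg
  have h3 := h1.sub h2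
  rw [sub_self] at h3
  have h4 : ∀ᶠ t : ℝ in 𝓝[>] 0, J ≤ t⁻¹ • (p (μ + t) - p μ) - (-t)⁻¹ • (p (μ + -t) - p μ) := by
    filter_upwards [self_mem_nhdsWithin] with t ht
    have ht0 : (0 : ℝ) < t := ht
    refine (h t ht0).trans (le_of_eq ?_)
    unfold S2
    simp only [smul_eq_mul, sub_eq_add_neg]
    field_simp
    ring
  have h5 := ge_of_tendsto h3 h4
  linarith

lemma not_diff_pInf : ¬ DifferentiableAt ℝ pInf muInf :=
  not_diff_of_S2 (J := 1 / 1000) (by norm_num) fun _ hη => S2_limit hη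

/-! ### Convergence of the finite-volume quantities -/

lemma logXi_mono_g {g₁ g₂ : ℝ → ℝ} (h : ∀ r, g₁ r ≤ g₂ r) {ν V : ℝ} (hne : XiL g₂ ν V ≠ ∞) :
    logXi g₁ ν V ≤ logXi g₂ ν V := by
  have h1 : ENNReal.ofReal (Real.exp (-0)) * XiL g₁ ν V ≤ XiL g₂ ν V := by
    simp only [neg_zero, Real.exp_zero, ENNReal.ofReal_one, one_mul]
    unfold XiL
    refine ENNReal.tsum_le_tsum fun N => ?_
    gcongr ?_ * ?_
    · rfl
    · refine lintegral_mono fun x => ?_
      unfold W logW
      refine ENNReal.ofReal_le_ofReal (Real.exp_le_exp.mpr ?_)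
      have := pairEnergy_mono h x
      linarith
  have := logXi_sub_le hne h1
  linarith

lemma tT_tendsto : Tendsto tT atTop (𝓝 0) := by
  unfold tT
  have h := (tendsto_pow_atTop_nhds_zero_of_lt_one (r := (1 / 2 : ℝ)) (by norm_num)
    (by norm_num)).const_mul (40000 : ℝ)
  simpa using h

lemma logXi_gTop_tendsto (ν : ℝ) :
    Tendsto (fun V : ℝ => (V ^ 3)⁻¹ * logXi gTop ν V) atTop (𝓝 (pInf ν)) := by
  obtain ⟨C, hC⟩ := logXi_tail 40000
  refine tendsto_order.2 ⟨fun b hb => ?_, fun b hb => ?_⟩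
  · obtain ⟨k, hk⟩ := exists_lt_of_lt_ciSup hb
    obtain ⟨R, hR⟩ := range_T k
    have ht := tendsto_press (attr_T k) hR ν
    filter_upwards [ht.eventually (lt_mem_nhds hk), eventually_gt_atTop (0 : ℝ)] with V hV hV0
    refine lt_of_lt_of_le hV ?_
    exact mul_le_mul_of_nonneg_left (logXi_mono_g (gT_le_gTop k) (XiL_ne_top attr_gTop ν hV0))
      (by positivity)
  · set ε : ℝ := (b - pInf ν) / 2 with hε
    have hε0 : 0 < ε := by rw [hε]; linarith
    set D : ℝ := |C + ν ^ 2| + 1 with hD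
    have hD0 : 0 < D := by positivity
    have hsmall : ∀ᶠ k in atTop, tT k < min 1 (ε / D) :=
      tT_tendsto.eventually (gt_mem_nhds (lt_min one_pos (by positivity)))
    obtain ⟨k, hk⟩ := hsmall.exists
    have hk1 : tT k ≤ 1 := (lt_of_lt_of_le hk (min_le_left _ _)).le
    have hk2 : tT k * D ≤ ε := by
      have := (lt_of_lt_of_le hk (min_le_right _ _)).le
      rwa [le_div_iff₀ hD0] at this
    obtain ⟨R, hR⟩ := range_T k
    have ht := tendsto_press (attr_T k) hR ν
    have hlt : press (gT k) ν < pInf ν + ε := lt_of_le_of_lt (pk_le_pInf k ν) (by linarith)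
    filter_upwards [ht.eventually (gt_mem_nhds hlt), eventually_ge_atTop (1 : ℝ)] with V hV hV1
    have h1 := hC (gT k) (hT k) (attr_T k) (attr_hT k) (tT k) ν V (tT_pos k).le hk1 hV1
    rw [← gTop_eq_tail k] at h1
    have hVpos : 0 < V ^ 3 := by positivity
    have h2 : (V ^ 3)⁻¹ * logXi gTop ν V ≤ (V ^ 3)⁻¹ * logXi (gT k) ν V + tT k * (C + ν ^ 2) := by
      have h3 := mul_le_mul_of_nonneg_left h1 (inv_pos.mpr hVpos).le
      refine h3.trans (le_of_eq ?_)
      field_simp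
    have h4 : tT k * (C + ν ^ 2) ≤ tT k * D :=
      mul_le_mul_of_nonneg_left ((le_abs_self _).trans (by rw [hD]; linarith)) (tT_pos k).le
    rw [hε] at hk2 hV
    linarith

/-- The final object: an attractive part of infinite range, with a pressure having a kink. -/
theorem exists_tower : ∃ (a L : ℕ → ℝ), (∀ k, 0 ≤ a k) ∧ (∀ k, 1 ≤ L k) ∧ Summable a ∧
    ∃ (p : ℝ → ℝ), (∀ ν, Tendsto
      (fun V : ℝ => (V ^ 3)⁻¹ * logXi (fun r => ∑' k, a k * kappa (L k) r) ν V) atTop (𝓝 (p ν))) ∧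
    ∃ μ : ℝ, ¬ DifferentiableAt ℝ p μ :=
  ⟨aT, LT, fun k => (aT_pos k).le, LT_ge, aT_summable, pInf, logXi_gTop_tendsto, muInf,
    not_diff_pInf⟩

end Vale.Agent.P171
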